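import Vale.Agent.KK.Defs
import Vale.Agent.P104.Dist
import Vale.Agent.KR.MpBasic
import Vale.Agent.KR.Dix

/-!
Small API. four' from KR.four with S empty. hyper80: T = a + i b with a, b selfadjoint,
[T*, y] = -[T, y*]*, scale by c (if c = 0 then T itself commutes with M), hyperreflexive.
gt_xi: KR.gt_gen for V x = T (x xi) on the C*-algebra M (haveI := vn_isClosed M).
inv_near: Neumann series (NormedRing.inverse_one_sub / Units.oneSub), y - 1 = -x y, y - 1 + x = x x y.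
-/

namespace Vale.Agent.KK

open Vale.Agent.P104
open scoped InnerProductSpace

universe u

variable {H : Type*} [NormedAddCommGroup H] [InnerProductSpace ℂ H] [CompleteSpace H]
  {M N : VonNeumannAlgebra H} {ξ : H}

theorem mem_UM {x : H →L[ℂ] H} : x ∈ UM M ↔ x ∈ M ∧ x ∈ unitary (H →L[ℂ] H) := Iff.rfl

theorem uni_norm_le {x : H →L[ℂ] H} (h : x ∈ unitary (H →L[ℂ] H)) : ‖x‖ ≤ 1 := by
  have h1 := CStarRing.norm_star_mul_self (x := x)
  rw [h.1] at h1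
  nlinarith [ContinuousLinearMap.norm_id_le (𝕜 := ℂ) (E := H), norm_nonneg x,
    show ‖(1 : H →L[ℂ] H)‖ = ‖ContinuousLinearMap.id ℂ H‖ from rfl]

theorem uni_apply {x : H →L[ℂ] H} (h : x ∈ unitary (H →L[ℂ] H)) (η : H) : ‖x η‖ = ‖η‖ := by
  rw [← sq_eq_sq₀ (norm_nonneg _) (norm_nonneg _), ← qf_star_mul_self, h.1, qf_one]

theorem four' {x : H →L[ℂ] H} (hx : x ∈ M) :
    ∃ (v : Fin 4 → H →L[ℂ] H) (c : Fin 4 → ℂ), (∀ i, v i ∈ M ∧ v i ∈ unitary (H →L[ℂ] H)) ∧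
      x = ∑ i, c i • v i ∧ ∀ i, ‖c i‖ ≤ ‖x‖ / 2 := by
  obtain ⟨u, c, h1, h2⟩ := KR.four (M := M) ∅ (by simp) (a := ⟨x, hx⟩) (by simp)
  refine ⟨fun i => (u i).1, c, fun i => ⟨(u i).1.2, congrArg Subtype.val (u i).2.1.1,
    congrArg Subtype.val (u i).2.1.2⟩, ?_, h2⟩
  simpa using congrArg Subtype.val h1

theorem hyper80 (M : VonNeumannAlgebra H) (T : H →L[ℂ] H) {c : ℝ} (hc : 0 ≤ c)
    (h : ∀ y ∈ M, ‖cm T y‖ ≤ c * ‖y‖) : ∃ b ∈ M.commutant, ‖T - b‖ ≤ 80 * c := by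
  rcases hc.eq_or_lt with rfl | hc
  · refine ⟨T, VonNeumannAlgebra.mem_commutant_iff.2 fun y hy => ?_, by simp⟩
    exact (sub_eq_zero.1 (norm_le_zero_iff.1 (by simpa using h y hy))).symm
  have h' : ∀ y ∈ M, ‖cm (star T) y‖ ≤ c * ‖y‖ := fun y hy => by
    have := h _ (star_mem hy)
    rw [← norm_star, star_sub, star_mul, star_mul, star_star, norm_sub_rev, norm_star] at this
    exact this
  have key : ∀ (a : H →L[ℂ] H) (s t : ℂ), IsSelfAdjoint a → a = s • T + t • star T →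
      ‖s‖ = 2⁻¹ → ‖t‖ = 2⁻¹ → ∃ b ∈ M.commutant, ‖a - b‖ ≤ 40 * c := fun a s t ha e hs ht => by
    obtain ⟨b, hb, -, h1⟩ := hyperreflexive (M := M) (T := c⁻¹ • a)
      ⟨(IsSelfAdjoint.all c⁻¹).smul ha, fun y hy => by
        have e1 : c⁻¹ • a * y - y * c⁻¹ • a = c⁻¹ • (s • cm T y + t • cm (star T) y) := by
          simp only [e, cm, smul_add, add_mul, mul_add, smul_mul_assoc, mul_smul_comm, smul_sub]
          abel
        rw [e1, norm_smul, norm_inv, Real.norm_of_nonneg hc.le, inv_mul_le_iff₀ hc]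
        refine (norm_add_le _ _).trans ?_
        rw [norm_smul, norm_smul, hs, ht]
        linarith [h y hy, h' y hy]⟩
    refine ⟨c • b, vn_rsmul_mem _ hb, ?_⟩
    rw [show a - c • b = c • (c⁻¹ • a - b) by rw [smul_sub, smul_inv_smul₀ hc.ne'], norm_smul,
      Real.norm_of_nonneg hc.le, mul_comm]
    gcongr
  obtain ⟨b, hb, h1⟩ := key _ 2⁻¹ 2⁻¹ (by simp [IsSelfAdjoint, add_comm]) rfl (by simp) (by simp)
  obtain ⟨b', hb', h2⟩ := key _ (-(Complex.I * 2⁻¹)) (Complex.I * 2⁻¹)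
    (by simp [IsSelfAdjoint, add_comm]) rfl (by simp) (by simp)
  refine ⟨b + Complex.I • b', add_mem hb (SMulMemClass.smul_mem _ hb'), ?_⟩
  have e : T - (b + Complex.I • b') = ((2⁻¹ : ℂ) • T + (2⁻¹ : ℂ) • star T - b) + Complex.I •
      (-(Complex.I * 2⁻¹) • T + (Complex.I * 2⁻¹) • star T - b') := by
    simp only [smul_sub, smul_add, smul_smul, mul_neg, ← mul_assoc, Complex.I_mul_I]
    module
  rw [e]
  refine (norm_add_le _ _).trans ?_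
  rw [norm_smul, Complex.norm_I]
  linarith

theorem norm_cm_le (x y : H →L[ℂ] H) : ‖cm x y‖ ≤ 2 * ‖x‖ * ‖y‖ := by
  linarith [norm_sub_le (x * y) (y * x), norm_mul_le x y, norm_mul_le y x]

omit [CompleteSpace H] in
theorem Near.mono {A B : Set (H →L[ℂ] H)} {c c' : ℝ} (h : Near A B c) (hc : c ≤ c') :
    Near A B c' := by
  intro x hx
  obtain ⟨y, hy, h1⟩ := h x hx
  exact ⟨y, hy, h1.trans (by gcongr)⟩

theorem Conj.mono {c c' : ℝ} (h : Conj M N c) (hc : c ≤ c') : Conj M N c' := by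
  obtain ⟨u, h1, h2, h3⟩ := h
  exact ⟨u, h1, h2.trans hc, h3⟩

theorem LinN.mono {z : H →L[ℂ] H} {c c' : ℝ} (h : LinN M N z c) (hc : c ≤ c') :
    LinN M N z c' := by
  obtain ⟨T, h1, h2⟩ := h
  exact ⟨T, h1, fun x => (h2 x).trans (by gcongr)⟩

variable {T T' : H →L[ℂ] H} {t t' : ℝ}

theorem Xi.mono (h : Xi M ξ T t) (ht : t ≤ t') : Xi M ξ T t' := by
  exact fun x hx => (h x hx).trans (by gcongr)

theorem Xi.add (h : Xi M ξ T t) (h' : Xi M ξ T' t') : Xi M ξ (T + T') (t + t') := by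
  intro x hx
  rw [add_mul]
  exact (norm_add_le _ _).trans (add_le_add (h x hx) (h' x hx))

theorem Xi.sub (h : Xi M ξ T t) (h' : Xi M ξ T' t') : Xi M ξ (T - T') (t + t') := by
  intro x hx
  rw [add_mul]
  exact (norm_sub_le _ _).trans (add_le_add (h x hx) (h' x hx))

theorem Xi.neg (h : Xi M ξ T t) : Xi M ξ (-T) t := by
  exact fun x hx => (norm_neg _).trans_le (h x hx)

theorem Xi.smul (h : Xi M ξ T t) (c : ℂ) : Xi M ξ (c • T) (‖c‖ * t) := by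
  intro x hx
  rw [mul_assoc]
  exact (norm_smul c _).trans_le (mul_le_mul_of_nonneg_left (h x hx) (norm_nonneg _))

theorem Xi.sum {I : Type*} (s : Finset I) {F : I → H →L[ℂ] H} {f : I → ℝ}
    (h : ∀ i ∈ s, Xi M ξ (F i) (f i)) : Xi M ξ (∑ i ∈ s, F i) (∑ i ∈ s, f i) := by
  intro x hx
  rw [Finset.sum_mul, sum_apply]
  exact norm_sum_le_of_le _ fun i hi => h i hi x hx

theorem Xi.mul_left (h : Xi M ξ T t) {s : H →L[ℂ] H} {c : ℝ} (hs : ‖s‖ ≤ c) :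
    Xi M ξ (s * T) (c * t) := by
  intro x hx
  rw [mul_assoc]
  exact (s.le_opNorm _).trans (mul_le_mul hs (h x hx) (norm_nonneg _) ((norm_nonneg _).trans hs))

theorem Xi.mul_mem (h : Xi M ξ T t) (ht : 0 ≤ t) {x : H →L[ℂ] H} (hx : x ∈ M) {c : ℝ}
    (hc : ‖x‖ ≤ c) : Xi M ξ (T * x) (c * t) := by
  intro y hy
  refine (h _ (MulMemClass.mul_mem hx hy)).trans ?_
  rw [mul_comm c, mul_assoc]
  exact mul_le_mul_of_nonneg_left ((norm_mul_le _ _).trans (by gcongr)) ht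

theorem Xi.apply_le (h : Xi M ξ T t) (ht : 0 ≤ t) : ‖T ξ‖ ≤ t := by
  exact (h 1 (one_mem _)).trans (mul_le_of_le_one_right ht (uni_norm_le (one_mem _)))

theorem Xi.cm_le (h : Xi M ξ T t) (ht : 0 ≤ t) {x : H →L[ℂ] H} (hx : x ∈ M) :
    ‖cm x T ξ‖ ≤ 2 * t * ‖x‖ := by
  have h1 := (x.le_opNorm _).trans (mul_le_mul_of_nonneg_left (h.apply_le ht) (norm_nonneg _))
  linarith [h x hx, show ‖cm x T ξ‖ ≤ _ from norm_sub_le (x (T ξ)) (T (x ξ))]

theorem gt_xi (h : Xi M ξ T t) (ht : 0 ≤ t) {I : Type*} [Fintype I] (x : I → H →L[ℂ] H)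
    (hx : ∀ i, x i ∈ M) : ∑ i, ‖T (x i ξ)‖ ^ 2 ≤
      3 * t ^ 2 * (‖∑ i, star (x i) * x i‖ + ‖∑ i, x i * star (x i)‖) := by
  let V : M →L[ℂ] H := LinearMap.mkContinuous
    { toFun := fun y => T (y.1 ξ), map_add' := fun _ _ => by simp, map_smul' := fun _ _ => by simp }
    t fun y => h y y.2
  have h1 : ‖V‖ ≤ t := LinearMap.mkContinuous_norm_le _ ht _
  have h2 := KR.gt_gen V fun i => ⟨x i, hx i⟩
  have e : ∀ f : I → M, ‖∑ i, f i‖ = ‖∑ i, (f i : H →L[ℂ] H)‖ := fun f => by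
    rw [← AddSubmonoidClass.coe_finsetSum]
    rfl
  rw [e, e] at h2
  refine h2.trans (mul_le_mul_of_nonneg_right ?_ (by positivity))
  gcongr

theorem GN.mono {Λ : Type} {e : Λ → H →L[ℂ] H} (h : GN M ξ e t) (ht : 0 ≤ t) (ht' : t ≤ t') :
    GN M ξ e t' := by
  exact fun I _ l x hx => (h I l x hx).trans (by gcongr)

theorem GN.add {Λ : Type} {e e' : Λ → H →L[ℂ] H} (h : GN M ξ e t) (h' : GN M ξ e' t')
    (ht : 0 ≤ t) (ht' : 0 ≤ t') : GN M ξ (fun l => e l + e' l) (2 * (t + t')) := by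
  intro I _ l x hx
  have h1 : ∑ i, ‖(e (l i) + e' (l i)) (x i ξ)‖ ^ 2 ≤
      ∑ i, (2 * ‖e (l i) (x i ξ)‖ ^ 2 + 2 * ‖e' (l i) (x i ξ)‖ ^ 2) :=
    Finset.sum_le_sum fun i _ => (pow_le_pow_left₀ (norm_nonneg _)
      (norm_add_le (e (l i) (x i ξ)) (e' (l i) (x i ξ))) 2).trans
      (by nlinarith [sq_nonneg (‖e (l i) (x i ξ)‖ - ‖e' (l i) (x i ξ)‖)])
  rw [Finset.sum_add_distrib, ← Finset.mul_sum, ← Finset.mul_sum] at h1
  have h2 : 0 ≤ ‖∑ i, star (x i) * x i‖ + ‖∑ i, x i * star (x i)‖ := by positivity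
  nlinarith [h I l x hx, h' I l x hx, mul_nonneg (mul_nonneg ht ht') h2,
    mul_nonneg (sq_nonneg t) h2, mul_nonneg (sq_nonneg t') h2]

theorem GN.of_mul {Λ : Type} {w : Λ → H →L[ℂ] H} {c : ℝ} (hw : ∀ l, ‖w l‖ ≤ c) (h : Xi M ξ T t)
    (ht : 0 ≤ t) : GN M ξ (fun l => w l * T) (2 * c * t) := by
  intro I _ l x hx
  have h1 : ∑ i, ‖(w (l i) * T) (x i ξ)‖ ^ 2 ≤ ∑ i, c ^ 2 * ‖T (x i ξ)‖ ^ 2 :=
    Finset.sum_le_sum fun i _ => (pow_le_pow_left₀ (norm_nonneg _) (((w _).le_opNorm _).trans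
      (mul_le_mul_of_nonneg_right (hw _) (norm_nonneg _))) 2).trans_eq (mul_pow _ _ _)
  rw [← Finset.mul_sum] at h1
  have h2 : 0 ≤ ‖∑ i, star (x i) * x i‖ + ‖∑ i, x i * star (x i)‖ := by positivity
  nlinarith [mul_le_mul_of_nonneg_left (gt_xi h ht x hx) (sq_nonneg c),
    mul_nonneg (sq_nonneg (c * t)) h2]

theorem GN.xi {Λ : Type} {e : Λ → H →L[ℂ] H} (h : GN M ξ e t) (ht : 0 ≤ t) (l : Λ) :
    Xi M ξ (e l) (2 * t) := by
  intro x hx
  have h1 := h Unit (fun _ => l) (fun _ => x) fun _ => hx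
  simp only [Finset.univ_unique, Finset.sum_singleton, CStarRing.norm_star_mul_self,
    CStarRing.norm_self_mul_star] at h1
  exact abs_le_of_sq_le_sq' (by nlinarith [sq_nonneg (t * ‖x‖)]) (by positivity) |>.2

omit [CompleteSpace H] in
theorem weak_le {I : Type*} {U : Filter I} [U.NeBot] {v : I → H} {w : H} {β : ℝ}
    (h : ∀ η, Filter.Tendsto (fun i => ⟪η, v i⟫_ℂ) U (nhds ⟪η, w⟫_ℂ))
    (hb : ∀ᶠ i in U, ‖v i‖ ≤ β) : ‖w‖ ≤ β := by
  have h1 : ‖⟪w, w⟫_ℂ‖ ≤ ‖w‖ * β := le_of_tendsto (h w).norm (hb.mono fun i hi =>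
    (norm_inner_le_norm _ _).trans (mul_le_mul_of_nonneg_left hi (norm_nonneg _)))
  obtain ⟨i, hi⟩ := hb.exists
  rw [inner_self_eq_norm_sq_to_K, norm_pow, RCLike.norm_ofReal, abs_norm] at h1
  by_contra h2
  nlinarith [norm_nonneg (v i)]

theorem wot_mem {I : Type*} {U : Ultrafilter I} {G : I → H →L[ℂ] H} {L : H →L[ℂ] H}
    (hL : ∀ ξ η, Filter.Tendsto (fun i => ⟪η, G i ξ⟫_ℂ) U (nhds ⟪η, L ξ⟫_ℂ))
    (hG : ∀ i, G i ∈ M) : L ∈ M := by
  refine (mem_iff_comm M).2 fun s hs => ContinuousLinearMap.ext fun ζ => ext_inner_left ℂ fun η => ?_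
  have h1 := hL ζ (star s η)
  simp only [inner_star_left] at h1
  refine tendsto_nhds_unique h1 ((hL (s ζ) η).congr fun i => ?_)
  rw [← mul_apply_eq_comp, ← comm_of_mem hs (hG i), mul_apply_eq_comp]

omit [CompleteSpace H] in
theorem wot_norm {I : Type*} {U : Ultrafilter I} {G : I → H →L[ℂ] H} {L : H →L[ℂ] H}
    (hL : ∀ ξ η, Filter.Tendsto (fun i => ⟪η, G i ξ⟫_ℂ) U (nhds ⟪η, L ξ⟫_ℂ)) {β : ℝ}
    (hG : ∀ i, ‖G i‖ ≤ β) : ‖L‖ ≤ β := by
  obtain ⟨i⟩ := Filter.nonempty_of_neBot (U : Filter I)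
  exact L.opNorm_le_bound ((norm_nonneg _).trans (hG i)) fun ζ => weak_le (hL ζ)
    (.of_forall fun i => ((G i).le_opNorm ζ).trans (mul_le_mul_of_nonneg_right (hG i) (norm_nonneg _)))

theorem inv_near {x : H →L[ℂ] H} {c : ℝ} (hx : ‖x‖ ≤ c) (hc : c ≤ 1 / 2) :
    ∃ y, (1 + x) * y = 1 ∧ y * (1 + x) = 1 ∧ ‖y - 1‖ ≤ 2 * c ∧ ‖y - 1 + x‖ ≤ 2 * c ^ 2 := by
  let u := Units.oneSub (-x) (by rw [norm_neg]; linarith)
  have h0 : (u : H →L[ℂ] H) = 1 + x := sub_neg_eq_add _ _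
  have h1 : (1 + x) * u.inv = 1 := h0 ▸ u.val_inv
  have h2 : u.inv - 1 = -(x * (u.inv - 1)) - x := by
    rw [← sub_eq_zero, ← sub_eq_zero.2 h1]
    noncomm_ring
  have h3 := (norm_mul_le x (u.inv - 1)).trans (mul_le_mul_of_nonneg_right hx (norm_nonneg _))
  have h4 : ‖u.inv - 1‖ ≤ 2 * c := by
    have := (congrArg norm h2).trans_le (norm_sub_le _ _)
    rw [norm_neg] at this
    nlinarith [norm_nonneg (u.inv - 1)]
  refine ⟨u.inv, h1, h0 ▸ u.inv_val, h4, ?_⟩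
  rw [eq_sub_iff_add_eq.1 h2, norm_neg]
  nlinarith [(norm_nonneg _).trans hx]

theorem Pair.nS' {S S' : H →L[ℂ] H} {ε η : ℝ} (h : Pair M N S S' ε η) (hη : η ≤ 1 / 2) :
    ‖S' - 1‖ ≤ 2 * η := by
  obtain ⟨y, -, h1, h2, -⟩ := inv_near h.nS hη
  rw [add_sub_cancel] at h1
  rwa [show S' = y by rw [← one_mul S', ← h1, mul_assoc, h.inv1, mul_one]]

theorem cj_mul {S S' a b : H →L[ℂ] H} (h : S * S' = 1) (ha : a ∈ cj S S' N) (hb : b ∈ cj S S' N) :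
    a * b ∈ cj S S' N := by
  have : S' * a * S * (S' * b * S) = S' * (a * b) * S := by
    simp only [mul_assoc, ← mul_assoc S, h, one_mul]
  exact show _ ∈ N from this ▸ mul_mem ha hb

theorem cj_one {S S' : H →L[ℂ] H} (h : S' * S = 1) : (1 : H →L[ℂ] H) ∈ cj S S' N := by
  change _ ∈ N
  rw [mul_one, h]
  exact one_mem _

theorem cj_sub {S S' a b : H →L[ℂ] H} (ha : a ∈ cj S S' N) (hb : b ∈ cj S S' N) :
    a - b ∈ cj S S' N := by
  change _ ∈ N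
  rw [mul_sub, sub_mul]
  exact sub_mem ha hb

theorem cj_add {S S' a b : H →L[ℂ] H} (ha : a ∈ cj S S' N) (hb : b ∈ cj S S' N) :
    a + b ∈ cj S S' N := by
  change _ ∈ N
  rw [mul_add, add_mul]
  exact add_mem ha hb

theorem cj_smul {S S' a : H →L[ℂ] H} (c : ℂ) (ha : a ∈ cj S S' N) : c • a ∈ cj S S' N := by
  change _ ∈ N
  rw [mul_smul_comm, smul_mul_assoc]
  exact SMulMemClass.smul_mem _ ha

theorem cj_conj {S S' n : H →L[ℂ] H} (h : S' * S = 1) (hn : n ∈ N) : S * n * S' ∈ cj S S' N := by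
  change _ ∈ N
  simpa only [mul_assoc, ← mul_assoc S' S, h, one_mul, mul_one] using hn

omit [CompleteSpace H] in
theorem basic_conj {P Q : H →L[ℂ] H} {p q : ℝ} (hP : ‖P - 1‖ ≤ p) (hQ : ‖Q - 1‖ ≤ q)
    (x : H →L[ℂ] H) : ‖P * x * Q - x‖ ≤ (p * (1 + q) + q) * ‖x‖ := by
  have e : P * x * Q - x = (P - 1) * (x * (Q - 1)) + (P - 1) * x + x * (Q - 1) := by noncomm_ring
  have h0 := (norm_nonneg _).trans hP
  have h1 := (norm_mul_le x (Q - 1)).trans (mul_le_mul_of_nonneg_left hQ (norm_nonneg _))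
  have h2 := (norm_mul_le (P - 1) _).trans (mul_le_mul hP h1 (norm_nonneg _) h0)
  have h3 := (norm_mul_le (P - 1) x).trans (mul_le_mul_of_nonneg_right hP (norm_nonneg _))
  rw [e]
  linarith [norm_add₃_le (a := (P - 1) * (x * (Q - 1))) (b := (P - 1) * x) (c := x * (Q - 1))]

/-- `‖S n S' - n‖ ≤ 3.1 η ‖n‖`; `x` close to `n` gives `E = 5 η`. -/
theorem Pair.duo {S S' : H →L[ℂ] H} {ε η : ℝ} (h : Pair M N S S' ε η) (hη : η ≤ 1 / 100) :
    Duo M (cj S S' N) (cj S S' N.commutant) (5 * η) := by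
  have h0 := h.pos.trans h.le
  have h1 := h.nS' (by linarith)
  have sub : ∀ L : VonNeumannAlgebra H, ∃ V : Submodule ℂ (H →L[ℂ] H), V = cj S S' L := fun L =>
    ⟨⟨⟨⟨cj S S' L, cj_add⟩, show _ ∈ L by simp⟩, fun c _ => cj_smul c⟩, rfl⟩
  have cl : ∀ L : VonNeumannAlgebra H, IsClosed (cj S S' L) := fun L =>
    (vn_isClosed L).preimage (f := fun b => S' * b * S) (by fun_prop)
  have n1 : ∀ K L : VonNeumannAlgebra H, NearV K L ε → Near K (cj S S' L) (5 * η) := by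
    intro K L hn x hx
    obtain ⟨y, hy, h2⟩ := hn x hx
    have h3 := basic_conj h.nS h1 y
    have h4 := norm_sub_norm_le y x
    have h5 := mul_le_mul_of_nonneg_right h.le (norm_nonneg x)
    rw [norm_sub_rev] at h3 h4
    refine ⟨_, cj_conj h.inv2 hy, (norm_sub_le_norm_sub_add_norm_sub _ y _).trans ?_⟩
    have h6 : ‖y‖ ≤ 1.1 * ‖x‖ := by nlinarith [norm_nonneg x]
    have h7 : (η * (1 + 2 * η) + 2 * η) * ‖y‖ ≤ 3.1 * η * (1.1 * ‖x‖) :=
      mul_le_mul (by nlinarith) h6 (norm_nonneg _) (by positivity)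
    nlinarith [mul_nonneg h0 (norm_nonneg x)]
  have n2 : ∀ K L : VonNeumannAlgebra H, NearV L K ε → Near (cj S S' L) K (5 * η) := by
    intro K L hn x hx
    obtain ⟨y, hy, h2⟩ := hn _ hx
    have h3 := (basic_conj h1 h.nS x).trans (mul_le_mul_of_nonneg_right
      (show _ ≤ 3.1 * η by nlinarith) (norm_nonneg _))
    have h4 := norm_sub_norm_le (S' * x * S) x
    refine ⟨y, hy, (norm_sub_le_norm_sub_add_norm_sub _ (S' * x * S) _).trans ?_⟩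
    have h6 : ‖S' * x * S‖ ≤ 1.1 * ‖x‖ := by nlinarith [norm_nonneg x]
    have h7 := mul_le_mul h.le h6 (norm_nonneg _) h0
    rw [norm_sub_rev]
    nlinarith [mul_nonneg h0 (norm_nonneg x)]
  refine ⟨by positivity, sub _, sub _, cl _, cl _, fun a ha b hb => ?_, n1 _ _ h.n1, n2 _ _ h.n2,
    n1 _ _ h.n3, n2 _ _ h.n4⟩
  have := congrArg (fun x => S * x * S') (comm_of_mem hb ha)
  simpa only [mul_assoc, ← mul_assoc S S', h.inv1, one_mul, mul_one] using this.symm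

end Vale.Agent.KK
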