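import Vale.Agent.KK.Basic

/-!
Matrices acting on the left index of H^(iota x iota); lop (sw A) acts on the right index. Everything follows from lop_adj
and Amp.ext_adj / Amp.norm_sq_eq (Fintype.sum_prod_type). lop_norm_iff: for each t apply MN to eta s' = J (s',t)* zeta;
conversely test on zeta = sum_s J (s,t0) (eta s).
-/

namespace Vale.Agent.KK

open Vale.Agent.P104
open scoped InnerProductSpace

universe u

variable {H K : Type*} [NormedAddCommGroup H] [InnerProductSpace ℂ H] [CompleteSpace H]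
  [NormedAddCommGroup K] [InnerProductSpace ℂ K] [CompleteSpace K]
  {ι : Type*} [Fintype ι] [DecidableEq ι]
  (A : Amp H K (ι × ι))

open Matrix

theorem sw_J (s t : ι) : (sw A).J (s, t) = A.J (t, s) := rfl

theorem sw_sw : sw (sw A) = A := rfl

theorem sw_amp (y : H →L[ℂ] H) : (sw A).amp y = A.amp y := by
  ext ζ
  refine A.ext_adj fun ⟨s, t⟩ => ?_
  exact ((sw A).adj_amp y (t, s) ζ).trans (A.adj_amp y (s, t) ζ).symm

theorem emb_sw : emb (sw A) = emb A := rfl

theorem lop_adj (X : Matrix ι ι (H →L[ℂ] H)) (s t : ι) (ζ : K) :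
    (A.J (s, t)).adjoint (lop A X ζ) = ∑ s', X s s' ((A.J (s', t)).adjoint ζ) := by
  simp only [lop, ContinuousLinearMap.sum_apply, ContinuousLinearMap.comp_apply, map_sum,
    A.adj_J_apply, Prod.mk.injEq]
  rw [Finset.sum_eq_single s]
  · refine Finset.sum_congr rfl fun s' _ => ?_
    simp
  · intro b _ hb
    simp [Ne.symm hb]
  · simp

theorem bi1_sw_adj (Y : Matrix ι ι (H →L[ℂ] H)) (s t : ι) (ζ : K) :
    (A.J (s, t)).adjoint (lop (sw A) Y ζ) = ∑ t', Y t t' ((A.J (s, t')).adjoint ζ) :=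
  lop_adj (sw A) Y t s ζ

theorem lop_mul (X Y : Matrix ι ι (H →L[ℂ] H)) : lop A (X * Y) = lop A X * lop A Y := by
  ext ζ
  refine A.ext_adj fun ⟨s, t⟩ => ?_
  simp only [ContinuousLinearMap.mul_apply, lop_adj, Matrix.mul_apply,
    ContinuousLinearMap.sum_apply, map_sum]
  exact Finset.sum_comm

theorem lop_add (X Y : Matrix ι ι (H →L[ℂ] H)) : lop A (X + Y) = lop A X + lop A Y := by
  ext ζ
  refine A.ext_adj fun ⟨s, t⟩ => ?_
  simp [lop_adj, Finset.sum_add_distrib]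

theorem lop_sub (X Y : Matrix ι ι (H →L[ℂ] H)) : lop A (X - Y) = lop A X - lop A Y := by
  ext ζ
  refine A.ext_adj fun ⟨s, t⟩ => ?_
  simp [lop_adj, Finset.sum_sub_distrib]

theorem lop_zero : lop A 0 = 0 := by
  simp [lop]

theorem lop_smul (c : ℂ) (X : Matrix ι ι (H →L[ℂ] H)) : lop A (c • X) = c • lop A X := by
  ext ζ
  refine A.ext_adj fun ⟨s, t⟩ => ?_
  simp [lop_adj, Finset.smul_sum]

theorem lop_sum {I : Type*} (s : Finset I) (X : I → Matrix ι ι (H →L[ℂ] H)) :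
    lop A (∑ i ∈ s, X i) = ∑ i ∈ s, lop A (X i) := by
  classical
  induction s using Finset.induction_on with
  | empty => simp [lop_zero]
  | insert a s ha ih => rw [Finset.sum_insert ha, Finset.sum_insert ha, lop_add, ih]

theorem lop_star (X : Matrix ι ι (H →L[ℂ] H)) : lop A (star X) = star (lop A X) := by
  ext ζ
  refine ext_inner_left ℂ fun η => ?_
  rw [inner_star_right, A.inner_eq, A.inner_eq (lop A X η)]
  simp only [Fintype.sum_prod_type, lop_adj, inner_sum, sum_inner, Matrix.star_apply,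
    inner_star_right]
  rw [Finset.sum_comm]
  conv_rhs => rw [Finset.sum_comm]
  exact Finset.sum_congr rfl fun t _ => Finset.sum_comm

theorem lop_diag (y : H →L[ℂ] H) : lop A (diagonal fun _ => y) = A.amp y := by
  ext ζ
  refine A.ext_adj fun ⟨s, t⟩ => ?_
  rw [lop_adj, A.adj_amp, Finset.sum_eq_single s]
  · simp
  · intro b _ hb
    simp [Matrix.diagonal_apply_ne _ (Ne.symm hb)]
  · simp

theorem lop_one : lop A 1 = 1 := by
  rw [← A.amp_one, ← lop_diag, Matrix.diagonal_one]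

theorem amp_mul_lop (y : H →L[ℂ] H) (X : Matrix ι ι (H →L[ℂ] H)) :
    A.amp y * lop A X = lop A (of fun s t => y * X s t) := by
  ext ζ
  refine A.ext_adj fun ⟨s, t⟩ => ?_
  simp [lop_adj, A.adj_amp]

theorem lop_mul_amp (y : H →L[ℂ] H) (X : Matrix ι ι (H →L[ℂ] H)) :
    lop A X * A.amp y = lop A (of fun s t => X s t * y) := by
  ext ζ
  refine A.ext_adj fun ⟨s, t⟩ => ?_
  simp [lop_adj, A.adj_amp]

theorem lop_entry (X : Matrix ι ι (H →L[ℂ] H)) (s t s' t' : ι) :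
    (A.J (s, t)).adjoint ∘L lop A X ∘L A.J (s', t') = if t = t' then X s s' else 0 := by
  ext η
  simp only [ContinuousLinearMap.comp_apply, lop_adj, A.adj_J_apply, Prod.mk.injEq]
  by_cases h : t = t'
  · rw [Finset.sum_eq_single s']
    · simp [h]
    · intro b _ hb
      simp [hb]
    · simp
  · simp [h]

theorem lop_inj {X Y : Matrix ι ι (H →L[ℂ] H)} (h : lop A X = lop A Y) : X = Y := by
  refine Matrix.ext fun s s' => ?_
  have h1 := lop_entry A X s s s' s
  have h2 := lop_entry A Y s s s' s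
  rw [if_pos rfl] at h1 h2
  rw [← h1, ← h2, h]

theorem lop_eq_sum (X : Matrix ι ι (H →L[ℂ] H)) :
    lop A X = ∑ s, ∑ t, A.amp (X s t) * lu A s t := by
  simp only [lu, amp_mul_lop, ← lop_sum]
  congr 1
  refine Matrix.ext fun s s' => ?_
  simp [Matrix.sum_apply, Matrix.single_apply, ite_and]

theorem lop_norm_iff (X : Matrix ι ι (H →L[ℂ] H)) {c : ℝ} (hc : 0 ≤ c) :
    ‖lop A X‖ ≤ c ↔ MN X c := by
  constructor
  · intro h η
    rcases isEmpty_or_nonempty ι with hι | ⟨⟨t₀⟩⟩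
    · simp
    have e1 : ∀ s t, (A.J (s, t)).adjoint (∑ s, A.J (s, t₀) (η s)) = if t = t₀ then η s else 0 := by
      intro s t
      simp [A.adj_J_apply, ite_and]
    have e2 : ‖∑ s, A.J (s, t₀) (η s)‖ ^ 2 = ∑ s, ‖η s‖ ^ 2 := by
      rw [A.norm_sq_eq, Fintype.sum_prod_type]
      refine Finset.sum_congr rfl fun s _ => ?_
      rw [Finset.sum_eq_single t₀]
      · rw [e1, if_pos rfl]
      · intro b _ hb
        simp [e1, hb]
      · simp
    have e3 : ‖lop A X (∑ s, A.J (s, t₀) (η s))‖ ^ 2 = ∑ s, ‖∑ t, X s t (η t)‖ ^ 2 := by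
      rw [A.norm_sq_eq, Fintype.sum_prod_type]
      refine Finset.sum_congr rfl fun s _ => ?_
      rw [Finset.sum_eq_single t₀]
      · simp only [lop_adj, e1, if_true]
      · intro b _ hb
        simp only [lop_adj, e1, if_neg hb]
        simp
      · simp
    rw [← e2, ← e3, ← mul_pow]
    gcongr
    exact (lop A X).le_of_opNorm_le h _
  · intro h
    refine ContinuousLinearMap.opNorm_le_bound _ hc fun ζ => ?_
    refine abs_le_of_sq_le_sq' ?_ (by positivity) |>.2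
    rw [mul_pow, A.norm_sq_eq, A.norm_sq_eq ζ, Fintype.sum_prod_type_right,
      Fintype.sum_prod_type_right, Finset.mul_sum]
    refine Finset.sum_le_sum fun t _ => ?_
    simp only [lop_adj]
    exact h fun s' => (A.J (s', t)).adjoint ζ

theorem lop_unitary_iff (X : Matrix ι ι (H →L[ℂ] H)) :
    lop A X ∈ unitary (K →L[ℂ] K) ↔ X ∈ unitary (Matrix ι ι (H →L[ℂ] H)) := by
  rw [Unitary.mem_iff, Unitary.mem_iff, ← lop_star, ← lop_mul, ← lop_mul, ← lop_one A]
  exact ⟨fun h => ⟨lop_inj A h.1, lop_inj A h.2⟩, fun h => ⟨by rw [h.1], by rw [h.2]⟩⟩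

theorem lop_comm {X Y : Matrix ι ι (H →L[ℂ] H)}
    (h : ∀ s s' t t', X s s' * Y t t' = Y t t' * X s s') :
    lop A X * lop (sw A) Y = lop (sw A) Y * lop A X := by
  ext ζ
  refine A.ext_adj fun ⟨s, t⟩ => ?_
  simp only [ContinuousLinearMap.mul_apply, lop_adj, bi1_sw_adj, map_sum]
  rw [Finset.sum_comm]
  refine Finset.sum_congr rfl fun t' _ => Finset.sum_congr rfl fun s' _ => ?_
  exact congrArg (fun y : H →L[ℂ] H => y ((A.J (s', t')).adjoint ζ)) (h s s' t t')

theorem lu_munits : MUnits (lu A) := by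
  constructor
  · intro a b
    rw [lu, lu, ← lop_star, Matrix.star_eq_conjTranspose, Matrix.conjTranspose_single, star_one]
  · intro a b c d
    rw [lu, lu, ← lop_mul]
    split_ifs with h
    · subst h
      rw [Matrix.single_mul_single_same, mul_one, lu]
    · rw [Matrix.single_mul_single_of_ne _ _ _ _ h, lop_zero]

theorem sum_lu : ∑ a, lu A a a = 1 := by
  simp only [lu, ← lop_sum]
  rw [← lop_one A]
  congr 1
  refine Matrix.ext fun s s' => ?_
  simp [Matrix.sum_apply, Matrix.single_apply, ite_and, Matrix.one_apply]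

theorem lu_amp (a b : ι) (y : H →L[ℂ] H) : lu A a b * A.amp y = A.amp y * lu A a b := by
  rw [lu, amp_mul_lop, lop_mul_amp]
  congr 1
  refine Matrix.ext fun s s' => ?_
  simp [Matrix.single_apply]

theorem bi1_lu_adj (a b s t : ι) (ζ : K) :
    (A.J (s, t)).adjoint (lu A a b ζ) = if a = s then (A.J (b, t)).adjoint ζ else 0 := by
  rw [lu, lop_adj, Finset.sum_eq_single b]
  · by_cases h : a = s <;> simp [Matrix.single_apply, h]
  · intro c _ hc
    simp [Matrix.single_apply, Ne.symm hc]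
  · simp

theorem bi1_lu_sw_adj (a b s t : ι) (ζ : K) :
    (A.J (s, t)).adjoint (lu (sw A) a b ζ) = if a = t then (A.J (s, b)).adjoint ζ else 0 :=
  bi1_lu_adj (sw A) a b t s ζ

theorem bi1_lu_sw_J (a s t : ι) (ξ : H) : lu (sw A) a t (A.J (s, t) ξ) = A.J (s, a) ξ := by
  refine A.ext_adj fun ⟨p, q⟩ => ?_
  rw [bi1_lu_sw_adj, A.adj_J_apply, A.adj_J_apply]
  by_cases h : a = q
  · simp [h]
  · simp [h, Ne.symm h]

theorem bi1_key {X : K →L[ℂ] K} (h : ∀ a b, X * lu (sw A) a b = lu (sw A) a b * X)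
    (s t s' t' t₀ : ι) (ξ : H) : (A.J (s, t)).adjoint (X (A.J (s', t') ξ)) =
      if t' = t then (A.J (s, t₀)).adjoint (X (A.J (s', t₀) ξ)) else 0 := by
  have := congrArg (fun y : K →L[ℂ] K => y (A.J (s', t₀) ξ)) (h t' t₀)
  simp only [ContinuousLinearMap.mul_apply, bi1_lu_sw_J] at this
  rw [this, bi1_lu_sw_adj]

theorem lu_mul_lu (s s' t t' : ι) : lu A s s' * lu (sw A) t t' = A.E (s, t) (s', t') := by
  ext ζ
  refine A.ext_adj fun ⟨p, q⟩ => ?_
  rw [ContinuousLinearMap.mul_apply, bi1_lu_adj, bi1_lu_sw_adj, A.E_apply, A.adj_J_apply]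
  by_cases h : s = p
  · by_cases h' : t = q
    · simp [h, h']
    · simp [h', Ne.symm h']
  · simp [h, Ne.symm h]

theorem lu_comm (s s' t t' : ι) : lu A s s' * lu (sw A) t t' = lu (sw A) t t' * lu A s s' := by
  refine lop_comm A fun a b c d => ?_
  simp only [Matrix.single_apply]
  split_ifs <;> simp

theorem eq_lop {X : K →L[ℂ] K} (h : ∀ a b, X * lu (sw A) a b = lu (sw A) a b * X) (t₀ : ι) :
    X = lop A (of fun s s' => (A.J (s, t₀)).adjoint ∘L X ∘L A.J (s', t₀)) := by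
  refine A.op_ext fun ⟨s, t⟩ ⟨s', t'⟩ ξ => ?_
  have := congrArg (fun y : H →L[ℂ] H => y ξ) (lop_entry A
    (of fun s s' => (A.J (s, t₀)).adjoint ∘L X ∘L A.J (s', t₀)) s t s' t')
  simp only [ContinuousLinearMap.comp_apply] at this
  rw [this, bi1_key A h s t s' t' t₀]
  by_cases h : t = t'
  · simp [h]
  · simp [h, Ne.symm h]

theorem eq_amp {X : K →L[ℂ] K} (h : ∀ a b, X * lu A a b = lu A a b * X)
    (h' : ∀ a b, X * lu (sw A) a b = lu (sw A) a b * X) (p : ι × ι) :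
    X = A.amp ((A.J p).adjoint ∘L X ∘L A.J p) := by
  obtain ⟨s₀, t₀⟩ := p
  refine A.op_ext fun ⟨s, t⟩ ⟨s', t'⟩ ξ => ?_
  have e := bi1_key (sw A) h t₀ s t₀ s' s₀ ξ
  simp only [sw_J] at e
  rw [bi1_key A h' s t s' t' t₀, e, A.amp_J, A.adj_J_apply]
  by_cases h1 : t' = t
  · by_cases h2 : s' = s
    · simp [h1, h2]
    · simp [h2, Ne.symm h2]
  · simp [h1, Ne.symm h1]

theorem amp_norm [Nonempty ι] (y : H →L[ℂ] H) : ‖A.amp y‖ = ‖y‖ := by
  refine le_antisymm (A.norm_amp_le y) ?_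
  obtain ⟨s⟩ := ‹Nonempty ι›
  refine ContinuousLinearMap.opNorm_le_bound _ (norm_nonneg _) fun ξ => ?_
  rw [← A.norm_J (s, s) (y ξ), ← A.amp_J, ← A.norm_J (s, s) ξ]
  exact (A.amp y).le_opNorm _

theorem emb_adj (η : H) (s t : ι) : (A.J (s, t)).adjoint (emb A η) =
    if s = t then ((Real.sqrt (Fintype.card ι))⁻¹ : ℂ) • η else 0 := by
  by_cases h : s = t
  · simp [emb, A.adj_J_apply, h]
  · simp only [emb, ContinuousLinearMap.smul_apply, ContinuousLinearMap.sum_apply, map_smul,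
      map_sum, A.adj_J_apply, if_neg h]
    rw [Finset.sum_eq_zero, smul_zero]
    intro b _
    rw [if_neg]
    intro hb
    rw [Prod.mk.injEq] at hb
    exact h (hb.1.trans hb.2.symm)

theorem bi1_emb_adj_apply (ζ : K) : (emb A).adjoint ζ =
    ((Real.sqrt (Fintype.card ι))⁻¹ : ℂ) • ∑ s, (A.J (s, s)).adjoint ζ := by
  refine ext_inner_left ℂ fun η => ?_
  rw [ContinuousLinearMap.adjoint_inner_right, inner_smul_right, inner_sum]
  simp only [emb, ContinuousLinearMap.smul_apply, ContinuousLinearMap.sum_apply, inner_smul_left,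
    sum_inner, ContinuousLinearMap.adjoint_inner_right, map_inv₀, Complex.conj_ofReal]

omit [DecidableEq ι] in
theorem bi1_c_mul : ((Real.sqrt (Fintype.card ι))⁻¹ : ℂ) * ((Real.sqrt (Fintype.card ι))⁻¹ : ℂ) =
    (Fintype.card ι : ℂ)⁻¹ := by
  rw [← mul_inv, ← Complex.ofReal_mul, Real.mul_self_sqrt (Nat.cast_nonneg _),
    Complex.ofReal_natCast]

omit [DecidableEq ι] in
theorem bi1_c_norm : ‖((Real.sqrt (Fintype.card ι))⁻¹ : ℂ)‖ ^ 2 = (Fintype.card ι : ℝ)⁻¹ := by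
  rw [norm_inv, Complex.norm_real, inv_pow, Real.norm_eq_abs, sq_abs,
    Real.sq_sqrt (Nat.cast_nonneg _)]

theorem emb_adj_emb [Nonempty ι] (η : H) : (emb A).adjoint (emb A η) = η := by
  have hn : (Fintype.card ι : ℂ) ≠ 0 := Nat.cast_ne_zero.2 Fintype.card_ne_zero
  simp only [bi1_emb_adj_apply, emb_adj, if_true, Finset.sum_const, Finset.card_univ]
  rw [smul_comm, smul_smul, bi1_c_mul, ← Nat.cast_smul_eq_nsmul ℂ, smul_smul,
    mul_inv_cancel₀ hn, one_smul]

theorem norm_emb [Nonempty ι] (η : H) : ‖emb A η‖ = ‖η‖ := by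
  rw [@norm_eq_sqrt_re_inner ℂ, @norm_eq_sqrt_re_inner ℂ H,
    ← ContinuousLinearMap.adjoint_inner_right, emb_adj_emb]

theorem amp_emb (y : H →L[ℂ] H) (η : H) : A.amp y (emb A η) = emb A (y η) := by
  refine A.ext_adj fun ⟨s, t⟩ => ?_
  rw [A.adj_amp, emb_adj, emb_adj]
  split_ifs <;> simp

theorem emb_adj_amp (y : H →L[ℂ] H) (ζ : K) :
    (emb A).adjoint (A.amp y ζ) = y ((emb A).adjoint ζ) := by
  simp only [bi1_emb_adj_apply, A.adj_amp, map_smul, map_sum]

theorem bi1_lop_emb (X : Matrix ι ι (H →L[ℂ] H)) (η : H) (s t : ι) :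
    (A.J (s, t)).adjoint (lop A X (emb A η)) =
      ((Real.sqrt (Fintype.card ι))⁻¹ : ℂ) • X s t η := by
  rw [lop_adj, Finset.sum_eq_single t]
  · rw [emb_adj, if_pos rfl, map_smul]
  · intro b _ hb
    rw [emb_adj, if_neg hb, map_zero]
  · simp

theorem bi1_sw_emb (X : Matrix ι ι (H →L[ℂ] H)) (η : H) (s t : ι) :
    (A.J (s, t)).adjoint (lop (sw A) X (emb A η)) =
      ((Real.sqrt (Fintype.card ι))⁻¹ : ℂ) • X t s η :=
  bi1_lop_emb (sw A) X η t s

theorem lop_emb_sw (Y : Matrix ι ι (H →L[ℂ] H)) (η : H) :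
    lop (sw A) Y (emb A η) = lop A Yᵀ (emb A η) := by
  refine A.ext_adj fun ⟨s, t⟩ => ?_
  rw [bi1_lop_emb, bi1_sw_emb, Matrix.transpose_apply]

theorem norm_lop_emb (X : Matrix ι ι (H →L[ℂ] H)) (η : H) :
    ‖lop A X (emb A η)‖ ^ 2 = (Fintype.card ι : ℝ)⁻¹ * ∑ s, ∑ t, ‖X s t η‖ ^ 2 := by
  rw [A.norm_sq_eq, Fintype.sum_prod_type]
  simp only [bi1_lop_emb, norm_smul, mul_pow, bi1_c_norm, Finset.mul_sum]

theorem emb_adj_lop (X : Matrix ι ι (H →L[ℂ] H)) (η : H) :
    (emb A).adjoint (lop A X (emb A η)) = (Fintype.card ι : ℂ)⁻¹ • ∑ s, X s s η := by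
  simp only [bi1_emb_adj_apply, bi1_lop_emb, ← Finset.smul_sum]
  rw [smul_smul, bi1_c_mul]

theorem norm_test (U W : Matrix ι ι (H →L[ℂ] H)) (η : H) :
    ‖cm (lop A U) (lop (sw A) W) (emb A η)‖ ^ 2 =
      (Fintype.card ι : ℝ)⁻¹ * ∑ s, ∑ t, ‖(∑ k, cm (U s k) (W t k)) η‖ ^ 2 := by
  have e : ∀ s t, (A.J (s, t)).adjoint (cm (lop A U) (lop (sw A) W) (emb A η)) =
      ((Real.sqrt (Fintype.card ι))⁻¹ : ℂ) • (∑ k, cm (U s k) (W t k)) η := by
    intro s t
    simp only [cm, ContinuousLinearMap.sub_apply, ContinuousLinearMap.mul_apply, map_sub]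
    rw [lop_adj, bi1_sw_adj]
    simp only [bi1_lop_emb, bi1_sw_emb, map_smul, ContinuousLinearMap.sum_apply,
      ContinuousLinearMap.sub_apply, ContinuousLinearMap.mul_apply, Finset.smul_sum, smul_sub,
      Finset.sum_sub_distrib]
  rw [A.norm_sq_eq, Fintype.sum_prod_type]
  simp only [e, norm_smul, mul_pow, bi1_c_norm, Finset.mul_sum]

end Vale.Agent.KK
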