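import Vale.Agent.KK.Ext

/-!
The mirror map. sep: |x a xi| = |a* x* xi| <= |a| |x xi|, density. Existence: ext_op with eta = x* xi,
|a x* xi| = |x a* xi| <= |x| |a xi|. Std.comm: cyc since M' xi contains M xi; tr: <y* xi, a xi> = <a* xi, y xi> gives
|y* xi| <= |y xi| by density, symmetric. All identities follow from uniqueness (Std.comm.sep).
mir_surj: apply the existence to M' (commutant_commutant): x in M with x xi = y* xi; <x* xi, a xi> = <a* xi, ...>: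
mir x has (mir x) xi = x* xi, and (mir x)* xi = x xi = y* xi, so mir x = y.
-/

namespace Vale.Agent.KK

open Vale.Agent.P104
open scoped InnerProductSpace

universe u

variable {H : Type*} [NormedAddCommGroup H] [InnerProductSpace ℂ H] [CompleteSpace H]
  {M : VonNeumannAlgebra H} {ξ : H} {x y : H →L[ℂ] H}

theorem Std.dense (h : Std M ξ) : DenseRange fun a : M => (a : H →L[ℂ] H) ξ := by
  refine Metric.denseRange_iff.2 fun η r hr => ?_
  obtain ⟨a, ha, h1⟩ := h.cyc η (r / 2) (half_pos hr)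
  exact ⟨⟨a, ha⟩, by rw [dist_eq_norm]; exact h1.trans_lt (half_lt_self hr)⟩

theorem Std.swap_le (h : Std M ξ) (hx : x ∈ M) (hy : y ∈ M) : ‖x (y ξ)‖ ≤ ‖y‖ * ‖x ξ‖ := by
  rw [← mul_apply_eq_comp, ← h.tr _ (mul_mem hx hy), star_mul, mul_apply_eq_comp, ← h.tr x hx,
    ← norm_star y]
  exact (star y).le_opNorm _

theorem Std.sep (h : Std M ξ) (hx : x ∈ M) (h0 : x ξ = 0) : x = 0 := by
  refine ContinuousLinearMap.ext fun η => h.dense.induction_on η
    (isClosed_eq (by fun_prop) (by fun_prop)) fun a => ?_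
  have h1 := h.swap_le hx a.2
  rw [h0, norm_zero, mul_zero] at h1
  exact norm_le_zero_iff.1 h1

theorem Std.ext (h : Std M ξ) {S T : H →L[ℂ] H} (h0 : ∀ a ∈ M, S (a ξ) = T (a ξ)) : S = T := by
  exact ContinuousLinearMap.ext fun η => h.dense.induction_on η
    (isClosed_eq (by fun_prop) (by fun_prop)) fun a => h0 a a.2

theorem Std.exists_mir (h : Std M ξ) (hx : x ∈ M) :
    ∃ y ∈ M.commutant, y ξ = star x ξ ∧ ‖y‖ ≤ ‖x‖ := by
  obtain ⟨s, hs, h1, h2, -⟩ := ext_op M ξ (star x ξ) (norm_nonneg x) fun a ha =>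
    norm_star x ▸ h.swap_le ha (star_mem hx)
  exact ⟨s, hs, h2, h1⟩

theorem Std.comm (h : Std M ξ) : Std M.commutant ξ := by
  have key : ∀ y ∈ M.commutant, ‖star y ξ‖ ≤ ‖y ξ‖ := fun y hy => by
    have h1 : ∀ η, ‖⟪star y ξ, η⟫_ℂ‖ ≤ ‖η‖ * ‖y ξ‖ := fun η =>
      h.dense.induction_on η (isClosed_le (by fun_prop) (by fun_prop)) fun a => by
        rw [inner_star_left, ← mul_apply_eq_comp, comm_of_mem hy a.2, mul_apply_eq_comp,
          ← inner_star_left, ← h.tr _ a.2]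
        exact norm_inner_le_norm _ _
    have h2 := h1 (star y ξ)
    rw [inner_self_eq_norm_sq_to_K, norm_pow, RCLike.norm_ofReal, abs_norm] at h2
    by_contra h3
    nlinarith [norm_nonneg (y ξ)]
  refine ⟨fun η ε hε => ?_, fun y hy => le_antisymm (key y hy) ?_, h.nrm⟩
  · obtain ⟨a, ha, h1⟩ := h.cyc η ε hε
    obtain ⟨y, hy, h2, -⟩ := h.exists_mir (star_mem ha)
    exact ⟨y, hy, by rwa [h2, star_star]⟩
  · simpa only [star_star] using key _ (star_mem hy)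

theorem mir_spec (h : Std M ξ) (hx : x ∈ M) :
    mir M ξ x ∈ M.commutant ∧ mir M ξ x ξ = star x ξ := by
  have h1 : ∃ y ∈ M.commutant, y ξ = star x ξ := by
    obtain ⟨y, hy, h1, -⟩ := h.exists_mir hx
    exact ⟨y, hy, h1⟩
  rw [mir, dif_pos h1]
  exact h1.choose_spec

theorem Std.eq_of (h : Std M ξ) (hx : x ∈ M) (hy : y ∈ M) (h0 : x ξ = y ξ) : x = y :=
  sub_eq_zero.1 (h.sep (sub_mem hx hy) (by rw [sub_apply, h0, sub_self]))

theorem mir_mem (h : Std M ξ) (hx : x ∈ M) : mir M ξ x ∈ M.commutant := by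
  exact (mir_spec h hx).1

theorem mir_xi (h : Std M ξ) (hx : x ∈ M) : mir M ξ x ξ = star x ξ := by
  exact (mir_spec h hx).2

theorem mir_eq (h : Std M ξ) (hx : x ∈ M) (hy : y ∈ M.commutant) (h0 : y ξ = star x ξ) :
    mir M ξ x = y := by
  exact h.comm.eq_of (mir_mem h hx) hy ((mir_xi h hx).trans h0.symm)

theorem mir_apply (h : Std M ξ) (hx : x ∈ M) (hy : y ∈ M) :
    mir M ξ x (y ξ) = (y * star x) ξ := by
  rw [← mul_apply_eq_comp, comm_of_mem (mir_mem h hx) hy, mul_apply_eq_comp, mir_xi h hx,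
    mul_apply_eq_comp]

theorem mir_norm (h : Std M ξ) (hx : x ∈ M) : ‖mir M ξ x‖ ≤ ‖x‖ := by
  obtain ⟨y, hy, h1, h2⟩ := h.exists_mir hx
  rwa [mir_eq h hx hy h1]

theorem mir_mul (h : Std M ξ) (hx : x ∈ M) (hy : y ∈ M) :
    mir M ξ (x * y) = mir M ξ x * mir M ξ y := by
  refine mir_eq h (mul_mem hx hy) (mul_mem (mir_mem h hx) (mir_mem h hy)) ?_
  rw [mul_apply_eq_comp, mir_xi h hy, mir_apply h hx (star_mem hy), star_mul]

theorem mir_one (h : Std M ξ) : mir M ξ 1 = 1 := by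
  exact mir_eq h (one_mem M) (one_mem _) (by rw [star_one])

theorem mir_star_xi (h : Std M ξ) (hx : x ∈ M) : star (mir M ξ x) ξ = x ξ := by
  have h1 : ‖star (mir M ξ x) ξ‖ = ‖x ξ‖ := by
    rw [h.comm.tr _ (mir_mem h hx), mir_xi h hx, h.tr x hx]
  have h2 : ⟪star (mir M ξ x) ξ, x ξ⟫_ℂ = ⟪star x ξ, star x ξ⟫_ℂ := by
    rw [inner_star_left, mir_apply h hx hx, inner_star_left, mul_apply_eq_comp]
  have h3 := norm_sub_sq (𝕜 := ℂ) (star (mir M ξ x) ξ) (x ξ)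
  rw [h2, inner_self_eq_norm_sq, h1, h.tr x hx] at h3
  have h4 : ‖star (mir M ξ x) ξ - x ξ‖ ^ 2 = 0 := by linarith
  exact sub_eq_zero.1 (norm_eq_zero.1 (pow_eq_zero_iff two_ne_zero |>.1 h4))

theorem mir_inj (h : Std M ξ) (hx : x ∈ M) (hy : y ∈ M) (h0 : mir M ξ x = mir M ξ y) : x = y :=
  h.eq_of hx hy (by rw [← mir_star_xi h hx, h0, mir_star_xi h hy])

theorem mir_star (h : Std M ξ) (hx : x ∈ M) : mir M ξ (star x) = star (mir M ξ x) := by
  exact mir_eq h (star_mem hx) (star_mem (mir_mem h hx)) (by rw [mir_star_xi h hx, star_star])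

theorem mir_unitary (h : Std M ξ) (hx : x ∈ M) (hu : x ∈ unitary (H →L[ℂ] H)) :
    mir M ξ x ∈ unitary (H →L[ℂ] H) := by
  rw [Unitary.mem_iff, ← mir_star h hx, ← mir_mul h (star_mem hx) hx, ← mir_mul h hx (star_mem hx),
    Unitary.star_mul_self_of_mem hu, Unitary.mul_star_self_of_mem hu, mir_one h]
  exact ⟨rfl, rfl⟩

theorem mir_surj (h : Std M ξ) (hy : y ∈ M.commutant) :
    ∃ x ∈ M, mir M ξ x = y ∧ ‖x‖ ≤ ‖y‖ ∧
      (y ∈ unitary (H →L[ℂ] H) → x ∈ unitary (H →L[ℂ] H)) := by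
  obtain ⟨x, hx, h1, h2⟩ := h.comm.exists_mir hy
  rw [VonNeumannAlgebra.commutant_commutant] at hx
  have h3 : mir M ξ x = y := star_injective
    (h.comm.eq_of (star_mem (mir_mem h hx)) (star_mem hy) ((mir_star_xi h hx).trans h1))
  refine ⟨x, hx, h3, h2, fun hu => Unitary.mem_iff.2 ⟨?_, ?_⟩⟩
  · refine mir_inj h (mul_mem (star_mem hx) hx) (one_mem M) ?_
    rw [mir_mul h (star_mem hx) hx, mir_star h hx, h3, mir_one h, Unitary.star_mul_self_of_mem hu]
  · refine mir_inj h (mul_mem hx (star_mem hx)) (one_mem M) ?_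
    rw [mir_mul h hx (star_mem hx), mir_star h hx, h3, mir_one h, Unitary.mul_star_self_of_mem hu]

variable {T : H →L[ℂ] H} {t : ℝ}

theorem Xi.comm_apply (h : Std M ξ) (hT : Xi M ξ T t) (ht : 0 ≤ t) (hy : y ∈ M.commutant) :
    ‖T (y ξ)‖ ≤ t * ‖y‖ := by
  obtain ⟨x, hx, h1, h2, -⟩ := mir_surj h hy
  rw [← norm_star x] at h2
  refine le_trans ?_ (mul_le_mul_of_nonneg_left h2 ht)
  rw [← h1, mir_xi h hx]
  exact hT _ (star_mem hx)

theorem Xi.of_comm (h : Std M ξ) (ht : 0 ≤ t) (hT : ∀ y ∈ M.commutant, ‖T (y ξ)‖ ≤ t * ‖y‖) :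
    Xi M ξ T t := by
  intro x hx
  have h1 := hT _ (mir_mem h (star_mem hx))
  rw [mir_xi h (star_mem hx), star_star] at h1
  exact h1.trans (mul_le_mul_of_nonneg_left ((mir_norm h (star_mem hx)).trans_eq (norm_star x)) ht)

theorem Xi.mul_comm (h : Std M ξ) (hT : Xi M ξ T t) (ht : 0 ≤ t) (hy : y ∈ M.commutant) {c : ℝ}
    (hc : ‖y‖ ≤ c) : Xi M ξ (T * y) (c * t) := by
  refine Xi.of_comm h (mul_nonneg ((norm_nonneg y).trans hc) ht) fun y' hy' => ?_
  refine (hT.comm_apply h ht (MulMemClass.mul_mem hy hy')).trans ?_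
  rw [_root_.mul_comm c, mul_assoc]
  exact mul_le_mul_of_nonneg_left
    ((norm_mul_le y y').trans (mul_le_mul_of_nonneg_right hc (norm_nonneg _))) ht

theorem Xi.of_norm (h : Std M ξ) (hT : ‖T‖ ≤ t) : Xi M ξ T t := by
  intro x _
  refine (T.le_opNorm _).trans (mul_le_mul hT ?_ (norm_nonneg _) ((norm_nonneg T).trans hT))
  exact (x.le_opNorm ξ).trans (mul_le_of_le_one_right (norm_nonneg x) h.nrm)

end Vale.Agent.KK
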