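import Vale.Agent.KK.Basic

/-!
Near inclusions.
near_comm: y in N', x in M close to n: |[y, x]| = |[y, x - n]| <= 2c |x||y|, hyper80.
polar_near: g = v* v, |g - 1| <= 9c/4, u = v cfc (t^{-1/2}) g, |t^{-1/2} - 1| <= |t - 1| on [7/16, 25/16]; v is invertible
(inv_near) so u* u = 1 gives u u* = 1. If v x = y v and v x* = y* v then x commutes with g, so with cfc (Commute.cfc_real).
near_proj: b = real part of the approximant, |b^2 - b| <= 3c + c^2, so for t in the spectrum |t| <= 7c or |t - 1| <= 7c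
(norm_apply_le_norm_cfc); q = cfc (max 0 (min 1 (2t - 1/2))) b, cfc_congr, norm_cfc_le.
near_cproj: q from near_proj; for n in N close to x in M, |[q, n]| <= 18 c |n|; if q n (1 - q) is not
zero, connect gives a nonzero PIso v = q v (1 - q) with |[q, v]| = |v| = 1.
proj_eq: commuting projections at distance < 1 are equal ((p - q)^3 = p - q; or p(1 - q) is a projection of norm < 1).
conj_proj: v = q p + (1 - q)(1 - p), v - 1 = (2q - 1)(p - q), polar_near.
-/

namespace Vale.Agent.KK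

open Vale.Agent.P104
open scoped InnerProductSpace

universe u

variable {H : Type*} [NormedAddCommGroup H] [InnerProductSpace ℂ H] [CompleteSpace H]
  {M N : VonNeumannAlgebra H} {c : ℝ}

private theorem nearB_l {w : H →L[ℂ] H} (hw : w ∈ unitary (H →L[ℂ] H)) (x : H →L[ℂ] H) :
    star w * (w * x) = x := by
  rw [← mul_assoc, Unitary.star_mul_self_of_mem hw, one_mul]

private theorem nearB_r {w : H →L[ℂ] H} (hw : w ∈ unitary (H →L[ℂ] H)) (x : H →L[ℂ] H) :
    w * (star w * x) = x := by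
  rw [← mul_assoc, Unitary.mul_star_self_of_mem hw, one_mul]

private theorem nearB_norm {w w' : H →L[ℂ] H} (hw : w ∈ unitary (H →L[ℂ] H))
    (hw' : w' ∈ unitary (H →L[ℂ] H)) (x : H →L[ℂ] H) : ‖w * x * w'‖ ≤ ‖x‖ := by
  have h1 := uni_norm_le hw
  have h2 := uni_norm_le hw'
  calc _ ≤ ‖w‖ * ‖x‖ * ‖w'‖ := (norm_mul_le _ _).trans (by gcongr; exact norm_mul_le _ _)
    _ ≤ 1 * ‖x‖ * 1 := by gcongr
    _ = _ := by ring

private theorem nearB_star (w : H →L[ℂ] H) : ‖star w - 1‖ = ‖w - 1‖ := by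
  rw [← norm_star (w - 1), star_sub, star_one]

theorem near_comm (hc : 0 ≤ c) (h : NearV M N c) :
    NearV N.commutant M.commutant (160 * c) := by
  intro y hy
  obtain ⟨b, hb, h1⟩ := hyper80 M y (c := 2 * c * ‖y‖) (by positivity) fun x hx => by
    obtain ⟨n, hn, h2⟩ := h x hx
    have e : cm y x = cm y (x - n) := by
      have := comm_of_mem hy hn
      simp only [cm, mul_sub, sub_mul, this]
      abel
    rw [e]
    refine (norm_cm_le _ _).trans ?_
    have := mul_le_mul_of_nonneg_left h2 (by positivity : 0 ≤ 2 * ‖y‖)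
    linarith
  exact ⟨b, hb, h1.trans (le_of_eq (by ring))⟩

theorem polar_near {v : H →L[ℂ] H} (hv : ‖v - 1‖ ≤ c) (hc : c ≤ 1 / 4) :
    ∃ w ∈ unitary (H →L[ℂ] H), ‖w - 1‖ ≤ 5 * c ∧
      ∀ x y, v * x = y * v → v * star x = star y * v → w * x = y * w := by
  have hc0 : 0 ≤ c := (norm_nonneg _).trans hv
  obtain ⟨g, hg⟩ : ∃ g, g = star v * v := ⟨_, rfl⟩
  have hgs : IsSelfAdjoint g := hg ▸ IsSelfAdjoint.star_mul_self v
  have hg1 : ‖g - 1‖ ≤ 9 / 4 * c := by
    have e : g - 1 = star (v - 1) * (v - 1) + star (v - 1) + (v - 1) := by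
      rw [hg, star_sub, star_one]
      noncomm_ring
    have h1 : ‖star (v - 1) * (v - 1)‖ ≤ c * c := by
      rw [CStarRing.norm_star_mul_self]
      exact mul_le_mul hv hv (norm_nonneg _) hc0
    have h2 := norm_add₃_le (a := star (v - 1) * (v - 1)) (b := star (v - 1)) (c := v - 1)
    rw [norm_star] at h2
    rw [e]
    nlinarith
  have hsp : ∀ t ∈ spectrum ℝ g, |t - 1| ≤ 9 / 4 * c := by
    intro t ht
    have h1 := norm_apply_le_norm_cfc (fun t : ℝ => t - 1) g ht
    rw [cfc_sub _ _ g, cfc_id' ℝ g, cfc_const_one ℝ g] at h1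
    exact le_trans h1 hg1
  obtain ⟨φ, hφ⟩ : ∃ φ : ℝ → ℝ, φ = fun t => (√(max t (1 / 4)))⁻¹ := ⟨_, rfl⟩
  have hφc : Continuous φ := by
    rw [hφ]
    refine Continuous.inv₀ (by fun_prop) fun t => ?_
    exact (Real.sqrt_pos.2 (lt_max_of_lt_right (by norm_num))).ne'
  have hφv : ∀ t ∈ spectrum ℝ g, φ t * t * φ t = 1 ∧ |φ t - 1| ≤ 9 / 4 * c := by
    intro t ht
    have h1 := abs_le.1 (hsp t ht)
    have h2 : 7 / 16 ≤ t := by linarith [h1.1]
    have h3 : φ t = (√t)⁻¹ := by
      rw [hφ]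
      simp only
      rw [max_eq_left (by linarith)]
    have h4 : √t * √t = t := Real.mul_self_sqrt (by linarith)
    have h5 : 13 / 20 ≤ √t := Real.le_sqrt_of_sq_le (by linarith)
    obtain ⟨r, hr⟩ : ∃ r, r = √t := ⟨_, rfl⟩
    rw [← hr] at h3 h4 h5
    have h6 : 0 < r := by linarith
    refine ⟨by rw [h3, ← h4]; field_simp, le_trans ?_ (hsp t ht)⟩
    have e : t - 1 = -((φ t - 1) * (r * (1 + r))) := by
      rw [h3, ← h4]
      field_simp
      ring
    rw [e, abs_neg, abs_mul, abs_of_pos (by positivity : 0 < r * (1 + r))]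
    exact le_mul_of_one_le_right (abs_nonneg _) (by nlinarith)
  obtain ⟨k, hk⟩ : ∃ k, k = cfc φ g := ⟨_, rfl⟩
  have hks : star k = k := by
    rw [hk]
    exact (cfc_predicate φ g).star_eq
  have hkgk : k * g * k = 1 := by
    have e : cfc (fun t => φ t * t * φ t) g = k * g * k := by
      rw [cfc_mul _ _ g, cfc_mul _ _ g, cfc_id' ℝ g, hk]
    rw [← e, ← cfc_const_one ℝ g]
    exact cfc_congr fun t ht => (hφv t ht).1
  have hk1 : ‖k - 1‖ ≤ 9 / 4 * c := by
    have e : cfc (fun t => φ t - 1) g = k - 1 := by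
      rw [cfc_sub _ _ g, cfc_const_one ℝ g, hk]
    rw [← e]
    exact norm_cfc_le (by positivity) fun t ht => (hφv t ht).2
  obtain ⟨y, hy, -⟩ := inv_near hv (by linarith)
  rw [add_sub_cancel] at hy
  have hl : star (v * k) * (v * k) = 1 := by
    rw [star_mul, hks, ← hkgk, hg]
    simp only [mul_assoc]
  have hr : v * k * (g * k * y) = 1 := by
    calc _ = v * (k * g * k) * y := by simp only [mul_assoc]
      _ = 1 := by rw [hkgk, mul_one, hy]
  have hr' : v * k * star (v * k) = 1 := by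
    have : star (v * k) = g * k * y := by
      calc _ = star (v * k) * (v * k * (g * k * y)) := by rw [hr, mul_one]
        _ = _ := by rw [← mul_assoc, hl, one_mul]
    rw [this, hr]
  refine ⟨v * k, ⟨hl, hr'⟩, ?_, fun x z h1 h2 => ?_⟩
  · have e : v * k - 1 = (v - 1) * (k - 1) + (k - 1) + (v - 1) := by noncomm_ring
    have h1 : ‖(v - 1) * (k - 1)‖ ≤ c * (9 / 4 * c) :=
      (norm_mul_le _ _).trans (mul_le_mul hv hk1 (norm_nonneg _) hc0)
    have h2 := norm_add₃_le (a := (v - 1) * (k - 1)) (b := k - 1) (c := v - 1)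
    rw [e]
    nlinarith
  · have h3 : x * star v = star v * z := by
      have := congrArg star h2
      simpa only [star_mul, star_star] using this
    have h4 : g * x = x * g := by
      rw [hg, mul_assoc, h1, ← mul_assoc, ← h3, mul_assoc]
    have h5 : k * x = x * k := by
      rw [hk]
      exact Commute.cfc_real (a := g) (b := x) h4 φ
    rw [mul_assoc, h5, ← mul_assoc, h1, mul_assoc]

theorem near_proj (hc : c ≤ 1 / 50) (h : NearV M N c) {p : H →L[ℂ] H} (hp : IsStarProjection p)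
    (hpM : p ∈ M) (hc0 : 0 ≤ c) : ∃ q ∈ N, IsStarProjection q ∧ ‖p - q‖ ≤ 8 * c := by
  obtain ⟨n, hn, h1⟩ := h p hpM
  have hp1 := hp.norm_le
  have h2 : ‖p - n‖ ≤ c := h1.trans (mul_le_of_le_one_right hc0 hp1)
  obtain ⟨b, hb⟩ : ∃ b, b = (1 / 2 : ℝ) • (n + star n) := ⟨_, rfl⟩
  have hbN : b ∈ N := hb ▸ vn_rsmul_mem _ (add_mem hn (star_mem hn))
  have hbs : IsSelfAdjoint b := by
    rw [hb]
    exact (IsSelfAdjoint.all _).smul (IsSelfAdjoint.add_star_self n)
  have h3 : ‖b - p‖ ≤ c := by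
    have e : b - p = (1 / 2 : ℝ) • ((n - p) + star (n - p)) := by
      rw [hb, star_sub, hp.isSelfAdjoint.star_eq]
      module
    have h4 := norm_add_le (n - p) (star (n - p))
    rw [norm_star, norm_sub_rev n p] at h4
    rw [e, norm_smul, Real.norm_eq_abs, abs_of_pos (by norm_num)]
    linarith
  have h4 : ‖b * b - b‖ ≤ 151 / 50 * c := by
    have e : b * b - b = (b - p) * (b - p) + p * (b - p) + (b - p) * p - (b - p) := by
      have := hp.isIdempotentElem.eq
      simp only [mul_sub, sub_mul, this]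
      abel
    have a1 : ‖(b - p) * (b - p)‖ ≤ c * c :=
      (norm_mul_le _ _).trans (mul_le_mul h3 h3 (norm_nonneg _) hc0)
    have a2 : ‖p * (b - p)‖ ≤ 1 * c :=
      (norm_mul_le _ _).trans (mul_le_mul hp1 h3 (norm_nonneg _) zero_le_one)
    have a3 : ‖(b - p) * p‖ ≤ c * 1 :=
      (norm_mul_le _ _).trans (mul_le_mul h3 hp1 (norm_nonneg _) hc0)
    have a4 := norm_add₃_le (a := (b - p) * (b - p)) (b := p * (b - p)) (c := (b - p) * p)
    have a5 := norm_sub_le ((b - p) * (b - p) + p * (b - p) + (b - p) * p) (b - p)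
    rw [e]
    nlinarith
  obtain ⟨φ, hφ⟩ : ∃ φ : ℝ → ℝ, φ = fun t => max 0 (min 1 (2 * t - 1 / 2)) := ⟨_, rfl⟩
  have hφc : Continuous φ := by
    rw [hφ]
    fun_prop
  have hsp : ∀ t ∈ spectrum ℝ b, φ t * φ t = φ t ∧ |t - φ t| ≤ 7 * c := by
    intro t ht
    have a1 := norm_apply_le_norm_cfc (fun t : ℝ => t * t - t) b ht
    rw [cfc_sub _ _ b, cfc_mul _ _ b, cfc_id' ℝ b] at a1
    have a2 : |t| * |t - 1| ≤ 151 / 50 * c := by
      rw [← abs_mul, mul_sub, mul_one]
      exact le_trans a1 h4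
    rcases le_total t (1 / 2) with ht' | ht'
    · have a3 : 1 / 2 ≤ |t - 1| := le_abs.2 (Or.inr (by linarith))
      have a4 : |t| ≤ 7 * c := by nlinarith [abs_nonneg t]
      have a5 : φ t = 0 := by
        rw [hφ]
        exact max_eq_left (min_le_of_right_le (by linarith [(abs_le.1 a4).2]))
      rw [a5, sub_zero]
      exact ⟨mul_zero _, a4⟩
    · have a3 : 1 / 2 ≤ |t| := le_abs.2 (Or.inl ht')
      have a4 : |t - 1| ≤ 7 * c := by nlinarith [abs_nonneg (t - 1)]
      have a5 : φ t = 1 := by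
        rw [hφ]
        simp only
        rw [min_eq_left (by linarith [(abs_le.1 a4).1]), max_eq_right zero_le_one]
      rw [a5]
      exact ⟨mul_one _, a4⟩
  refine ⟨cfc φ b, vn_cfc_mem φ hbN, ⟨?_, cfc_predicate φ b⟩, ?_⟩
  · show cfc φ b * cfc φ b = cfc φ b
    rw [← cfc_mul _ _ b]
    exact cfc_congr fun t ht => (hsp t ht).1
  · have e : cfc (fun t => t - φ t) b = b - cfc φ b := by
      rw [cfc_sub _ _ b, cfc_id' ℝ b]
    have a1 : ‖b - cfc φ b‖ ≤ 7 * c := by
      rw [← e]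
      exact norm_cfc_le (by positivity) fun t ht => (hsp t ht).2
    have a2 := norm_sub_le_norm_sub_add_norm_sub p b (cfc φ b)
    rw [norm_sub_rev p b] at a2
    linarith

theorem near_cproj (hc : c ≤ 1 / 50) (h : NearV M N c) (h' : NearV N M c) (hc0 : 0 ≤ c)
    {z : H →L[ℂ] H} (hz : CProj M z) : ∃ w, CProj N w ∧ ‖z - w‖ ≤ 8 * c := by
  obtain ⟨q, hqN, hq, h1⟩ := near_proj hc h hz.proj hz.mem hc0
  have h2 : ∀ n ∈ N, ‖cm q n‖ ≤ 18 * c * ‖n‖ := by
    intro n hn
    obtain ⟨x, hx, h3⟩ := h' n hn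
    have e : cm q n = cm (q - z) n + cm z (n - x) := by
      have := hz.comm hx
      simp only [cm, mul_sub, sub_mul, this]
      abel
    have a1 := norm_cm_le (q - z) n
    have a2 := norm_cm_le z (n - x)
    rw [norm_sub_rev q z] at a1
    have a3 := mul_le_mul_of_nonneg_right h1 (norm_nonneg n)
    have a4 : ‖z‖ * ‖n - x‖ ≤ 1 * (c * ‖n‖) :=
      mul_le_mul hz.proj.norm_le h3 (norm_nonneg _) zero_le_one
    have a5 := norm_add_le (cm (q - z) n) (cm z (n - x))
    rw [e]
    linarith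
  have h3 : ∀ n ∈ N, q * n = q * n * q := by
    intro n hn
    by_contra h4
    obtain ⟨v, hv, -, hv0, a1, a2⟩ := connect N hq.one_sub hq (sub_mem (one_mem _) hqN) hqN hn
      (by rw [mul_sub, mul_one, sub_ne_zero]; exact h4)
    have a3 : v * q = 0 := by
      rw [mul_sub, mul_one] at a2
      exact sub_eq_self.1 a2
    have a4 := h2 v hv
    rw [cm, a1, a3, sub_zero] at a4
    have a5 := norm_pos_iff.2 hv0
    nlinarith
  refine ⟨q, ⟨hq, hqN, ?_⟩, h1⟩
  rw [VonNeumannAlgebra.mem_commutant_iff]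
  intro n hn
  have a1 := congrArg star (h3 (star n) (star_mem hn))
  simp only [star_mul, star_star, hq.isSelfAdjoint.star_eq] at a1
  rw [a1, h3 n hn, mul_assoc]

theorem proj_zero {p : H →L[ℂ] H} (hp : IsStarProjection p) (h : ‖p‖ < 1) : p = 0 := by
  have h1 : ‖p‖ * ‖p‖ = ‖p‖ := by
    rw [← CStarRing.norm_star_mul_self, hp.isSelfAdjoint.star_eq, hp.isIdempotentElem.eq]
  have h2 := norm_nonneg p
  exact norm_eq_zero.1 (by nlinarith)

theorem proj_eq {p q : H →L[ℂ] H} (hp : IsStarProjection p) (hq : IsStarProjection q)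
    (hpq : p * q = q * p) (h : ‖p - q‖ < 1) : p = q := by
  have e : (p - q) * (p - q) * (p - q) = p - q := by
    have a1 := hp.isIdempotentElem.eq
    have a2 := hq.isIdempotentElem.eq
    have a3 : p * q * p = p * q := by rw [mul_assoc, ← hpq, ← mul_assoc, a1]
    have a4 : p * q * q = p * q := by rw [mul_assoc, a2]
    simp only [mul_sub, sub_mul, a1, a2, ← hpq, a3, a4]
    abel
  have h1 : ‖p - q‖ ≤ ‖p - q‖ * ‖p - q‖ * ‖p - q‖ := by
    conv_lhs => rw [← e]
    exact (norm_mul_le _ _).trans (by gcongr; exact norm_mul_le _ _)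
  have h2 := norm_nonneg (p - q)
  refine sub_eq_zero.1 (norm_eq_zero.1 ?_)
  by_contra h3
  have h4 : 0 < ‖p - q‖ := lt_of_le_of_ne h2 (Ne.symm h3)
  have h5 : ‖p - q‖ * ‖p - q‖ < 1 := by nlinarith
  nlinarith

theorem conj_proj {p q : H →L[ℂ] H} (hp : IsStarProjection p) (hq : IsStarProjection q)
    (h : ‖p - q‖ ≤ c) (hc : c ≤ 1 / 4) :
    ∃ w ∈ unitary (H →L[ℂ] H), ‖w - 1‖ ≤ 5 * c ∧ w * p * star w = q := by
  have a1 := hp.isIdempotentElem.eq
  have a2 := hq.isIdempotentElem.eq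
  have hu : q + q - 1 ∈ unitary (H →L[ℂ] H) := by
    have e1 : star (q + q - 1) = q + q - 1 := by
      rw [star_sub, star_add, star_one, hq.isSelfAdjoint.star_eq]
    have e2 : (q + q - 1) * (q + q - 1) = 1 := by
      simp only [mul_sub, sub_mul, mul_add, add_mul, a2, mul_one, one_mul]
      abel
    exact ⟨by rw [e1, e2], by rw [e1, e2]⟩
  have hv : ‖q * p + (1 - q) * (1 - p) - 1‖ ≤ c := by
    have e : q * p + (1 - q) * (1 - p) - 1 = (q + q - 1) * (p - q) := by
      simp only [mul_sub, sub_mul, add_mul, a2, mul_one, one_mul]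
      abel
    rw [e]
    refine (norm_mul_le _ _).trans ?_
    have := mul_le_mul (uni_norm_le hu) h (norm_nonneg _) zero_le_one
    linarith
  have e : (q * p + (1 - q) * (1 - p)) * p = q * (q * p + (1 - q) * (1 - p)) := by
    have b1 : (1 - p) * p = 0 := by rw [sub_mul, one_mul, a1, sub_self]
    have b2 : q * (1 - q) = 0 := by rw [mul_sub, mul_one, a2, sub_self]
    rw [add_mul, mul_add, mul_assoc, a1, mul_assoc, b1, ← mul_assoc q q, a2, ← mul_assoc q (1 - q),
      b2, mul_zero, zero_mul]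
  obtain ⟨w, hw, h1, h2⟩ := polar_near hv hc
  refine ⟨w, hw, h1, ?_⟩
  rw [h2 p q e (by rw [hp.isSelfAdjoint.star_eq, hq.isSelfAdjoint.star_eq, e]), mul_assoc,
    Unitary.mul_star_self_of_mem hw, mul_one]

theorem norm_conj_sub {w : H →L[ℂ] H} (hw : w ∈ unitary (H →L[ℂ] H)) (x : H →L[ℂ] H) :
    ‖w * x * star w - x‖ ≤ 2 * ‖w - 1‖ * ‖x‖ := by
  have e : w * x * star w - x = (w - 1) * x * star w + x * (star w - 1) := by noncomm_ring
  have h1 := uni_norm_le (Unitary.star_mem hw)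
  have h2 : ‖(w - 1) * x * star w‖ ≤ ‖w - 1‖ * ‖x‖ * 1 :=
    (norm_mul_le _ _).trans (mul_le_mul (norm_mul_le _ _) h1 (norm_nonneg _) (by positivity))
  have h3 := norm_mul_le x (star w - 1)
  rw [nearB_star] at h3
  have h4 := norm_add_le ((w - 1) * x * star w) (x * (star w - 1))
  rw [e]
  linarith

theorem mem_vnConj {w : H →L[ℂ] H} (hw : w ∈ unitary (H →L[ℂ] H)) {x : H →L[ℂ] H} :
    x ∈ vnConj w N ↔ w * x * star w ∈ N := by
  rw [vnConj, mem_vnComm, mem_iff_comm]
  constructor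
  · intro h s hs
    have h1 := congrArg (fun t => w * t * star w) (h _ ⟨s, hs, rfl⟩).1
    simpa only [mul_assoc, nearB_r hw, Unitary.mul_star_self_of_mem hw, mul_one] using h1
  · intro h
    have key : ∀ s ∈ N.commutant, star w * s * w * x = x * (star w * s * w) := by
      intro s hs
      have h1 := congrArg (fun t => star w * t * w) (h s hs)
      simpa only [mul_assoc, nearB_l hw, Unitary.star_mul_self_of_mem hw, mul_one] using h1
    rintro _ ⟨s, hs, rfl⟩
    refine ⟨key s hs, ?_⟩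
    have := key (star s) (star_mem hs)
    simpa only [star_mul, star_star, mul_assoc] using this

theorem mem_vnConj_comm {w : H →L[ℂ] H} (hw : w ∈ unitary (H →L[ℂ] H)) {x : H →L[ℂ] H} :
    x ∈ (vnConj w N).commutant ↔ w * x * star w ∈ N.commutant := by
  rw [VonNeumannAlgebra.mem_commutant_iff, VonNeumannAlgebra.mem_commutant_iff]
  constructor
  · intro h n hn
    have h0 : star w * n * w ∈ vnConj w N := by
      rw [mem_vnConj hw]
      simpa only [mul_assoc, nearB_r hw, Unitary.mul_star_self_of_mem hw, mul_one] using hn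
    have h1 := congrArg (fun t => w * t * star w) (h _ h0)
    simpa only [mul_assoc, nearB_r hw, Unitary.mul_star_self_of_mem hw, mul_one] using h1
  · intro h y hy
    have h1 := congrArg (fun t => star w * t * w) (h _ ((mem_vnConj hw).1 hy))
    simpa only [mul_assoc, nearB_l hw, Unitary.star_mul_self_of_mem hw, mul_one] using h1

theorem near_vnConj {w : H →L[ℂ] H} (hw : w ∈ unitary (H →L[ℂ] H)) {d : ℝ} (hd : ‖w - 1‖ ≤ d)
    (hc : 0 ≤ c) (h : NearV M N c) (h' : NearV N M c) :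
    NearV M (vnConj w N) (c + 2 * d) ∧ NearV (vnConj w N) M (c + 2 * d) := by
  have hs := Unitary.star_mem hw
  constructor
  · intro x hx
    obtain ⟨n, hn, h1⟩ := h x hx
    replace hn : n ∈ N := hn
    refine ⟨star w * n * w, ?_, ?_⟩
    · change star w * n * w ∈ vnConj w N
      rw [mem_vnConj hw]
      simpa only [mul_assoc, nearB_r hw, Unitary.mul_star_self_of_mem hw, mul_one] using hn
    · have e : x - star w * n * w = star w * (x - n) * w - (star w * x * star (star w) - x) := by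
        rw [star_star]
        noncomm_ring
      have a1 := nearB_norm hs hw (x - n)
      have a2 := norm_conj_sub hs x
      rw [nearB_star] at a2
      have a3 := mul_le_mul_of_nonneg_right hd (norm_nonneg x)
      have a4 := norm_sub_le (star w * (x - n) * w) (star w * x * star (star w) - x)
      rw [e]
      linarith
  · intro y hy
    obtain ⟨x, hx, h1⟩ := h' _ ((mem_vnConj hw).1 hy)
    refine ⟨x, hx, ?_⟩
    have a1 := mul_le_mul_of_nonneg_left (nearB_norm hw hs y) hc
    have a2 := norm_conj_sub hw y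
    have a3 := mul_le_mul_of_nonneg_right hd (norm_nonneg y)
    have a4 := norm_sub_le_norm_sub_add_norm_sub y (w * y * star w) x
    rw [norm_sub_rev y (w * y * star w)] at a4
    linarith

theorem linN_vnConj {w z : H →L[ℂ] H} (hw : w ∈ unitary (H →L[ℂ] H)) {d t : ℝ}
    (hd : ‖w - 1‖ ≤ d) (hz : ‖z‖ ≤ 1) (h : LinN M (vnConj w N) z t) : LinN M N z (t + 2 * d) := by
  obtain ⟨T, h1, h2⟩ := h
  have hs := Unitary.star_mem hw
  refine ⟨(LinearMap.mulRight ℂ (star w)) ∘ₗ (LinearMap.mulLeft ℂ w) ∘ₗ T,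
    fun x => (mem_vnConj hw).1 (h1 x), fun x => ?_⟩
  change ‖w * T x * star w - (x : H →L[ℂ] H) * z‖ ≤ (t + 2 * d) * ‖(x : H →L[ℂ] H)‖
  have e : w * T x * star w - (x : H →L[ℂ] H) * z = w * (T x - (x : H →L[ℂ] H) * z) * star w
      + (w * ((x : H →L[ℂ] H) * z) * star w - (x : H →L[ℂ] H) * z) := by noncomm_ring
  have a1 := nearB_norm hw hs (T x - (x : H →L[ℂ] H) * z)
  have a2 := norm_conj_sub hw ((x : H →L[ℂ] H) * z)
  have a3 : ‖(x : H →L[ℂ] H) * z‖ ≤ ‖(x : H →L[ℂ] H)‖ :=
    (norm_mul_le _ _).trans (mul_le_of_le_one_right (norm_nonneg _) hz)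
  have a4 : ‖w - 1‖ * ‖(x : H →L[ℂ] H) * z‖ ≤ d * ‖(x : H →L[ℂ] H)‖ :=
    mul_le_mul hd a3 (norm_nonneg _) ((norm_nonneg _).trans hd)
  have a5 : ‖T x - (x : H →L[ℂ] H) * z‖ ≤ t * ‖(x : H →L[ℂ] H)‖ := h2 x
  have a6 := norm_add_le (w * (T x - (x : H →L[ℂ] H) * z) * star w)
    (w * ((x : H →L[ℂ] H) * z) * star w - (x : H →L[ℂ] H) * z)
  rw [e]
  linarith

theorem Conj.symm (h : Conj M N c) : Conj N M c := by
  obtain ⟨u, hu, h1, h2⟩ := h
  refine ⟨star u, Unitary.star_mem hu, by rwa [nearB_star], fun x => ?_⟩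
  rw [h2, star_star]
  simp only [mul_assoc, nearB_r hu, Unitary.mul_star_self_of_mem hu, mul_one]

theorem Conj.of_comm (h : Conj M.commutant N.commutant c) : Conj M N c := by
  obtain ⟨u, hu, h1, h2⟩ := h
  refine ⟨u, hu, h1, fun x => ?_⟩
  rw [mem_iff_comm, mem_iff_comm]
  constructor
  · intro h s hs
    have h0 : star u * s * u ∈ M.commutant := by
      rw [h2]
      simpa only [mul_assoc, nearB_r hu, Unitary.mul_star_self_of_mem hu, mul_one] using hs
    have h3 := congrArg (fun t => u * t * star u) (h _ h0)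
    simpa only [mul_assoc, nearB_r hu, Unitary.mul_star_self_of_mem hu, mul_one] using h3
  · intro h s hs
    have h3 := congrArg (fun t => star u * t * u) (h _ ((h2 s).1 hs))
    simpa only [mul_assoc, nearB_l hu, Unitary.star_mul_self_of_mem hu, mul_one] using h3

end Vale.Agent.KK
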