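import Vale.Agent.KK.Bi1
import Vale.Agent.KK.NearB
import Vale.Agent.KK.Mirror

/-!
The algebra lf A M. mem_lf: eq_lop and Amp.entry_mem; conversely lop_eq_sum, lop_comm. lf_comm: an element of lf (sw A) M' is lop (sw A) Y
with entries in M' and commutes with lop A X (lop_comm); an element of the commutant commutes with amp M and with lu A.
Std.lf: cyc: zeta has entries zeta_st close to x_st xi, X = sqrt n x; tr: norm_lop_emb, lop_star, sum_comm.
near_lf: X in lf A M; an element of (alg N)' commutes with all E so it is amp y (Amp.eq_sum_entry or eq_amp) with y in N'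
(take an entry: amp n commutes with it), y = m' + r, |[X, amp y]| <= 2c |X||y|, amp_norm; hyper80 for alg N gives Y in (alg N)'' = alg N;
twirl Y over gam (lu (sw A)), which fixes X.
Pair.lf: near_lf four times (lf_comm, sw).
-/

namespace Vale.Agent.KK

open Vale.Agent.P104
open scoped InnerProductSpace

universe u

variable {H K : Type*} [NormedAddCommGroup H] [InnerProductSpace ℂ H] [CompleteSpace H]
  [NormedAddCommGroup K] [InnerProductSpace ℂ K] [CompleteSpace K]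
  {ι : Type*} [Fintype ι] [DecidableEq ι]
  (A : Amp H K (ι × ι)) {M N : VonNeumannAlgebra H} {ξ : H}

section Tw

variable {I : Type*} [Fintype I] [DecidableEq I] [Nonempty I] {ε : I → I → K →L[ℂ] K}

theorem gam_uni (hε : MUnits ε) (h1 : ∑ a, ε a a = 1) (x : Equiv.Perm I × (I → Bool)) :
    gam ε x ∈ unitary (K →L[ℂ] K) := by
  exact ⟨by rw [gam_star_mul hε, h1], by rw [gam_mul_star hε, h1]⟩

theorem gam_mem {P : VonNeumannAlgebra K} (h : ∀ a b, ε a b ∈ P) (x : Equiv.Perm I × (I → Bool)) :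
    gam ε x ∈ P := by
  exact sum_mem fun b _ => SMulMemClass.smul_mem _ (h _ _)

theorem gam_comm {Y : K →L[ℂ] K} (h : ∀ a b, Y * ε a b = ε a b * Y)
    (x : Equiv.Perm I × (I → Bool)) : Y * gam ε x = gam ε x * Y := by
  simp only [gam, Finset.mul_sum, Finset.sum_mul, mul_smul_comm, smul_mul_assoc, h]

theorem tw_comm (hε : MUnits ε) (Y : K →L[ℂ] K) (a b : I) :
    tw (gam ε) Y * ε a b = ε a b * tw (gam ε) Y := by
  rw [tw_gam hε, smul_mul_assoc, mul_smul_comm]
  congr 1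
  have h1 : (∑ c, ∑ d, ε c d * Y * ε d c) * ε a b = ∑ d, ε a d * Y * ε d b := by
    rw [Finset.sum_mul, Finset.sum_eq_single a]
    · rw [Finset.sum_mul]
      refine Finset.sum_congr rfl fun d _ => ?_
      rw [mul_assoc, hε.mul, if_pos rfl]
    · intro c _ hc
      rw [Finset.sum_mul]
      refine Finset.sum_eq_zero fun d _ => ?_
      rw [mul_assoc, hε.mul, if_neg hc, mul_zero]
    · simp
  have h2 : ε a b * (∑ c, ∑ d, ε c d * Y * ε d c) = ∑ d, ε a d * Y * ε d b := by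
    rw [Finset.mul_sum, Finset.sum_eq_single b]
    · rw [Finset.mul_sum]
      refine Finset.sum_congr rfl fun d _ => ?_
      rw [← mul_assoc, ← mul_assoc, hε.mul, if_pos rfl]
    · intro c _ hc
      rw [Finset.mul_sum]
      refine Finset.sum_eq_zero fun d _ => ?_
      rw [← mul_assoc, ← mul_assoc, hε.mul, if_neg (Ne.symm hc), zero_mul, zero_mul]
    · simp
  rw [h1, h2]

theorem tw_fix (hε : MUnits ε) (h1 : ∑ a, ε a a = 1) {Y : K →L[ℂ] K}
    (h : ∀ a b, Y * ε a b = ε a b * Y) : tw (gam ε) Y = Y := by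
  have h2 : ∀ x, gam ε x * Y * star (gam ε x) = Y := by
    intro x
    rw [← gam_comm h x, mul_assoc, gam_mul_star hε, h1, mul_one]
  have hG : (Fintype.card (Equiv.Perm I × (I → Bool)) : ℂ) ≠ 0 := by
    exact_mod_cast Fintype.card_ne_zero
  rw [tw]
  simp only [h2]
  rw [Finset.sum_const, Finset.card_univ, ← Nat.cast_smul_eq_nsmul ℂ, smul_smul,
    inv_mul_cancel₀ hG, one_smul]

theorem tw_norm (hε : MUnits ε) (h1 : ∑ a, ε a a = 1) (Y : K →L[ℂ] K) :
    ‖tw (gam ε) Y‖ ≤ ‖Y‖ := by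
  have h2 : ∀ x, ‖gam ε x * Y * star (gam ε x)‖ ≤ ‖Y‖ := by
    intro x
    have hu := gam_uni hε h1 x
    rw [CStarRing.norm_mul_mem_unitary _ (Unitary.star_mem hu),
      CStarRing.norm_mem_unitary_mul _ hu]
  have hG : (0 : ℝ) < Fintype.card (Equiv.Perm I × (I → Bool)) := by
    exact_mod_cast Fintype.card_pos
  have h3 : ‖∑ x, gam ε x * Y * star (gam ε x)‖ ≤
      Fintype.card (Equiv.Perm I × (I → Bool)) * ‖Y‖ := by
    refine (norm_sum_le _ _).trans ?_
    refine (Finset.sum_le_sum fun x _ => h2 x).trans ?_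
    rw [Finset.sum_const, Finset.card_univ, nsmul_eq_mul]
  rw [tw, norm_smul, norm_inv, Complex.norm_natCast, inv_mul_le_iff₀ hG]
  exact h3

theorem tw_sub (Y Y' : K →L[ℂ] K) : tw (gam ε) (Y - Y') = tw (gam ε) Y - tw (gam ε) Y' := by
  simp only [tw, mul_sub, sub_mul, Finset.sum_sub_distrib, smul_sub]

theorem tw_add (Y Y' : K →L[ℂ] K) : tw (gam ε) (Y + Y') = tw (gam ε) Y + tw (gam ε) Y' := by
  simp only [tw, mul_add, add_mul, Finset.sum_add_distrib, smul_add]

theorem tw_keep {Y Z : K →L[ℂ] K} (h : ∀ a b, Z * ε a b = ε a b * Z) (hε : MUnits ε)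
    (hY : Z * Y = Y * Z) : Z * tw (gam ε) Y = tw (gam ε) Y * Z := by
  rw [tw_gam hε, smul_mul_assoc, mul_smul_comm, Finset.mul_sum, Finset.sum_mul]
  congr 1
  refine Finset.sum_congr rfl fun a _ => ?_
  rw [Finset.mul_sum, Finset.sum_mul]
  refine Finset.sum_congr rfl fun b _ => ?_
  rw [← mul_assoc, ← mul_assoc, h, mul_assoc (ε a b), hY, mul_assoc, mul_assoc, h]
  simp only [mul_assoc]

end Tw

theorem mem_lf_iff {X : K →L[ℂ] K} : X ∈ lf A M ↔
    (∀ s ∈ M.commutant, A.amp s * X = X * A.amp s) ∧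
      ∀ a b, X * lu (sw A) a b = lu (sw A) a b * X := by
  unfold lf
  rw [mem_vnComm]
  constructor
  · intro h
    exact ⟨fun s hs => (h _ (Or.inl ⟨s, hs, rfl⟩)).1,
      fun a b => (h _ (Or.inr ⟨(a, b), rfl⟩)).1.symm⟩
  · rintro ⟨h1, h2⟩ s (⟨y, hy, rfl⟩ | ⟨p, rfl⟩)
    · refine ⟨h1 y hy, ?_⟩
      rw [← A.amp_star]
      exact h1 _ (star_mem hy)
    · refine ⟨(h2 _ _).symm, ?_⟩
      rw [(lu_munits (sw A)).star_eq]
      exact (h2 _ _).symm

theorem mem_lf [Nonempty ι] {X : K →L[ℂ] K} :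
    X ∈ lf A M ↔ ∃ U : Matrix ι ι (H →L[ℂ] H), (∀ s t, U s t ∈ M) ∧ X = lop A U := by
  rw [mem_lf_iff]
  constructor
  · rintro ⟨h1, h2⟩
    obtain ⟨t₀⟩ := ‹Nonempty ι›
    exact ⟨_, fun s t => A.entry_mem ((A.mem_alg M).2 h1) (s, t₀) (t, t₀), eq_lop A h2 t₀⟩
  · rintro ⟨U, hU, rfl⟩
    refine ⟨fun s hs => ?_, fun a b => ?_⟩
    · rw [amp_mul_lop, lop_mul_amp]
      congr 1
      ext1 a b
      exact comm_of_mem hs (hU a b)
    · refine lop_comm A fun s s' t t' => ?_
      rw [Matrix.single_apply]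
      split_ifs <;> simp

theorem lop_mem_iff [Nonempty ι] {U : Matrix ι ι (H →L[ℂ] H)} : lop A U ∈ lf A M ↔ ∀ s t, U s t ∈ M := by
  rw [mem_lf]
  constructor
  · rintro ⟨U', hU', h⟩
    rw [lop_inj A h]
    exact hU'
  · exact fun h => ⟨U, h, rfl⟩

theorem amp_mem_lf {y : H →L[ℂ] H} (hy : y ∈ M) : A.amp y ∈ lf A M := by
  refine (mem_lf_iff A).2 ⟨fun s hs => ?_, fun a b => ?_⟩
  · rw [← A.amp_mul, ← A.amp_mul, comm_of_mem hs hy]
  · rw [← sw_amp, lu_amp]

theorem amp_mem_lf_comm {y : H →L[ℂ] H} (hy : y ∈ M.commutant) :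
    A.amp y ∈ (lf A M).commutant := by
  exact VonNeumannAlgebra.mem_commutant_iff.2 fun g hg =>
    (((mem_lf_iff A).1 hg).1 y hy).symm

theorem lu_mem (a b : ι) : lu A a b ∈ lf A M := by
  exact (mem_lf_iff A).2 ⟨fun s _ => (lu_amp A a b s).symm, fun c d => lu_comm A a b c d⟩

theorem lu_sw_mem (a b : ι) : lu (sw A) a b ∈ (lf A M).commutant := by
  exact VonNeumannAlgebra.mem_commutant_iff.2 fun g hg => ((mem_lf_iff A).1 hg).2 a b

theorem lf_comm [Nonempty ι] : (lf A M).commutant = lf (sw A) M.commutant := by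
  ext X
  constructor
  · intro hX
    have hX' : ∀ g ∈ lf A M, g * X = X * g := VonNeumannAlgebra.mem_commutant_iff.1 hX
    refine (mem_lf_iff (sw A)).2 ⟨fun s hs => ?_, fun a b => ?_⟩
    · rw [VonNeumannAlgebra.commutant_commutant] at hs
      rw [sw_amp]
      exact hX' _ (amp_mem_lf A hs)
    · exact (hX' _ (lu_mem A a b)).symm
  · intro hX
    obtain ⟨Y, hY, rfl⟩ := (mem_lf (sw A)).1 hX
    refine VonNeumannAlgebra.mem_commutant_iff.2 fun g hg => ?_
    obtain ⟨U, hU, rfl⟩ := (mem_lf A).1 hg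
    exact lop_comm A fun s s' t t' => (comm_of_mem (hY t t') (hU s s')).symm

theorem mem_of_amp [Nonempty ι] {y : H →L[ℂ] H} (hy : A.amp y ∈ lf A M) : y ∈ M := by
  rw [← lop_diag, lop_mem_iff] at hy
  obtain ⟨s⟩ := ‹Nonempty ι›
  simpa using hy s s

theorem mem_cj_lop [Nonempty ι] {S S' : H →L[ℂ] H} {B : Matrix ι ι (H →L[ℂ] H)} :
    lop (sw A) B ∈ cj (A.amp S) (A.amp S') (lf A N).commutant ↔
      ∀ s t, B s t ∈ cj S S' N.commutant := by
  have h : A.amp S' * lop (sw A) B * A.amp S =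
      lop (sw A) (Matrix.of fun s t => S' * B s t * S) := by
    rw [← sw_amp A S', ← sw_amp A S, amp_mul_lop, lop_mul_amp]
    rfl
  show A.amp S' * lop (sw A) B * A.amp S ∈ (lf A N).commutant ↔ _
  rw [h, lf_comm, lop_mem_iff]
  rfl

theorem cj_eq_lop [Nonempty ι] {S S' : H →L[ℂ] H} (h : S * S' = 1) {b : K →L[ℂ] K}
    (hb : b ∈ cj (A.amp S) (A.amp S') (lf A N).commutant) : ∃ B, b = lop (sw A) B := by
  have hb' : A.amp S' * b * A.amp S ∈ (lf A N).commutant := hb
  rw [lf_comm] at hb'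
  obtain ⟨Y, -, hY⟩ := (mem_lf (sw A)).1 hb'
  have h1 : A.amp S * A.amp S' = 1 := by rw [← A.amp_mul, h, A.amp_one]
  have h2 : b = A.amp S * (A.amp S' * b * A.amp S) * A.amp S' := by
    calc b = (A.amp S * A.amp S') * b * (A.amp S * A.amp S') := by rw [h1, one_mul, mul_one]
      _ = _ := by simp only [mul_assoc]
  rw [hY, ← sw_amp A S, ← sw_amp A S', amp_mul_lop, lop_mul_amp] at h2
  exact ⟨_, h2⟩

theorem Std.lf [Nonempty ι] (h : Std M ξ) : Std (lf A M) (emb A ξ) := by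
  have hn : (0 : ℝ) < Fintype.card ι := by exact_mod_cast Fintype.card_pos
  refine ⟨fun ζ ε hε => ?_, fun X hX => ?_, ?_⟩
  · have key : ∀ s t : ι, ∃ x ∈ M, ‖(A.J (s, t)).adjoint ζ - x ξ‖ ≤ ε / Fintype.card ι :=
      fun s t => h.cyc _ _ (div_pos hε hn)
    choose x hx hx' using key
    refine ⟨lop A (Matrix.of fun s t => (Real.sqrt (Fintype.card ι) : ℂ) • x s t),
      (lop_mem_iff A).2 fun s t => SMulMemClass.smul_mem _ (hx s t), ?_⟩
    have hs : (Real.sqrt (Fintype.card ι) : ℂ) ≠ 0 := by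
      exact_mod_cast (Real.sqrt_pos.2 hn).ne'
    have h1 : ∀ p : ι × ι, (A.J p).adjoint
        (lop A (Matrix.of fun s t => (Real.sqrt (Fintype.card ι) : ℂ) • x s t) (emb A ξ)) =
        x p.1 p.2 ξ := by
      rintro ⟨s, t⟩
      rw [lop_adj, Finset.sum_eq_single t]
      · rw [emb_adj, if_pos rfl]
        simp only [Matrix.of_apply, ContinuousLinearMap.smul_apply, map_smul, smul_smul]
        rw [inv_mul_cancel₀ hs, one_smul]
      · intro b _ hb
        rw [emb_adj, if_neg hb, map_zero]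
      · simp
    refine abs_le_of_sq_le_sq' ?_ hε.le |>.2
    rw [A.norm_sq_eq]
    calc _ ≤ ∑ _p : ι × ι, (ε / Fintype.card ι) ^ 2 := by
          refine Finset.sum_le_sum fun p _ => ?_
          rw [map_sub, h1]
          exact pow_le_pow_left₀ (norm_nonneg _) (hx' p.1 p.2) 2
      _ = ε ^ 2 := by
          rw [Finset.sum_const, Finset.card_univ, Fintype.card_prod, nsmul_eq_mul]
          push_cast
          field_simp
  · obtain ⟨U, hU, rfl⟩ := (mem_lf A).1 hX
    rw [← sq_eq_sq₀ (norm_nonneg _) (norm_nonneg _), ← lop_star, norm_lop_emb, norm_lop_emb,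
      Finset.sum_comm]
    congr 1
    refine Finset.sum_congr rfl fun s _ => Finset.sum_congr rfl fun t _ => ?_
    rw [Matrix.star_apply, h.tr _ (hU s t)]
  · rw [norm_emb]
    exact h.nrm

theorem mir_gam [Nonempty ι] (h : Std M ξ) (x : Equiv.Perm ι × (ι → Bool)) :
    mir (lf A M) (emb A ξ) (gam (lu A) x) = gam (lu (sw A)) x := by
  refine mir_eq (h.lf A) (gam_mem (fun a b => lu_mem A a b) x)
    (gam_mem (fun a b => lu_sw_mem A a b) x) ?_
  rw [Gamma_star_gam (lu_munits A), gam]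
  simp only [ContinuousLinearMap.sum_apply, ContinuousLinearMap.smul_apply]
  refine Finset.sum_congr rfl fun b _ => ?_
  rw [lu, lop_emb_sw, Matrix.transpose_single, lu]

theorem near_lf [Nonempty ι] {c : ℝ} (hc : 0 ≤ c) (h : NearV N.commutant M.commutant c) :
    NearV (lf A M) (lf A N) (160 * c) := by
  intro X hX
  have hX' : X ∈ lf A M := hX
  obtain ⟨s₀⟩ := ‹Nonempty ι›
  haveI : Nonempty ι := ⟨s₀⟩
  have key : ∀ z ∈ (A.alg N).commutant, ‖cm X z‖ ≤ (2 * c * ‖X‖) * ‖z‖ := by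
    intro z hz
    have hz' : ∀ g ∈ A.alg N, g * z = z * g := VonNeumannAlgebra.mem_commutant_iff.1 hz
    have e1 : ∀ a b, z * lu A a b = lu A a b * z := fun a b =>
      (hz' _ ((A.mem_alg N).2 fun s _ => (lu_amp A a b s).symm)).symm
    have e2 : ∀ a b, z * lu (sw A) a b = lu (sw A) a b * z := fun a b =>
      (hz' _ ((A.mem_alg N).2 fun s _ => by rw [← sw_amp, lu_amp])).symm
    obtain ⟨y, rfl⟩ : ∃ y, z = A.amp y := ⟨_, eq_amp A e1 e2 (s₀, s₀)⟩
    have hy : y ∈ N.commutant := by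
      refine VonNeumannAlgebra.mem_commutant_iff.2 fun n hn => ?_
      have e3 := hz' _ (A.amp_mem hn)
      rw [← A.amp_mul, ← A.amp_mul, ← sub_eq_zero, ← A.amp_sub, ← norm_eq_zero, amp_norm,
        norm_eq_zero, sub_eq_zero] at e3
      exact e3
    obtain ⟨m, hm, hm'⟩ := h y hy
    have e4 := ((mem_lf_iff A).1 hX').1 m hm
    have e5 : cm X (A.amp y) = cm X (A.amp (y - m)) := by
      simp only [cm, A.amp_sub, mul_sub, sub_mul, e4]
      abel
    rw [e5, amp_norm]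
    refine (norm_cm_le _ _).trans ?_
    rw [amp_norm]
    nlinarith [norm_nonneg X, mul_le_mul_of_nonneg_left hm' (norm_nonneg X)]
  obtain ⟨b, hb, hb'⟩ := hyper80 (A.alg N).commutant X (by positivity) key
  rw [VonNeumannAlgebra.commutant_commutant] at hb
  refine ⟨tw (gam (lu (sw A))) b, (mem_lf_iff A).2 ⟨fun s hs => ?_, fun a d => ?_⟩, ?_⟩
  · refine tw_keep (fun a d => ?_) (lu_munits (sw A)) ((A.mem_alg N).1 hb s hs)
    rw [← sw_amp, lu_amp]
  · exact tw_comm (lu_munits (sw A)) b a d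
  · have e6 := tw_fix (lu_munits (sw A)) (sum_lu (sw A)) ((mem_lf_iff A).1 hX').2
    have e7 : X - tw (gam (lu (sw A))) b = tw (gam (lu (sw A))) (X - b) := by
      rw [tw_sub, e6]
    rw [e7]
    refine (tw_norm (lu_munits (sw A)) (sum_lu (sw A)) _).trans (hb'.trans (le_of_eq ?_))
    ring

theorem Pair.lf [Nonempty ι] {S S' : H →L[ℂ] H} {ε η : ℝ} (h : Pair M N S S' ε η) :
    Pair (lf A M) (lf A N) (A.amp S) (A.amp S') (160 * ε) (160 * η) := by
  have hη : 0 ≤ η := h.pos.trans h.le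
  refine ⟨by linarith [h.pos], by linarith [h.le], ?_, ?_, ?_, near_lf A h.pos h.n4,
    near_lf A h.pos h.n3, ?_, ?_⟩
  · rw [← A.amp_mul, h.inv1, A.amp_one]
  · rw [← A.amp_mul, h.inv2, A.amp_one]
  · rw [← A.amp_one, ← A.amp_sub, amp_norm]
    linarith [h.nS]
  · rw [lf_comm, lf_comm]
    refine near_lf (sw A) h.pos ?_
    rw [VonNeumannAlgebra.commutant_commutant, VonNeumannAlgebra.commutant_commutant]
    exact h.n2
  · rw [lf_comm, lf_comm]
    refine near_lf (sw A) h.pos ?_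
    rw [VonNeumannAlgebra.commutant_commutant, VonNeumannAlgebra.commutant_commutant]
    exact h.n1

end Vale.Agent.KK
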