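import Vale.Agent.KK.Bi2

/-!
Block sums, Grothendieck bounds at matrix level, composition of amplifications.
cs_norm: |cs zeta|^2 = sum_a |amp (f a) P a zeta|^2 (the vectors P a (..) are orthogonal).
gn_amp: for X in lf A M, cs Rr e X Xi = sum_a Rr a amp (e a) X Xi, orthogonal terms, Rr a amp (e a) X Xi = amp (e a) (X L a) Xi,
X L a = lop (W a); |amp (e a) lop (W a) Xi|^2 = n^-1 sum_st |e a (W a s t xi)|^2 (amp_mul_lop, norm_lop_emb). Apply GN to I = Lambda x iota x iota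
(reindex iota by Fin n or use that iota : Type). sum_a sum_st W* W = sum_t (sum_a (W a)* (W a))_tt, where lop (sum_a (W a)* W a) = sum_a L a X* X L a has
norm <= |X|^2, a diagonal entry has norm at most the norm of lop (lop_entry); likewise sum_a W a (W a)* = X X*.
xi_amp: the same with gt_xi (or gn_amp with Lambda = Unit), 3 * 2 <= 9.
lf_comp: mem_lf_iff on both sides, lu (sw comp) (s,r) (s',r') = amp' (lu (sw A) s s') * lu (sw A') r r'; elements of (lf A M)' are sums of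
amp y * lu (sw A) s t (lf_comm, mem_lf, lop_eq_sum).
-/

namespace Vale.Agent.KK

open Vale.Agent.P104
open scoped InnerProductSpace

universe u

variable {H K : Type*} [NormedAddCommGroup H] [InnerProductSpace ℂ H] [CompleteSpace H]
  [NormedAddCommGroup K] [InnerProductSpace ℂ K] [CompleteSpace K]
  {ι : Type*} [Fintype ι] [DecidableEq ι]
  (A : Amp H K (ι × ι)) {M N : VonNeumannAlgebra H} {ξ : H}

section Cs

variable {Λ : Type} [Fintype Λ] [DecidableEq Λ] {P : Λ → K →L[ℂ] K} {f g : Λ → H →L[ℂ] H}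

theorem bi3_cell (hP : Cells P) (h : ∀ a y, P a * A.amp y = A.amp y * P a) (a : Λ) :
    P a * cs A P f = P a * A.amp (f a) := by
  unfold cs
  rw [Finset.mul_sum, Finset.sum_eq_single a]
  · rw [← mul_assoc, h, mul_assoc, hP.mul, if_pos rfl]
  · intro b _ hb
    rw [← mul_assoc, h, mul_assoc, hP.mul, if_neg (Ne.symm hb), mul_zero]
  · intro ha
    exact absurd (Finset.mem_univ a) ha

theorem cs_mul (hP : Cells P) (h : ∀ a y, P a * A.amp y = A.amp y * P a) :
    cs A P f * cs A P g = cs A P fun a => f a * g a := by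
  conv_lhs => rw [cs, Finset.sum_mul]
  refine Finset.sum_congr rfl fun a _ => ?_
  rw [mul_assoc, bi3_cell A hP h, h, A.amp_mul, mul_assoc]

theorem cs_star (hP : Cells P) (h : ∀ a y, P a * A.amp y = A.amp y * P a) :
    star (cs A P f) = cs A P fun a => star (f a) := by
  unfold cs
  rw [star_sum]
  refine Finset.sum_congr rfl fun a _ => ?_
  rw [star_mul, hP.star_eq, ← A.amp_star, h]

omit [DecidableEq Λ] in
theorem cs_add : cs A P (fun a => f a + g a) = cs A P f + cs A P g := by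
  unfold cs
  rw [← Finset.sum_add_distrib]
  refine Finset.sum_congr rfl fun a _ => ?_
  rw [A.amp_add, add_mul]

omit [DecidableEq Λ] in
theorem cs_sub : cs A P (fun a => f a - g a) = cs A P f - cs A P g := by
  unfold cs
  rw [← Finset.sum_sub_distrib]
  refine Finset.sum_congr rfl fun a _ => ?_
  rw [A.amp_sub, sub_mul]

theorem cs_const (hP : Cells P) (y : H →L[ℂ] H) : cs A P (fun _ => y) = A.amp y := by
  unfold cs
  rw [← Finset.mul_sum, hP.sum, mul_one]

theorem cell_mul_cs (hP : Cells P) (h : ∀ a y, P a * A.amp y = A.amp y * P a) (a : Λ) :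
    P a * cs A P f = P a * A.amp (f a) :=
  bi3_cell A hP h a

theorem cs_unitary (hP : Cells P) (h : ∀ a y, P a * A.amp y = A.amp y * P a)
    (hf : ∀ a, f a ∈ unitary (H →L[ℂ] H)) : cs A P f ∈ unitary (K →L[ℂ] K) := by
  rw [Unitary.mem_iff, cs_star A hP h, cs_mul A hP h, cs_mul A hP h]
  constructor
  · have : (fun a => star (f a) * f a) = fun _ => 1 :=
      funext fun a => Unitary.star_mul_self_of_mem (hf a)
    rw [this, cs_const A hP, A.amp_one]
  · have : (fun a => f a * star (f a)) = fun _ => 1 :=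
      funext fun a => Unitary.mul_star_self_of_mem (hf a)
    rw [this, cs_const A hP, A.amp_one]

theorem cells_pyth (hP : Cells P) (ζ : Λ → K) :
    ‖∑ a, P a (ζ a)‖ ^ 2 = ∑ a, ‖P a (ζ a)‖ ^ 2 := by
  simp only [← @inner_self_eq_norm_sq ℂ]
  rw [← map_sum, sum_inner]
  congr 1
  refine Finset.sum_congr rfl fun a _ => ?_
  rw [inner_sum, Finset.sum_eq_single a]
  · intro b _ hb
    rw [← ContinuousLinearMap.adjoint_inner_right, ← ContinuousLinearMap.star_eq_adjoint,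
      hP.star_eq, ← mul_apply_eq_comp, hP.mul, if_neg (Ne.symm hb)]
    simp
  · intro ha
    exact absurd (Finset.mem_univ a) ha

theorem bi3_sum_cells (hP : Cells P) (ζ : K) : ∑ a, ‖P a ζ‖ ^ 2 = ‖ζ‖ ^ 2 := by
  rw [← cells_pyth hP fun _ => ζ, ← _root_.sum_apply, hP.sum]
  rfl

theorem bi3_cell_le (hP : Cells P) (a : Λ) (ζ : K) : ‖P a ζ‖ ^ 2 ≤ ‖ζ‖ ^ 2 := by
  rw [← bi3_sum_cells hP ζ]
  exact Finset.single_le_sum (f := fun a => ‖P a ζ‖ ^ 2) (fun _ _ => by positivity)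
    (Finset.mem_univ a)

theorem bi3_pinch (hP : Cells P) (Y : Λ → K →L[ℂ] K) {c : ℝ} (hc : 0 ≤ c)
    (hY : ∀ a, ‖Y a‖ ≤ c) : ‖∑ a, P a * Y a * P a‖ ≤ c := by
  refine ContinuousLinearMap.opNorm_le_bound _ hc fun ζ => ?_
  refine abs_le_of_sq_le_sq' ?_ (by positivity) |>.2
  rw [_root_.sum_apply]
  simp only [mul_apply_eq_comp]
  rw [cells_pyth hP, mul_pow, ← bi3_sum_cells hP ζ, Finset.mul_sum]
  refine Finset.sum_le_sum fun a _ => (bi3_cell_le hP a _).trans ?_
  rw [← mul_pow]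
  exact pow_le_pow_left₀ (norm_nonneg _) ((Y a).le_of_opNorm_le (hY a) _) 2

theorem cs_norm (hP : Cells P) (h : ∀ a y, P a * A.amp y = A.amp y * P a) {c : ℝ} (hc : 0 ≤ c)
    (hf : ∀ a, ‖f a‖ ≤ c) : ‖cs A P f‖ ≤ c := by
  have : cs A P f = ∑ a, P a * A.amp (f a) * P a := by
    refine Finset.sum_congr rfl fun a _ => ?_
    rw [h, mul_assoc, hP.mul, if_pos rfl]
  rw [this]
  exact bi3_pinch hP _ hc fun a => (A.norm_amp_le _).trans (hf a)

end Cs

theorem bi3_entry (Y : Matrix ι ι (H →L[ℂ] H)) (s : ι) : ‖Y s s‖ ≤ ‖lop A Y‖ := by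
  refine ContinuousLinearMap.opNorm_le_bound _ (norm_nonneg _) fun η => ?_
  have h1 := congrArg (fun y : H →L[ℂ] H => y η) (lop_entry A Y s s s s)
  simp only [ContinuousLinearMap.comp_apply, if_true] at h1
  rw [← h1]
  have h2 : ∀ ζ : K, ‖(A.J (s, s)).adjoint ζ‖ ≤ ‖ζ‖ := fun ζ => by
    refine abs_le_of_sq_le_sq' ?_ (norm_nonneg _) |>.2
    rw [A.norm_sq_eq ζ]
    exact Finset.single_le_sum (f := fun a => ‖(A.J a).adjoint ζ‖ ^ 2)
      (fun _ _ => by positivity) (Finset.mem_univ (s, s))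
  refine (h2 _).trans ?_
  refine ((lop A Y).le_opNorm _).trans ?_
  rw [A.norm_J]

theorem bi3_trace (Y : Matrix ι ι (H →L[ℂ] H)) {c : ℝ} (h : ‖lop A Y‖ ≤ c) :
    ‖∑ s, Y s s‖ ≤ Fintype.card ι * c := by
  refine (norm_sum_le _ _).trans ?_
  refine (Finset.sum_le_sum fun s _ => (bi3_entry A Y s).trans h).trans ?_
  simp

theorem bi3_col {Λ : Type*} [Fintype Λ] (W : Λ → Matrix ι ι (H →L[ℂ] H)) {c : ℝ}
    (h : ‖∑ a, star (lop A (W a)) * lop A (W a)‖ ≤ c) :
    ‖∑ i : Λ × ι × ι, star (W i.1 i.2.1 i.2.2) * W i.1 i.2.1 i.2.2‖ ≤ Fintype.card ι * c := by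
  have h1 : ‖lop A (∑ a, star (W a) * W a)‖ ≤ c := by
    rw [lop_sum]
    simpa only [lop_mul, lop_star] using h
  have h2 := bi3_trace A _ h1
  refine le_of_eq_of_le (congrArg _ ?_) h2
  simp only [Fintype.sum_prod_type, Matrix.sum_apply, Matrix.mul_apply, Matrix.star_apply]
  rw [Finset.sum_comm (s := Finset.univ) (t := Finset.univ)
    (f := fun (s : ι) (a : Λ) => ∑ j, star (W a j s) * W a j s)]
  exact Finset.sum_congr rfl fun a _ => Finset.sum_comm

theorem bi3_row {Λ : Type*} [Fintype Λ] (W : Λ → Matrix ι ι (H →L[ℂ] H)) {c : ℝ}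
    (h : ‖∑ a, lop A (W a) * star (lop A (W a))‖ ≤ c) :
    ‖∑ i : Λ × ι × ι, W i.1 i.2.1 i.2.2 * star (W i.1 i.2.1 i.2.2)‖ ≤ Fintype.card ι * c := by
  have h1 : ‖lop A (∑ a, W a * star (W a))‖ ≤ c := by
    rw [lop_sum]
    simpa only [lop_mul, lop_star] using h
  have h2 := bi3_trace A _ h1
  refine le_of_eq_of_le (congrArg _ ?_) h2
  simp only [Fintype.sum_prod_type, Matrix.sum_apply, Matrix.mul_apply, Matrix.star_apply]
  exact Finset.sum_comm

theorem bi3_norm (y : H →L[ℂ] H) (W : Matrix ι ι (H →L[ℂ] H)) (η : H) :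
    ‖A.amp y (lop A W (emb A η))‖ ^ 2 =
      (Fintype.card ι : ℝ)⁻¹ * ∑ s, ∑ t, ‖y (W s t η)‖ ^ 2 := by
  rw [← mul_apply_eq_comp, amp_mul_lop, norm_lop_emb]
  rfl

theorem xi_amp [Nonempty ι] {T : H →L[ℂ] H} {t : ℝ} (h : Xi M ξ T t) (ht : 0 ≤ t) :
    Xi (lf A M) (emb A ξ) (A.amp T) (3 * t) := by
  intro X hX
  obtain ⟨W, hW, rfl⟩ := (mem_lf A).1 hX
  refine abs_le_of_sq_le_sq' ?_ (by positivity) |>.2
  have hn : (0 : ℝ) < Fintype.card ι := by exact_mod_cast Fintype.card_pos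
  have h1 := gt_xi h ht (fun i : Unit × ι × ι => W i.2.1 i.2.2) fun i => hW _ _
  have h2 := bi3_col A (fun _ : Unit => W) (c := ‖lop A W‖ ^ 2) (by
    rw [Fintype.sum_unique, CStarRing.norm_star_mul_self, sq])
  have h3 := bi3_row A (fun _ : Unit => W) (c := ‖lop A W‖ ^ 2) (by
    rw [Fintype.sum_unique, CStarRing.norm_self_mul_star, sq])
  rw [bi3_norm, inv_mul_le_iff₀ hn]
  have h4 : ∑ i : Unit × ι × ι, ‖T (W i.2.1 i.2.2 ξ)‖ ^ 2 = ∑ s, ∑ t, ‖T (W s t ξ)‖ ^ 2 := by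
    simp only [Fintype.sum_prod_type, Fintype.sum_unique]
  rw [← h4]
  refine h1.trans ?_
  have h5 : 0 ≤ t ^ 2 := by positivity
  have h6 : 0 ≤ (Fintype.card ι : ℝ) * ‖lop A W‖ ^ 2 := by positivity
  calc _ ≤ 3 * t ^ 2 * (Fintype.card ι * ‖lop A W‖ ^ 2 + Fintype.card ι * ‖lop A W‖ ^ 2) := by
        gcongr
    _ ≤ _ := by nlinarith [mul_nonneg h5 h6]

theorem gn_amp {ι : Type} [Fintype ι] [DecidableEq ι] [Nonempty ι] (A : Amp H K (ι × ι))
    {Λ : Type} [Fintype Λ] [DecidableEq Λ] {L Rr : Λ → K →L[ℂ] K} {e : Λ → H →L[ℂ] H} {t : ℝ}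
    (h : GN M ξ e t) (ht : 0 ≤ t) (hL : Cells L) (hR : Cells Rr) (hLM : ∀ a, L a ∈ lf A M)
    (hRM : ∀ a, Rr a ∈ (lf A M).commutant) (hRa : ∀ a y, Rr a * A.amp y = A.amp y * Rr a)
    (he : ∀ a, L a (emb A ξ) = Rr a (emb A ξ)) : Xi (lf A M) (emb A ξ) (cs A Rr e) (2 * t) := by
  intro X hX
  choose W hW hXW using fun a => (mem_lf A).1 (mul_mem hX (hLM a))
  refine abs_le_of_sq_le_sq' ?_ (by positivity) |>.2
  have hn : (0 : ℝ) < Fintype.card ι := by exact_mod_cast Fintype.card_pos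
  have h1 := h (Λ × ι × ι) (fun i => i.1) (fun i => W i.1 i.2.1 i.2.2) fun i => hW _ _ _
  have h2 := bi3_col A W (c := ‖X‖ ^ 2) (by
    have : ∀ a, star (lop A (W a)) * lop A (W a) = L a * (star X * X) * L a := fun a => by
      rw [← hXW, star_mul, hL.star_eq]
      simp only [mul_assoc]
    simp only [this]
    exact bi3_pinch hL _ (by positivity) fun a => by rw [CStarRing.norm_star_mul_self, sq])
  have h3 := bi3_row A W (c := ‖X‖ ^ 2) (by
    have : ∀ a, lop A (W a) * star (lop A (W a)) = X * L a * star X := fun a => by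
      rw [← hXW, star_mul, hL.star_eq, ← mul_assoc, mul_assoc X, hL.mul, if_pos rfl]
    simp only [this]
    rw [← Finset.sum_mul, ← Finset.mul_sum, hL.sum, mul_one, CStarRing.norm_self_mul_star, sq])
  have h4 : ∀ a, Rr a (A.amp (e a) (X (emb A ξ))) = A.amp (e a) (lop A (W a) (emb A ξ)) := by
    intro a
    rw [← hXW, mul_apply_eq_comp, he, ← mul_apply_eq_comp X,
      VonNeumannAlgebra.mem_commutant_iff.1 (hRM a) X hX, ← mul_apply_eq_comp (Rr a),
      hRa]
    rfl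
  have h5 : cs A Rr e (X (emb A ξ)) = ∑ a, Rr a (A.amp (e a) (X (emb A ξ))) := by
    unfold cs
    rw [_root_.sum_apply]
    refine Finset.sum_congr rfl fun a _ => ?_
    rw [← hRa]
    rfl
  rw [h5, cells_pyth hR]
  simp only [h4, bi3_norm]
  rw [← Finset.mul_sum, inv_mul_le_iff₀ hn]
  have h6 : ∑ i : Λ × ι × ι, ‖e i.1 (W i.1 i.2.1 i.2.2 ξ)‖ ^ 2 =
      ∑ a, ∑ s, ∑ t, ‖e a (W a s t ξ)‖ ^ 2 := by
    simp only [Fintype.sum_prod_type]
  rw [← h6]
  refine h1.trans ?_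
  have h7 : 0 ≤ t ^ 2 := by positivity
  have h8 : 0 ≤ (Fintype.card ι : ℝ) * ‖X‖ ^ 2 := by positivity
  calc _ ≤ t ^ 2 * (Fintype.card ι * ‖X‖ ^ 2 + Fintype.card ι * ‖X‖ ^ 2) := by
        gcongr
    _ ≤ _ := by nlinarith [mul_nonneg h7 h8]

section Comp

variable {L : Type*} [NormedAddCommGroup L] [InnerProductSpace ℂ L] [CompleteSpace L]
  {ρ : Type*} [Fintype ρ] [DecidableEq ρ] (A' : Amp K L (ρ × ρ))

/-- The composition of two amplifications. -/
noncomputable def bi3Comp : Amp H L ((ι × ρ) × (ι × ρ)) where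
  J p := A'.J (p.1.2, p.2.2) ∘L A.J (p.1.1, p.2.1)
  adj_J := by
    rintro ⟨⟨a, p⟩, ⟨b, q⟩⟩ ⟨⟨a', p'⟩, ⟨b', q'⟩⟩
    ext η
    simp only [ContinuousLinearMap.adjoint_comp, ContinuousLinearMap.comp_apply, A'.adj_J_apply]
    by_cases h1 : (p, q) = (p', q')
    · rw [if_pos h1, A.adj_J_apply]
      obtain ⟨rfl, rfl⟩ := Prod.mk.inj h1
      by_cases h2 : (a, b) = (a', b')
      · obtain ⟨rfl, rfl⟩ := Prod.mk.inj h2
        simp
      · rw [if_neg h2, if_neg]
        · rfl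
        · intro h3
          simp only [Prod.mk.injEq] at h3 h2
          exact h2 ⟨h3.1.1, h3.2.1⟩
    · rw [if_neg h1, if_neg]
      · simp
      · intro h3
        simp only [Prod.mk.injEq] at h3 h1
        exact h1 ⟨h3.1.2, h3.2.2⟩
  sum_J := by
    ext ζ
    rw [_root_.sum_apply]
    simp only [ContinuousLinearMap.adjoint_comp, ContinuousLinearMap.comp_apply]
    rw [← (Equiv.prodProdProdComm ι ι ρ ρ).sum_comp, Fintype.sum_prod_type, Finset.sum_comm]
    simp only [Equiv.prodProdProdComm_apply, ← map_sum, Prod.mk.eta, A.sum_J_apply,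
      A'.sum_J_apply]
    rfl

theorem bi3_adj (a b : ι) (p q : ρ) (ζ : L) :
    ((bi3Comp A A').J ((a, p), (b, q))).adjoint ζ =
      (A.J (a, b)).adjoint ((A'.J (p, q)).adjoint ζ) := by
  show (A'.J (p, q) ∘L A.J (a, b)).adjoint ζ = _
  rw [ContinuousLinearMap.adjoint_comp]
  rfl

theorem bi3_lu_adj (a b s t : ι) (ζ : K) :
    (A.J (t, s)).adjoint (lu (sw A) a b ζ) = if s = a then (A.J (t, b)).adjoint ζ else 0 := by
  rw [← sw_J, lu, lop_adj, Finset.sum_eq_single b]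
  · rw [sw_J]
    by_cases h : s = a
    · subst h
      simp
    · rw [if_neg h, Matrix.single_apply_of_row_ne (Ne.symm h)]
      rfl
  · intro c _ hc
    rw [Matrix.single_apply_of_col_ne _ _ (Ne.symm hc)]
    rfl
  · intro ha
    exact absurd (Finset.mem_univ b) ha

theorem bi3_lu (s s' : ι) (r r' : ρ) :
    lu (sw (bi3Comp A A')) (s, r) (s', r') = A'.amp (lu (sw A) s s') * lu (sw A') r r' := by
  ext ζ
  refine (bi3Comp A A').ext_adj ?_
  rintro ⟨⟨a, p⟩, ⟨b, q⟩⟩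
  rw [bi3_lu_adj, bi3_adj, bi3_adj, mul_apply_eq_comp, A'.adj_amp, bi3_lu_adj,
    bi3_lu_adj]
  by_cases h1 : b = s <;> by_cases h2 : q = r <;> simp [h1, h2]

theorem exists_comp [Nonempty ι] [Nonempty ρ] : ∃ A'' : Amp H L ((ι × ρ) × (ι × ρ)),
    (∀ y, A''.amp y = A'.amp (A.amp y)) ∧ (∀ η, emb A'' η = emb A' (emb A η)) ∧
      ∀ M : VonNeumannAlgebra H, lf A'' M = lf A' (lf A M) := by
  have ha : ∀ y, (bi3Comp A A').amp y = A'.amp (A.amp y) := by
    intro y
    ext ζ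
    refine (bi3Comp A A').ext_adj ?_
    rintro ⟨⟨a, p⟩, ⟨b, q⟩⟩
    rw [Amp.adj_amp, bi3_adj, bi3_adj, A'.adj_amp, A.adj_amp]
  refine ⟨bi3Comp A A', ha, fun η => ?_, fun M => ?_⟩
  · refine (bi3Comp A A').ext_adj ?_
    rintro ⟨⟨a, p⟩, ⟨b, q⟩⟩
    rw [emb_adj, bi3_adj, emb_adj]
    by_cases h2 : p = q
    · rw [if_pos h2, map_smul, emb_adj]
      by_cases h1 : a = b
      · rw [if_pos h1, if_pos (by rw [h1, h2]), smul_smul, Fintype.card_prod, Nat.cast_mul,
          Real.sqrt_mul (Nat.cast_nonneg _), Complex.ofReal_mul, mul_inv, mul_comm]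
      · rw [if_neg h1, if_neg (fun h => h1 (Prod.mk.inj h).1), smul_zero]
    · rw [if_neg h2, if_neg (fun h => h2 (Prod.mk.inj h).2), map_zero]
  · ext X
    rw [mem_lf_iff, mem_lf_iff]
    constructor
    · rintro ⟨h1, h2⟩
      have h3 : ∀ s s', A'.amp (lu (sw A) s s') * X = X * A'.amp (lu (sw A) s s') := by
        intro s s'
        have : A'.amp (lu (sw A) s s') = ∑ r, lu (sw (bi3Comp A A')) (s, r) (s', r) := by
          simp only [bi3_lu]
          rw [← Finset.mul_sum, sum_lu, mul_one]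
        rw [this, Finset.sum_mul, Finset.mul_sum]
        exact Finset.sum_congr rfl fun r _ => (h2 _ _).symm
      refine ⟨fun Y hY => ?_, fun r r' => ?_⟩
      · rw [lf_comm] at hY
        obtain ⟨U, hU, rfl⟩ := (mem_lf (sw A)).1 hY
        rw [lop_eq_sum]
        simp only [A'.amp_sum, A'.amp_mul, Finset.sum_mul, Finset.mul_sum, sw_amp]
        refine Finset.sum_congr rfl fun s _ => Finset.sum_congr rfl fun s' _ => ?_
        rw [mul_assoc, h3, ← mul_assoc, ← ha, h1 _ (hU s s'), mul_assoc]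
      · have : lu (sw A') r r' = ∑ s, lu (sw (bi3Comp A A')) (s, r) (s, r') := by
          simp only [bi3_lu]
          rw [← Finset.sum_mul, ← A'.amp_sum, sum_lu, A'.amp_one, one_mul]
        rw [this, Finset.sum_mul, Finset.mul_sum]
        exact Finset.sum_congr rfl fun r _ => h2 _ _
    · rintro ⟨h1, h2⟩
      refine ⟨fun s hs => ?_, ?_⟩
      · rw [ha]
        exact h1 _ (amp_mem_lf_comm A hs)
      · rintro ⟨s, r⟩ ⟨s', r'⟩
        rw [bi3_lu, ← mul_assoc, ← h1 _ (lu_sw_mem A s s'), mul_assoc, h2, mul_assoc]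

end Comp

theorem Inst.lf {H K : Type u} [NormedAddCommGroup H] [InnerProductSpace ℂ H] [CompleteSpace H]
    [NormedAddCommGroup K] [InnerProductSpace ℂ K] [CompleteSpace K] {ι : Type} [Fintype ι]
    [DecidableEq ι] [Nonempty ι] (A : Amp H K (ι × ι)) {M N : VonNeumannAlgebra H} {ξ : H}
    {S S' : H →L[ℂ] H} {ε η κ : ℝ} (h : Inst M N ξ S S' ε η κ) :
    Inst (lf A M) (lf A N) (emb A ξ) (A.amp S) (A.amp S') (160 * ε) (160 * η) κ := by
  refine ⟨h.std.lf A, h.pair.lf A, ?_, h.kpos⟩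
  intro ρ _ _ _ L _ _ _ A'
  obtain ⟨B, h1, h2, h3⟩ := exists_comp A A'
  have := h.ka (ι × ρ) L B
  rwa [h1, h1, h2, h3, h3] at this

/-- Level one: take `ι = Unit`, `K = H`, `J = 1`. -/
theorem Inst.k0 {H : Type u} [NormedAddCommGroup H] [InnerProductSpace ℂ H] [CompleteSpace H]
    {M N : VonNeumannAlgebra H} {ξ : H} {S S' : H →L[ℂ] H} {ε η κ : ℝ}
    (h : Inst M N ξ S S' ε η κ) : K0 M ξ (cj S S' N.commutant) κ := by
  let A : Amp H H (Unit × Unit) :=
    { J := fun _ => 1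
      adj_J := fun a b => by
        rw [if_pos (Subsingleton.elim a b), ← ContinuousLinearMap.star_eq_adjoint, star_one]
        rfl
      sum_J := by
        rw [Fintype.sum_prod_type, Fintype.sum_unique, Fintype.sum_unique,
          ← ContinuousLinearMap.star_eq_adjoint, star_one]
        rfl }
  intro x hx b hb
  have h1 : A.amp b ∈ cj (A.amp S) (A.amp S') (KK.lf A N).commutant := by
    show A.amp S' * A.amp b * A.amp S ∈ (KK.lf A N).commutant
    rw [← A.amp_mul, ← A.amp_mul]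
    exact amp_mem_lf_comm A hb
  have h2 := h.ka Unit H A _ (amp_mem_lf A hx) _ h1
  rwa [cm, ← A.amp_mul, ← A.amp_mul, ← A.amp_sub, amp_emb, norm_emb, amp_norm, amp_norm] at h2

end Vale.Agent.KK
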