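import Mathlib

/-!
# Definitions used in the statement for P096
-/

namespace Vale.Agent.KK

variable {H : Type*} [NormedAddCommGroup H] [InnerProductSpace ℂ H] [CompleteSpace H]

/-- The projection `q` is finite in `M`: every `v ∈ M` with `v* v = q` and range under `q` has
`v v* = q`. -/
def FinProj (M : VonNeumannAlgebra H) (q : H →L[ℂ] H) : Prop :=
  ∀ v ∈ M, star v * v = q → q * v = v → v * star v = q

/-- `M` is semifinite (has no type III summand): every nonzero projection of `M` majorizes a
nonzero finite projection of `M`. -/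
def SemiFin (M : VonNeumannAlgebra H) : Prop :=
  ∀ p ∈ M, IsStarProjection p → p ≠ 0 →
    ∃ q ∈ M, IsStarProjection q ∧ q ≠ 0 ∧ p * q = q ∧ FinProj M q

/-- The Kadison-Kastler distance: the Hausdorff distance of the closed unit balls in the operator
norm. -/
noncomputable def kkDist (M N : VonNeumannAlgebra H) : ℝ :=
  Metric.hausdorffDist ((M : Set (H →L[ℂ] H)) ∩ Metric.closedBall 0 1)
    ((N : Set (H →L[ℂ] H)) ∩ Metric.closedBall 0 1)

end Vale.Agent.KK
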