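import Vale.Agent.KK.Trace
import Vale.Agent.KK.Stmt
import Vale.Agent.P104.QTrace

/-!
qc_loc: z xi0 is not zero and satisfies the same inequality (apply it to x z). trace_vec gives xi = t z xi0, z xi = xi; normalize;
e = projOn (M xi) in M', z e = e, exists_rstIso; xi' = i* xi is a cyclic trace vector for rstAlg i M (rst_mem, rst_lift,
projOn_mem_closure; the span of M xi is M xi).
fin_loc: z is central in M' so in M; qtrace_local gives p and xi; e = p is in M''; y in (rstAlg i M')' iff rstE i y in M'' = M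
(rst_comm_iff); xi0 = i* xi; x = rstE i y has p x = x = x p and x xi = i y i* xi; separating: x xi = 0 gives x s xi = 0, so x p = 0.
sf_loc: q finite under z; if p is properly infinite in (rstAlg i M')' with isometries s, t then v = rstE s + (q - rstE p) has v* v = q, q v = v,
so v v* = q, so s s* = p, then t = p t = s s* t = 0 and p = t* t = 0.
-/

namespace Vale.Agent.KK

open Vale.Agent.P104
open scoped InnerProductSpace

universe u

/-- The algebras with a separating quasi trace vector. -/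
def QC : Cls.{u} := fun _ _ _ _ M =>
  ∃ ξ, (∀ x ∈ M, ‖star x ξ‖ ^ 2 ≤ 2 * ‖x ξ‖ ^ 2) ∧ ∀ x ∈ M, x ξ = 0 → x = 0

/-- The finite algebras. -/
def FinC : Cls.{u} := fun _ _ _ _ M => NoPI M 1

variable {H : Type u} [NormedAddCommGroup H] [InnerProductSpace ℂ H] [CompleteSpace H]
  {M : VonNeumannAlgebra H}

theorem classes_span {ξ v : H} (hv : v ∈ Submodule.span ℂ {η : H | ∃ x ∈ M, η = x ξ}) :
    ∃ x ∈ M, v = x ξ := by
  induction hv using Submodule.span_induction with
  | mem v hv => exact hv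
  | zero => exact ⟨0, zero_mem _, rfl⟩
  | add v v' _ _ h1 h2 =>
    obtain ⟨x, hx, rfl⟩ := h1
    obtain ⟨y, hy, rfl⟩ := h2
    exact ⟨x + y, add_mem hx hy, rfl⟩
  | smul c v _ h1 =>
    obtain ⟨x, hx, rfl⟩ := h1
    exact ⟨c • x, SMulMemClass.smul_mem c hx, rfl⟩

theorem classes_cproj {z : H →L[ℂ] H} (hz : CProj M.commutant z) : CProj M z :=
  ⟨hz.proj, by simpa using hz.cen, hz.mem⟩

theorem qc_loc (h : QC H M) : Loc StdC H M := by
  obtain ⟨ξ₀, h1, h2⟩ := h
  intro z hz hz0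
  obtain ⟨t, ht, ht0, ht1⟩ := trace_vec M (ξ := z ξ₀) (fun h0 => hz0 (h2 z hz.mem h0))
    (fun x hx => by
      have e := h1 (x * z) (mul_mem hx hz.mem)
      rw [star_mul, hz.proj.isSelfAdjoint.star_eq, hz.comm (star_mem hx)] at e
      exact e)
  obtain ⟨ξ, hξ0, hξ1, hξz, hξt⟩ : ∃ ξ : H, ξ ≠ 0 ∧ ‖ξ‖ ≤ 1 ∧ z ξ = ξ ∧
      ∀ x ∈ M, ‖star x ξ‖ = ‖x ξ‖ := by
    have hn : (‖t (z ξ₀)‖ : ℂ) ≠ 0 := by exact_mod_cast norm_ne_zero_iff.2 ht0
    refine ⟨(‖t (z ξ₀)‖ : ℂ)⁻¹ • t (z ξ₀), smul_ne_zero (inv_ne_zero hn) ht0, ?_, ?_, fun x hx => ?_⟩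
    · rw [norm_smul, norm_inv, Complex.norm_real, norm_norm,
        inv_mul_cancel₀ (norm_ne_zero_iff.2 ht0)]
    · have e : z * t * z = t * z := by
        rw [hz.comm' ht, mul_assoc, hz.proj.isIdempotentElem.eq]
      rw [map_smul]
      exact congrArg _ (DFunLike.congr_fun e ξ₀)
    · rw [map_smul, map_smul, norm_smul, norm_smul, ht1 x hx]
  set W : Set H := {η : H | ∃ x ∈ M, η = x ξ} with hW
  have he : projOn W ∈ M.commutant := projOn_comm (by
    rintro s hs _ ⟨x, hx, rfl⟩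
    exact ⟨s * x, mul_mem hs hx, rfl⟩)
  have heξ : projOn W ξ = ξ := projOn_apply_of_mem ⟨1, one_mem _, rfl⟩
  have hze : z * projOn W = projOn W := by
    have e : (1 - z) * projOn W = 0 := mul_projOn_eq_zero (by
      rintro _ ⟨x, hx, rfl⟩
      have e1 : z (x ξ) = x (z ξ) := DFunLike.congr_fun (hz.comm hx) ξ
      change x ξ - z (x ξ) = 0
      rw [e1, hξz, sub_self])
    rw [sub_mul, one_mul, sub_eq_zero] at e
    exact e.symm
  obtain ⟨U, hU, hi⟩ := exists_rstIso (projOn_proj W)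
  refine ⟨_, he, projOn_proj W, fun h0 => hξ0 (by rw [← heξ, h0]; rfl), hze, U, inferInstance,
    inferInstance, hU, U.subtypeL, hi, U.subtypeL.adjoint ξ, fun η ε hε => ?_, fun y hy => ?_,
    (hi.norm_adj ξ).trans hξ1⟩
  · have e := projOn_mem_closure W (U.subtypeL η)
    rw [hi.z_i] at e
    obtain ⟨v, hv, hd⟩ := Metric.mem_closure_iff.1 e ε hε
    obtain ⟨x, hx, rfl⟩ := classes_span hv
    refine ⟨_, rst_mem he hi hx, ?_⟩
    rw [hi.C_adj (comm_of_mem he hx)]
    conv_lhs => rw [← hi.left η, ← map_sub]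
    exact (hi.norm_adj _).trans (by rw [← dist_eq_norm]; exact hd.le)
  · obtain ⟨x, hx, rfl, -⟩ := rst_lift (projOn_proj W) he hi hy
    rw [rstC_star, ← hi.norm_i, ← hi.norm_i (rstC _ x _), hi.i_C (comm_of_mem he hx),
      hi.i_C (comm_of_mem he (star_mem hx)), hi.right, heξ, hξt x hx]

theorem fin_loc (h : FinC H M) : Com (Loc (Com QC)) H M := by
  intro z hz hz0
  obtain ⟨p, hpM, hp, hp0, hzp, ξ, h1, h2⟩ :=
    qtrace_local M (classes_cproj hz) hz0 fun p hp _ => h p hp (one_mul p)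
  obtain ⟨U, hU, hi⟩ := exists_rstIso hp
  have he : p ∈ M.commutant.commutant := by simpa using hpM
  have hm : ∀ y ∈ (rstAlg U.subtypeL M.commutant).commutant, rstE U.subtypeL y ∈ M := fun y hy => by
    simpa using (rst_comm_iff he hi).1 hy
  refine ⟨p, he, hp, hp0, hzp, U, inferInstance, inferInstance, hU, U.subtypeL, hi,
    U.subtypeL.adjoint ξ, fun y hy => ?_, fun y hy h0 => ?_⟩
  · have e := h1 _ (hm y hy) (e_rstE hi y).1 (e_rstE hi y).2
    rwa [rstE_star, rstE_apply, rstE_apply, hi.norm_i, hi.norm_i] at e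
  · have e1 : rstE U.subtypeL y ξ = 0 := by rw [rstE_apply, h0, map_zero]
    have e2 : rstE U.subtypeL y = 0 := by
      rw [← (e_rstE hi y).2]
      ext η
      change rstE U.subtypeL y (p η) = 0
      refine norm_le_zero_iff.1 (le_of_forall_pos_le_add fun ε hε => ?_)
      have hn : 0 < ‖rstE U.subtypeL y‖ + 1 := by positivity
      obtain ⟨s, hs, hd⟩ := h2 η (ε / (‖rstE U.subtypeL y‖ + 1)) (by positivity)
      have e3 : rstE U.subtypeL y (s ξ) = 0 := by
        have e4 : s (rstE U.subtypeL y ξ) = rstE U.subtypeL y (s ξ) :=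
          DFunLike.congr_fun (comm_of_mem hs (hm y hy)) ξ
        rw [← e4, e1, map_zero]
      have e5 := (rstE U.subtypeL y).le_opNorm (p η - s ξ)
      rw [map_sub, e3, sub_zero] at e5
      rw [le_div_iff₀ hn] at hd
      nlinarith [norm_nonneg (p η - s ξ)]
    rw [← rstC_rstE hi y, e2]
    ext η
    simp [rstC_apply]

theorem sf_loc (h : SemiFin M) : Com (Loc (Com FinC)) H M := by
  intro z hz hz0
  obtain ⟨q, hqM, hq, hq0, hzq, hf⟩ := h z (classes_cproj hz).mem hz.proj hz0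
  obtain ⟨U, hU, hi⟩ := exists_rstIso hq
  have he : q ∈ M.commutant.commutant := by simpa using hqM
  refine ⟨q, he, hq, hq0, hzq, U, inferInstance, inferInstance, hU, U.subtypeL, hi, ?_⟩
  rintro p ⟨hp, s, hs, t, -, h1, h2, h3, h4, h5⟩ -
  have hs' : s + (1 - p) ∈ (rstAlg U.subtypeL M.commutant).commutant :=
    add_mem hs (sub_mem (one_mem _) (h1 ▸ mul_mem (star_mem hs) hs))
  have hm : rstE U.subtypeL (s + (1 - p)) ∈ M := by simpa using (rst_comm_iff he hi).1 hs'
  have hst : star (s + (1 - p)) = star s + (1 - p) := by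
    rw [star_add, star_sub, star_one, hp.isSelfAdjoint.star_eq]
  have e1 : star (s + (1 - p)) * (s + (1 - p)) = 1 := by
    have a1 := compare_star_left hp h4
    have a2 := hp.isIdempotentElem.eq
    rw [hst]
    simp only [add_mul, mul_add, sub_mul, mul_sub, one_mul, mul_one, h1, h4, a1, a2]
    abel
  have e2 := hf _ hm (by rw [rstE_star, ← rstE_mul hi, e1, rstE_one hi]) (e_rstE hi _).1
  rw [rstE_star, ← rstE_mul hi] at e2
  have e3 := congrArg (rstC U.subtypeL) e2
  rw [rstC_rstE hi, hi.C_z] at e3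
  have e4 : star (s + (1 - p)) * t = 0 := by
    rw [hst, add_mul, h3, sub_mul, one_mul, h5, sub_self, add_zero]
  have e5 : t = 0 := by rw [← one_mul t, ← e3, mul_assoc, e4, mul_zero]
  rw [← h2, e5, mul_zero]

end Vale.Agent.KK
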