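import Vale.Agent.KK.Basic
import Vale.Agent.P082.Final

/-!
Quantitative vanishing of the bounded cohomology in degrees two and three.
lists_quant: copy the proof of Vale.Agent.P082.lists_main, whose constant is (n + 3) K.
coh2: F l = match l with | [a, b] => phi a b | _ => 0; n = 1; D [y] G x = G [x y] - G [x] y; chi a = G [a].
coh3: the same with n = 2.
-/

namespace Vale.Agent.KK

open Vale.Agent.P104
open scoped InnerProductSpace

universe u

variable {H : Type*} [NormedAddCommGroup H] [InnerProductSpace ℂ H] [CompleteSpace H]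

open Vale.Agent.P082 Finset in
open Vale.Agent.KR (Mp Ball CBn act tau UG diag Inv tau_apply) in
theorem lists_quant (M : VonNeumannAlgebra H) (n : ℕ) (F : List M → M) (K : ℝ) (hK : 0 ≤ K)
    (h1 : ML F) (h2 : Bd F K) (h3 : ∀ a l, l.length = n + 1 → D l F a = a * F l) :
    ∃ G : List M → M, ML G ∧ (∀ l, l.length = n → ‖G l‖ ≤ (n + 3) * K * np l) ∧
      ∀ x l, l.length = n → F (x :: l) = x * G l - D l G x := by
  obtain ⟨z, hz, hp, hf⟩ := KR.exists_split M
  set c : ℝ := (n + 3) * K with hc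
  have hc0 : 0 ≤ c := by positivity
  let B : Set (Tl M n → Mp M) := Set.pi Set.univ fun t => Ball M (c * np t.1)
  have hB : IsCompact B := isCompact_univ_pi fun t => KR.isCompact_ball _
  obtain ⟨Ψ₀, hΨ₀⟩ := KR.fip hB (fun N => Prim z F c n N) (isClosed_prim z F c) fun s => by
    obtain ⟨Ψ, b1, b2⟩ := prim_nonempty hz hp hK h1 h2 h3 (s.sup id)
    exact ⟨Ψ, fun t _ => b1 t, fun r hr => b2 r (le_sup (f := id) hr)⟩
  have hI : Inv (diag (Tl M n) (act (∅ : Set M))) (B ∩ ⋂ N, Prim z F c n N) :=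
    ⟨⟨Ψ₀, hΨ₀.1, Set.mem_iInter.2 hΨ₀.2⟩,
      hB.inter_right (isClosed_iInter (isClosed_prim z F c)),
      (convex_pi fun t _ => KR.convex_ball _).inter (convex_iInter (convex_prim z F c)),
      fun u Ψ hΨ => ⟨fun t ht => KR.tau_ball (mul_nonneg hc0 (np_nonneg _))
          (KR.unitary_norm_le u.2.1) (hΨ.1 t ht),
        Set.mem_iInter.2 fun N => prim_tau hz u (Set.mem_iInter.1 hΨ.2 N)⟩⟩
  obtain ⟨Ψ, ⟨b1, b2⟩, b3⟩ := KR.family hI fun t K' hK' hI' => by
    obtain ⟨ψ, hψ, h⟩ := KR.rho hz hf (mul_nonneg hc0 (np_nonneg t.1)) hI'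
      (fun ψ hψ => by
        obtain ⟨Ψ, hΨ, rfl⟩ := hK' hψ
        exact hΨ.1 t (Set.mem_univ t))
      (fun ψ hψ N => by
        obtain ⟨Ψ, hΨ, rfl⟩ := hK' hψ
        exact (Set.mem_iInter.1 hΨ.2 N).1 t)
    exact ⟨ψ, hψ, KR.fixed_iff.2 h⟩
  obtain ⟨-, b4, b5⟩ := Set.mem_iInter.1 b2 0
  have b6 : ∀ x l, toL Ψ (x :: l) = x * toL Ψ (1 :: l) := fun x l => by
    by_cases h : l.length = n
    · simp only [toL, dif_pos h]
      rw [← KR.fixed_iff.1 (fun u => b3 u _), mul_one]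
    · simp [toL, dif_neg h]
  refine ⟨fun l => toL Ψ (1 :: l), b4.cons 1, fun l hl => ?_, fun x l hl => ?_⟩
  · simp only [toL, dif_pos hl]
    refine (b1 ⟨l, hl⟩ (Set.mem_univ _) 1).trans
      (mul_le_of_le_one_right (mul_nonneg hc0 (np_nonneg l)) ?_)
    exact KR.unitary_norm_le (one_mem _)
  · have := b5 1 x l hl
    simp only [D, one_mul] at this
    rw [← this, b6]

theorem coh2 (M : VonNeumannAlgebra H) (φ : M →ₗ[ℂ] M →ₗ[ℂ] M) {K : ℝ} (hK : 0 ≤ K)
    (hb : ∀ a b, ‖φ a b‖ ≤ K * ‖a‖ * ‖b‖)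
    (hc : ∀ a b c, a * φ b c - φ (a * b) c + φ a (b * c) - φ a b * c = 0) :
    ∃ χ : M →ₗ[ℂ] M, (∀ a, ‖χ a‖ ≤ 4 * K * ‖a‖) ∧
      ∀ a b, φ a b = a * χ b - χ (a * b) + χ a * b := by
  let F : List M → M := fun l => match l with
    | [a, b] => φ a b
    | _ => 0
  have z0 : IsLinearMap ℂ fun _ : M => (0 : M) := ⟨fun _ _ => by simp, fun _ _ => by simp⟩
  obtain ⟨G, h1, h2, h3⟩ := lists_quant M 1 F K hK (fun l₁ l₂ => by
      rcases l₁ with _ | ⟨a, _ | ⟨b, l₁⟩⟩
      · rcases l₂ with _ | ⟨b, _ | ⟨c, l₂⟩⟩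
        · exact z0
        · exact (φ.flip b).isLinear
        · exact z0
      · rcases l₂ with _ | ⟨b, l₂⟩
        · exact (φ a).isLinear
        · exact z0
      · rcases l₁ with _ | ⟨c, l₁⟩ <;> exact z0)
    (fun l => by
      have h0 : ∀ l : List M, ‖(0 : M)‖ ≤ K * P082.np l := fun l => by
        rw [norm_zero]; exact mul_nonneg hK (P082.np_nonneg l)
      rcases l with _ | ⟨a, _ | ⟨b, _ | ⟨c, l⟩⟩⟩
      · exact h0 _
      · exact h0 _
      · simpa [P082.np, mul_assoc] using hb a b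
      · exact h0 _)
    (fun a l hl => by
      obtain ⟨b, c, rfl⟩ := List.length_eq_two.1 hl
      change φ (a * b) c - (φ a (b * c) - φ a b * c) = a * φ b c
      rw [← sub_eq_zero, ← neg_eq_zero, ← hc a b c]
      abel)
  refine ⟨IsLinearMap.mk' (fun a => G [a]) (h1 [] []), fun a => ?_, fun a b => ?_⟩
  · have := h2 [a] rfl
    norm_num [P082.np] at this
    exact this
  · have := h3 a [b] rfl
    change φ a b = a * G [b] - (G [a * b] - G [a] * b) at this
    change φ a b = a * G [b] - G [a * b] + G [a] * b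
    rw [this]
    abel

theorem coh3 (M : VonNeumannAlgebra H) (f : M →ₗ[ℂ] M →ₗ[ℂ] M →ₗ[ℂ] M) {K : ℝ} (hK : 0 ≤ K)
    (hb : ∀ a b c, ‖f a b c‖ ≤ K * ‖a‖ * ‖b‖ * ‖c‖)
    (hc : ∀ a b c d, a * f b c d - f (a * b) c d + f a (b * c) d - f a b (c * d) +
      f a b c * d = 0) :
    ∃ ψ : M →ₗ[ℂ] M →ₗ[ℂ] M, (∀ a b, ‖ψ a b‖ ≤ 5 * K * ‖a‖ * ‖b‖) ∧
      ∀ a b c, f a b c = a * ψ b c - ψ (a * b) c + ψ a (b * c) - ψ a b * c := by
  let F : List M → M := fun l => match l with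
    | [a, b, c] => f a b c
    | _ => 0
  have z0 : IsLinearMap ℂ fun _ : M => (0 : M) := ⟨fun _ _ => by simp, fun _ _ => by simp⟩
  obtain ⟨G, h1, h2, h3⟩ := lists_quant M 2 F K hK (fun l₁ l₂ => by
      rcases l₁ with _ | ⟨a, _ | ⟨b, _ | ⟨c, l₁⟩⟩⟩
      · rcases l₂ with _ | ⟨b, _ | ⟨c, _ | ⟨d, l₂⟩⟩⟩
        · exact z0
        · exact z0
        · exact ⟨fun x y => by simp [F], fun r x => by simp [F]⟩
        · exact z0
      · rcases l₂ with _ | ⟨b, _ | ⟨c, l₂⟩⟩
        · exact z0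
        · exact ((f a).flip b).isLinear
        · exact z0
      · rcases l₂ with _ | ⟨c, l₂⟩
        · exact (f a b).isLinear
        · exact z0
      · rcases l₁ with _ | ⟨d, l₁⟩ <;> exact z0)
    (fun l => by
      have h0 : ∀ l : List M, ‖(0 : M)‖ ≤ K * P082.np l := fun l => by
        rw [norm_zero]; exact mul_nonneg hK (P082.np_nonneg l)
      rcases l with _ | ⟨a, _ | ⟨b, _ | ⟨c, _ | ⟨d, l⟩⟩⟩⟩
      · exact h0 _
      · exact h0 _
      · exact h0 _
      · simpa [P082.np, mul_assoc] using hb a b c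
      · exact h0 _)
    (fun a l hl => by
      obtain ⟨b, c, d, rfl⟩ := List.length_eq_three.1 hl
      change f (a * b) c d - (f a (b * c) d - (f a b (c * d) - f a b c * d)) = a * f b c d
      rw [← sub_eq_zero, ← neg_eq_zero, ← hc a b c d]
      abel)
  refine ⟨LinearMap.mk₂ ℂ (fun a b => G [a, b]) (fun a a' b => (h1 [] [b]).map_add a a')
    (fun r a b => (h1 [] [b]).map_smul r a) (fun a b b' => (h1 [a] []).map_add b b')
    (fun r a b => (h1 [a] []).map_smul r b), fun a b => ?_, fun a b c => ?_⟩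
  · have := h2 [a, b] rfl
    norm_num [P082.np] at this
    rw [mul_assoc _ ‖a‖]
    exact this
  · have := h3 a [b, c] rfl
    change f a b c = a * G [b, c] - (G [a * b, c] - (G [a, b * c] - G [a, b] * c)) at this
    change f a b c = a * G [b, c] - G [a * b, c] + G [a, b * c] - G [a, b] * c
    rw [this]
    abel

end Vale.Agent.KK
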