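import Vale.Agent.P104.Restrict

/-!
# P096 (strong Kadison-Kastler for semifinite algebras): definitions used by the helper files

None of these definitions appears in the final statement. See `notes/P096.md`.
-/

namespace Vale.Agent.KK

open Vale.Agent.P104
open scoped InnerProductSpace

universe u

/-- The commutator. -/
abbrev cm {R : Type*} [Ring R] (x y : R) : R := x * y - y * x

section VN

variable {H : Type*} [NormedAddCommGroup H] [InnerProductSpace ℂ H] [CompleteSpace H]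

/-- One sided near inclusion. -/
def Near (A B : Set (H →L[ℂ] H)) (c : ℝ) : Prop := ∀ x ∈ A, ∃ y ∈ B, ‖x - y‖ ≤ c * ‖x‖

/-- Near inclusion of von Neumann algebras. -/
abbrev NearV (M N : VonNeumannAlgebra H) (c : ℝ) : Prop :=
  Near (M : Set (H →L[ℂ] H)) (N : Set (H →L[ℂ] H)) c

/-- `M` and `N` are conjugate by a unitary at distance at most `c` from one. -/
def Conj (M N : VonNeumannAlgebra H) (c : ℝ) : Prop :=
  ∃ u ∈ unitary (H →L[ℂ] H), ‖u - 1‖ ≤ c ∧ ∀ x, x ∈ M ↔ u * x * star u ∈ N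

/-- The algebra `star u * N * u`. -/
noncomputable def vnConj (u : H →L[ℂ] H) (N : VonNeumannAlgebra H) : VonNeumannAlgebra H :=
  vnComm ((fun s => star u * s * u) '' (N.commutant : Set (H →L[ℂ] H)))

/-- A linear map from `M` to `N` which is close to `x ↦ x * z`. -/
def LinN (M N : VonNeumannAlgebra H) (z : H →L[ℂ] H) (t : ℝ) : Prop :=
  ∃ T : M →ₗ[ℂ] (H →L[ℂ] H), (∀ x, T x ∈ N) ∧ ∀ x : M, ‖T x - (x : H →L[ℂ] H) * z‖ ≤ t * ‖x‖

/-- `T` is small on the vectors `x ξ`, `x ∈ M`. -/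
def Xi (M : VonNeumannAlgebra H) (ξ : H) (T : H →L[ℂ] H) (t : ℝ) : Prop :=
  ∀ x ∈ M, ‖T (x ξ)‖ ≤ t * ‖x‖

/-- A Grothendieck type bound for a family of operators. -/
def GN (M : VonNeumannAlgebra H) (ξ : H) {Λ : Type} (e : Λ → H →L[ℂ] H) (t : ℝ) : Prop :=
  ∀ (I : Type) [Fintype I] (l : I → Λ) (x : I → H →L[ℂ] H), (∀ i, x i ∈ M) →
    ∑ i, ‖e (l i) (x i ξ)‖ ^ 2 ≤ t ^ 2 * (‖∑ i, star (x i) * x i‖ + ‖∑ i, x i * star (x i)‖)

/-- `ξ` is a cyclic trace vector. -/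
structure Std (M : VonNeumannAlgebra H) (ξ : H) : Prop where
  cyc : ∀ (η : H) (ε : ℝ), 0 < ε → ∃ x ∈ M, ‖η - x ξ‖ ≤ ε
  tr : ∀ x ∈ M, ‖star x ξ‖ = ‖x ξ‖
  nrm : ‖ξ‖ ≤ 1

open Classical in
/-- The mirror map `x ↦ J x J`. -/
noncomputable def mir (M : VonNeumannAlgebra H) (ξ : H) (x : H →L[ℂ] H) : H →L[ℂ] H :=
  if h : ∃ y ∈ M.commutant, y ξ = star x ξ then h.choose else 0

/-- The algebra `S * N * S'`. -/
def cj (S S' : H →L[ℂ] H) (N : VonNeumannAlgebra H) : Set (H →L[ℂ] H) := {b | S' * b * S ∈ N}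

/-- Two commuting closed subspaces close to `M` and to its commutant. -/
structure Duo (M : VonNeumannAlgebra H) (A B : Set (H →L[ℂ] H)) (E : ℝ) : Prop where
  pos : 0 ≤ E
  subA : ∃ V : Submodule ℂ (H →L[ℂ] H), (V : Set (H →L[ℂ] H)) = A
  subB : ∃ V : Submodule ℂ (H →L[ℂ] H), (V : Set (H →L[ℂ] H)) = B
  clA : IsClosed A
  clB : IsClosed B
  comm : ∀ a ∈ A, ∀ b ∈ B, a * b = b * a
  n1 : Near M A E
  n2 : Near A M E
  n3 : Near M.commutant B E
  n4 : Near B M.commutant E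

/-- Close algebras together with a similarity close to one. -/
structure Pair (M N : VonNeumannAlgebra H) (S S' : H →L[ℂ] H) (ε η : ℝ) : Prop where
  pos : 0 ≤ ε
  le : ε ≤ η
  inv1 : S * S' = 1
  inv2 : S' * S = 1
  nS : ‖S - 1‖ ≤ η
  n1 : NearV M N ε
  n2 : NearV N M ε
  n3 : NearV M.commutant N.commutant ε
  n4 : NearV N.commutant M.commutant ε

/-- Commutators are small at `ξ`. -/
def K0 (M : VonNeumannAlgebra H) (ξ : H) (B : Set (H →L[ℂ] H)) (κ : ℝ) : Prop :=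
  ∀ x ∈ M, ∀ b ∈ B, ‖cm x b ξ‖ ≤ κ * ‖x‖ * ‖b‖

/-- The unitaries of `M`. -/
noncomputable def UM (M : VonNeumannAlgebra H) : Submonoid (H →L[ℂ] H) :=
  M.toStarSubalgebra.toSubalgebra.toSubsemiring.toSubmonoid ⊓ unitary (H →L[ℂ] H)

/-- A symmetric family of unitaries of `M`. -/
structure Lett (M : VonNeumannAlgebra H) {Λ : Type} (a : Λ → H →L[ℂ] H) : Prop where
  mem : ∀ l, a l ∈ M
  uni : ∀ l, a l ∈ unitary (H →L[ℂ] H)
  sym : ∃ σ : Λ ≃ Λ, ∀ l, a (σ l) = star (a l)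

/-- `T` is harmonic for the family `a`. -/
def Harm {R Λ : Type*} [Ring R] [StarRing R] [Algebra ℂ R] [Fintype Λ] (a : Λ → R) (T : R) :
    Prop :=
  ∑ l, star (a l) * T * a l = (Fintype.card Λ : ℂ) • T

/-- The properties of the correction `h`. -/
structure Out (M : VonNeumannAlgebra H) (ξ : H) (S : H →L[ℂ] H) (ε η κ C : ℝ)
    (h k m m' : H →L[ℂ] H) : Prop where
  hm : m ∈ M
  hm' : m' ∈ M.commutant
  nh : ‖h‖ ≤ C * η
  nk : ‖k‖ ≤ C * η
  nm : ‖m‖ ≤ C * η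
  nm' : ‖m'‖ ≤ C * η
  xi : Xi M ξ h (C * κ)
  dec : ‖S - 1 + h - k - m - m'‖ ≤ C * (ε + η ^ 2)

/-- Bounded functions. -/
def Bdd {G : Type*} (c : G → H →L[ℂ] H) : Prop := ∃ C : ℝ, ∀ g, ‖c g‖ ≤ C

/-- An operator valued mean which is stationary for the uniform measure on the letters. -/
structure IsMean {G : Type*} [Monoid G] {Λ : Type} [Fintype Λ] (a : Λ → G)
    (m : (G → H →L[ℂ] H) → H →L[ℂ] H) : Prop where
  add : ∀ c c', Bdd c → Bdd c' → m (fun g => c g + c' g) = m c + m c'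
  mul : ∀ c s t, Bdd c → m (fun g => s * c g * t) = s * m c * t
  const : ∀ s, m (fun _ => s) = s
  bound : ∀ (I : Type) [Fintype I] (c : I → G → H →L[ℂ] H) (ζ : I → H) (β : ℝ),
    (∀ i, Bdd (c i)) → (∀ g, ∑ i, ‖c i g (ζ i)‖ ^ 2 ≤ β) → ∑ i, ‖m (c i) (ζ i)‖ ^ 2 ≤ β
  stat : ∀ c, Bdd c → m (fun g => ∑ l, c (g * a l)) = (Fintype.card Λ : ℂ) • m c

/-- A matrix of operators has norm at most `c`. -/
def MN {ι : Type*} [Fintype ι] (X : Matrix ι ι (H →L[ℂ] H)) (c : ℝ) : Prop :=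
  ∀ η : ι → H, ∑ s, ‖∑ t, X s t (η t)‖ ^ 2 ≤ c ^ 2 * ∑ t, ‖η t‖ ^ 2

end VN

section Amp

variable {H K : Type*} [NormedAddCommGroup H] [InnerProductSpace ℂ H] [CompleteSpace H]
  [NormedAddCommGroup K] [InnerProductSpace ℂ K] [CompleteSpace K]
  {ι : Type*} [Fintype ι] [DecidableEq ι]

/-- Exchange of the two indices. -/
noncomputable def sw (A : Amp H K (ι × ι)) : Amp H K (ι × ι) where
  J p := A.J p.swap
  adj_J a b := by
    rw [A.adj_J]
    simp only [Prod.swap_inj]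
  sum_J := by
    rw [← A.sum_J]
    exact (Equiv.prodComm ι ι).sum_comp fun p => A.J p ∘L (A.J p).adjoint

/-- A matrix acting on the left index. -/
noncomputable def lop (A : Amp H K (ι × ι)) (X : Matrix ι ι (H →L[ℂ] H)) : K →L[ℂ] K :=
  ∑ s, ∑ s', ∑ t, A.J (s, t) ∘L X s s' ∘L (A.J (s', t)).adjoint

/-- The scalar matrix units acting on the left index. -/
noncomputable def lu (A : Amp H K (ι × ι)) (a b : ι) : K →L[ℂ] K := lop A (Matrix.single a b 1)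

/-- The matrices over `M` acting on the left index. -/
noncomputable def lf (A : Amp H K (ι × ι)) (M : VonNeumannAlgebra H) : VonNeumannAlgebra K :=
  vnComm (A.amp '' (M.commutant : Set (H →L[ℂ] H)) ∪ Set.range fun p : ι × ι => lu (sw A) p.1 p.2)

/-- The embedding `η ↦ η ⊗ 1`. -/
noncomputable def emb (A : Amp H K (ι × ι)) : H →L[ℂ] K :=
  ((Real.sqrt (Fintype.card ι))⁻¹ : ℂ) • ∑ s, A.J (s, s)

/-- The block sum along cells. -/
noncomputable def cs (A : Amp H K (ι × ι)) {Λ : Type} [Fintype Λ] (P : Λ → K →L[ℂ] K)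
    (f : Λ → H →L[ℂ] H) : K →L[ℂ] K :=
  ∑ a, A.amp (f a) * P a

/-- A tower of asymptotically free cells. -/
structure TW (A : Amp H K (ι × ι)) (n : ℕ) {Λ : Type} [Fintype Λ] [DecidableEq Λ]
    (L Rr : ℕ → Λ → K →L[ℂ] K) (D : ℕ → Submodule ℂ K) : Prop where
  cl : ∀ j, Cells (L j)
  cr : ∀ j, Cells (Rr j)
  lmem : ∀ j a (M : VonNeumannAlgebra H), L j a ∈ lf A M
  rmem : ∀ j a (M : VonNeumannAlgebra H), Rr j a ∈ (lf A M).commutant
  lamp : ∀ j a y, L j a * A.amp y = A.amp y * L j a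
  ramp : ∀ j a y, Rr j a * A.amp y = A.amp y * Rr j a
  lr : ∀ i j a b, L i a * Rr j b = Rr j b * L i a
  lemb : ∀ j a η, L j a (emb A η) = Rr j a (emb A η)
  demb : ∀ j η, emb A η ∈ D j
  damp : ∀ j y, ∀ ζ ∈ D j, A.amp y ζ ∈ D j
  dl : ∀ i j a, i < j → ∀ ζ ∈ D j, L i a ζ ∈ D j
  dr : ∀ i j a, i < j → ∀ ζ ∈ D j, Rr i a ζ ∈ D j
  key : ∀ j < n, ∀ ζ ∈ D j, ∀ ζ' ∈ D j, ∀ a b, ⟪ζ, L j a (Rr j b ζ')⟫_ℂ =
    ((Fintype.card Λ : ℂ)⁻¹) ^ 2 * (⟪ζ, ζ'⟫_ℂ - ⟪(emb A).adjoint ζ, (emb A).adjoint ζ'⟫_ℂ) +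
      (if a = b then (Fintype.card Λ : ℂ)⁻¹ else 0) * ⟪(emb A).adjoint ζ, (emb A).adjoint ζ'⟫_ℂ

end Amp

/-- The products `U (j-1) ⋯ U 0`. -/
def twX {R : Type*} [Ring R] (U : ℕ → R) : ℕ → R
  | 0 => 1
  | j + 1 => U j * twX U j

/-- The derivation along the products. -/
def twD {R : Type*} [Ring R] (T V : ℕ → R) : ℕ → R
  | 0 => 0
  | j + 1 => T j * twX V j + V j * twD T V j

section All

variable {H : Type u} [NormedAddCommGroup H] [InnerProductSpace ℂ H] [CompleteSpace H]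

/-- Commutators are small at all matrix levels. -/
def KA (M N : VonNeumannAlgebra H) (S S' : H →L[ℂ] H) (ξ : H) (κ : ℝ) : Prop :=
  ∀ (ι : Type) [Fintype ι] [DecidableEq ι] [Nonempty ι] (K : Type u) [NormedAddCommGroup K]
    [InnerProductSpace ℂ K] [CompleteSpace K] (A : Amp H K (ι × ι)),
    K0 (lf A M) (emb A ξ) (cj (A.amp S) (A.amp S') (lf A N).commutant) κ

/-- The data of the iteration. -/
structure Inst (M N : VonNeumannAlgebra H) (ξ : H) (S S' : H →L[ℂ] H) (ε η κ : ℝ) : Prop where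
  std : Std M ξ
  pair : Pair M N S S' ε η
  ka : KA M N S S' ξ κ
  kpos : 0 < κ

/-- The bound for all tests at one matrix level. -/
def Tst (M N : VonNeumannAlgebra H) (S S' : H →L[ℂ] H) (ξ : H) (η : ℝ) (h : H →L[ℂ] H) (s : ℝ) :
    Prop :=
  ∀ (ι : Type) [Fintype ι] [DecidableEq ι] [Nonempty ι] (K : Type u) [NormedAddCommGroup K]
    [InnerProductSpace ℂ K] [CompleteSpace K] (A : Amp H K (ι × ι)) (u y b : K →L[ℂ] K),
    u ∈ lf A M → u ∈ unitary (K →L[ℂ] K) → y ∈ (lf A M).commutant → y ∈ unitary (K →L[ℂ] K) →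
    b ∈ cj (A.amp S) (A.amp S') (lf A N).commutant → ‖b - y‖ ≤ 6400 * η →
    ‖cm u (b + cm (A.amp h) y) (emb A ξ)‖ ≤ s

end All

section Cls

/-- A class of von Neumann algebras. -/
def Cls : Type (u + 1) :=
  ∀ (H : Type u) [NormedAddCommGroup H] [InnerProductSpace ℂ H] [CompleteSpace H],
    VonNeumannAlgebra H → Prop

/-- The strong Kadison-Kastler property of a class. -/
def KKp (C : Cls.{u}) : Prop :=
  ∀ c : ℝ, 0 < c → ∃ δ : ℝ, 0 < δ ∧ ∀ (H : Type u) [NormedAddCommGroup H] [InnerProductSpace ℂ H]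
    [CompleteSpace H] (M N : VonNeumannAlgebra H), C H M → NearV M N δ → NearV N M δ → Conj M N c

/-- The commutants. -/
def Com (C : Cls.{u}) : Cls.{u} := fun H _ _ _ M => C H M.commutant

/-- The algebras which are locally in `C`. -/
def Loc (C : Cls.{u}) : Cls.{u} := fun H _ _ _ M =>
  ∀ z, CProj M z → z ≠ 0 → ∃ e ∈ M.commutant, IsStarProjection e ∧ e ≠ 0 ∧ z * e = e ∧
    ∃ (H₀ : Type u) (_ : NormedAddCommGroup H₀) (_ : InnerProductSpace ℂ H₀)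
      (_ : CompleteSpace H₀) (i : H₀ →L[ℂ] H), RstIso i e ∧ C H₀ (rstAlg i M)

/-- The algebras with a cyclic trace vector. -/
def StdC : Cls.{u} := fun _ _ _ _ M => ∃ ξ, Std M ξ

end Cls

end Vale.Agent.KK
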