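import Vale.Agent.KK.Basic

/-!
Extension of densely defined operators, induction and reduction.

ext_lin: W = closure of range alpha. beta factors through range alpha (beta v = 0 if alpha v = 0), extend by
continuity to W (ContinuousLinearMap.extend / LinearMap.mkContinuous on the range), compose with the projection onto W.
Commutation: g s = s g on range alpha, on W by continuity, and on the orthogonal complement (it is g invariant as
star g preserves the range).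
ext_op: V = M, alpha x = x xi, beta x = x eta.
induce: V = (P x H0) ->0 C (or lists), alpha = sum x i eta, beta = sum x i (y eta). For a finite family x_k, eta_k
(k in a Finset / Fin n) take exists_piAmp H0, W = sum x_k i J_k*, G = W* W has entries rstC (x_k* x_l), so it commutes
with amp y; so does sqrt G (cfc, Commute.cfc or vn_cfc_mem in vnComm {amp y}), |W amp y z| = |sqrt G amp y z| <= |y| |W z|.
Note that y* also commutes with all rstC x.
-/

namespace Vale.Agent.KK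

open Vale.Agent.P104
open scoped InnerProductSpace

universe u

variable {H : Type*} [NormedAddCommGroup H] [InnerProductSpace ℂ H] [CompleteSpace H]
  {H₀ : Type*} [NormedAddCommGroup H₀] [InnerProductSpace ℂ H₀] [CompleteSpace H₀]
  {M N : VonNeumannAlgebra H}

theorem ext_lin {V : Type*} [AddCommGroup V] [Module ℂ V] (α β : V →ₗ[ℂ] H) {c : ℝ} (hc : 0 ≤ c)
    (h : ∀ v, ‖β v‖ ≤ c * ‖α v‖) (G : Set (H →L[ℂ] H)) (hG : ∀ g ∈ G, star g ∈ G)
    (hG' : ∀ g ∈ G, ∀ v, ∃ v', α v' = g (α v) ∧ β v' = g (β v)) :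
    ∃ s : H →L[ℂ] H, ‖s‖ ≤ c ∧ (∀ v, s (α v) = β v) ∧ (∀ g ∈ G, g * s = s * g) ∧
      ∀ ζ, (∀ v, ⟪α v, ζ⟫_ℂ = 0) → s ζ = 0 := by
  let a : V × (LinearMap.range α)ᗮ →ₗ[ℂ] H := α.coprod (LinearMap.range α)ᗮ.subtype
  let b : V × (LinearMap.range α)ᗮ →ₗ[ℂ] H := β ∘ₗ LinearMap.fst ℂ _ _
  have hW : ∀ ζ, ζ ∈ (LinearMap.range α)ᗮ ↔ ∀ v, ⟪α v, ζ⟫_ℂ = 0 := fun ζ => by
    rw [Submodule.mem_orthogonal]
    exact ⟨fun h v => h _ ⟨v, rfl⟩, by rintro h _ ⟨v, rfl⟩; exact h v⟩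
  have hd : DenseRange a := by
    change Dense (LinearMap.range a : Set H)
    rw [Submodule.dense_iff_topologicalClosure_eq_top, Submodule.topologicalClosure_eq_top_iff,
      Submodule.eq_bot_iff]
    intro η hη
    rw [Submodule.mem_orthogonal] at hη
    have h1 : η ∈ (LinearMap.range α)ᗮ := (hW η).2 fun v => hη _ ⟨(v, 0), by simp [a]⟩
    exact inner_self_eq_zero.1 (hη η ⟨(0, ⟨η, h1⟩), by simp [a]⟩)
  have hn : ∀ x, ‖b x‖ ≤ c * ‖a x‖ := fun x => by
    refine (h x.1).trans (mul_le_mul_of_nonneg_left ?_ hc)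
    have h1 := norm_add_sq_eq_norm_sq_add_norm_sq_of_inner_eq_zero (𝕜 := ℂ) (α x.1) (x.2 : H)
      ((hW _).1 x.2.2 x.1)
    refine abs_le_of_sq_le_sq' ?_ (norm_nonneg _) |>.2
    change _ ≤ ‖α x.1 + (x.2 : H)‖ ^ 2
    nlinarith [sq_nonneg ‖(x.2 : H)‖]
  have hs : ∀ x, b.extendOfNorm a (a x) = b x := LinearMap.extendOfNorm_eq hd ⟨c, hn⟩
  refine ⟨b.extendOfNorm a, LinearMap.opNorm_extendOfNorm_le hd hc hn, fun v => ?_,
    fun g hg => ?_, fun ζ hζ => ?_⟩
  · simpa [a, b] using hs (v, 0)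
  · refine ContinuousLinearMap.ext fun η => hd.induction_on η
      (isClosed_eq (by fun_prop) (by fun_prop)) fun x => ?_
    obtain ⟨v', h1, h2⟩ := hG' g hg x.1
    have h3 : g x.2 ∈ (LinearMap.range α)ᗮ := (hW _).2 fun v => by
      obtain ⟨v'', h4, -⟩ := hG' _ (hG g hg) v
      rw [← inner_star_left, ← h4]
      exact (hW _).1 x.2.2 v''
    have h4 : g (a x) = a (v', ⟨g x.2, h3⟩) := by
      change g (α x.1 + (x.2 : H)) = α v' + g x.2
      rw [map_add, h1]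
    rw [mul_apply_eq_comp, mul_apply_eq_comp, h4, hs, hs]
    exact h2.symm
  · simpa [a, b] using hs (0, ⟨ζ, (hW ζ).2 hζ⟩)

theorem ext_op (M : VonNeumannAlgebra H) (ξ η : H) {c : ℝ} (hc : 0 ≤ c)
    (h : ∀ x ∈ M, ‖x η‖ ≤ c * ‖x ξ‖) :
    ∃ s ∈ M.commutant, ‖s‖ ≤ c ∧ s ξ = η ∧ ∀ ζ, (∀ x ∈ M, ⟪x ξ, ζ⟫_ℂ = 0) → s ζ = 0 := by
  let ev : H → M →ₗ[ℂ] H := fun ζ =>
    { toFun := fun x => (x : H →L[ℂ] H) ζ, map_add' := fun _ _ => rfl, map_smul' := fun _ _ => rfl }
  obtain ⟨s, h1, h2, h3, h4⟩ := ext_lin (ev ξ) (ev η) hc (fun x => h x x.2) M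
    (fun g hg => star_mem hg) fun g hg x => ⟨⟨g * x, mul_mem hg x.2⟩, rfl, rfl⟩
  exact ⟨s, VonNeumannAlgebra.mem_commutant_iff.2 h3, h1, h2 1, fun ζ hζ => h4 ζ fun x => hζ x x.2⟩

/-- The vectors `∑ x i a η`. -/
noncomputable def indV (P : VonNeumannAlgebra H) (i : H₀ →L[ℂ] H) (a : H₀ →L[ℂ] H₀) :
    (P →₀ H₀) →ₗ[ℂ] H :=
  Finsupp.lsum ℂ fun x : P => ((x : H →L[ℂ] H) ∘L i ∘L a).toLinearMap

theorem indV_single (P : VonNeumannAlgebra H) (i : H₀ →L[ℂ] H) (a : H₀ →L[ℂ] H₀) (x : P) (η : H₀) :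
    indV P i a (Finsupp.single x η) = (x : H →L[ℂ] H) (i (a η)) :=
  Finsupp.lsum_single ℂ _ x η

theorem indV_add (P : VonNeumannAlgebra H) (i : H₀ →L[ℂ] H) (a b : H₀ →L[ℂ] H₀) (v : P →₀ H₀) :
    indV P i (a + b) v = indV P i a v + indV P i b v := by
  induction v using Finsupp.induction_linear with
  | zero => simp
  | add v w hv hw => simp only [map_add, hv, hw]; abel
  | single x η => simp only [indV_single, add_apply, map_add]

theorem indV_smul (P : VonNeumannAlgebra H) (i : H₀ →L[ℂ] H) (c : ℂ) (a : H₀ →L[ℂ] H₀)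
    (v : P →₀ H₀) : indV P i (c • a) v = c • indV P i a v := by
  induction v using Finsupp.induction_linear with
  | zero => simp
  | add v w hv hw => simp only [map_add, hv, hw, smul_add]
  | single x η => simp only [indV_single, smul_apply, map_smul]

theorem indV_inner (P : VonNeumannAlgebra H) (i : H₀ →L[ℂ] H) {a : H₀ →L[ℂ] H₀}
    (ha : a ∈ vnComm (rstC i '' (P : Set (H →L[ℂ] H)))) (b : H₀ →L[ℂ] H₀) (v w : P →₀ H₀) :
    ⟪indV P i a v, indV P i b w⟫_ℂ = ⟪indV P i 1 v, indV P i (star a * b) w⟫_ℂ := by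
  induction v using Finsupp.induction_linear with
  | zero => simp
  | add v v' hv hv' => simp only [map_add, inner_add_left, hv, hv']
  | single x η =>
    induction w using Finsupp.induction_linear with
    | zero => simp
    | add w w' hw hw' => simp only [map_add, inner_add_right, hw, hw']
    | single x' η' =>
      have h1 : ∀ ζ ζ' : H₀, ⟪(x : H →L[ℂ] H) (i ζ), (x' : H →L[ℂ] H) (i ζ')⟫_ℂ =
          ⟪ζ, rstC i (star (x : H →L[ℂ] H) * x') ζ'⟫_ℂ := fun ζ ζ' => by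
        rw [rstC_apply, ContinuousLinearMap.adjoint_inner_right, mul_apply_eq_comp,
          inner_star_right]
      have h2 := (mem_vnComm.1 (star_mem ha) _
        ⟨star (x : H →L[ℂ] H) * x', mul_mem (star_mem x.2) x'.2, rfl⟩).1
      simp only [indV_single, h1]
      rw [← inner_star_right, ← mul_apply_eq_comp (star a), ← h2]
      rfl

theorem indV_norm (P : VonNeumannAlgebra H) (i : H₀ →L[ℂ] H) {y : H₀ →L[ℂ] H₀}
    (hy : y ∈ vnComm (rstC i '' (P : Set (H →L[ℂ] H)))) (v : P →₀ H₀) :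
    ‖indV P i y v‖ ≤ ‖y‖ * ‖indV P i 1 v‖ := by
  obtain ⟨t, ht⟩ : ∃ t : H₀ →L[ℂ] H₀, t = (‖y‖ ^ 2) • 1 - star y * y := ⟨_, rfl⟩
  have hpos : 0 ≤ t := by
    rw [ht, sub_nonneg]
    refine (le_iff_qf (IsSelfAdjoint.star_mul_self y)
      ((IsSelfAdjoint.all _).smul (IsSelfAdjoint.one _))).2 fun ξ => ?_
    rw [qf_star_mul_self, qf_rsmul, qf_one, ← mul_pow]
    exact pow_le_pow_left₀ (norm_nonneg _) (y.le_opNorm ξ) 2
  have hm : cfc Real.sqrt t ∈ vnComm (rstC i '' (P : Set (H →L[ℂ] H))) :=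
    vn_cfc_mem _ (ht ▸ sub_mem (vn_rsmul_mem _ (one_mem _)) (mul_mem (star_mem hy) hy))
  have e2 : cfc Real.sqrt t = CFC.sqrt t :=
    (CFC.sqrt_eq_real_sqrt _ hpos).symm ▸ (cfcₙ_eq_cfc (by fun_prop) (by simp)).symm
  have e3 : star y * y + star (cfc Real.sqrt t) * cfc Real.sqrt t = ((‖y‖ ^ 2 : ℝ) : ℂ) • 1 := by
    rw [e2, (CFC.sqrt_nonneg t).isSelfAdjoint.star_eq, CFC.sqrt_mul_sqrt_self _ hpos, ht,
      Complex.coe_smul, add_sub_cancel]
  have h1 := congrArg (fun a => ⟪indV P i 1 v, indV P i a v⟫_ℂ) e3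
  simp only [indV_add, indV_smul, inner_add_right, inner_smul_right, ← indV_inner P i hy,
    ← indV_inner P i hm, inner_self_eq_norm_sq_to_K] at h1
  have h2 : ‖indV P i y v‖ ^ 2 + ‖indV P i (cfc Real.sqrt t) v‖ ^ 2 =
      ‖y‖ ^ 2 * ‖indV P i 1 v‖ ^ 2 := by
    refine Complex.ofReal_injective ?_
    push_cast at h1 ⊢
    exact h1
  refine abs_le_of_sq_le_sq' ?_ (by positivity) |>.2
  rw [mul_pow, ← h2]
  exact le_add_of_nonneg_right (sq_nonneg _)

theorem induce (P : VonNeumannAlgebra H) {p : H →L[ℂ] H} (hp : IsStarProjection p) (hpP : p ∈ P)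
    {i : H₀ →L[ℂ] H} (hi : RstIso i p) {y : H₀ →L[ℂ] H₀}
    (h : ∀ x ∈ P, rstC i x * y = y * rstC i x) :
    ∃ s ∈ P.commutant, rstC i s = y ∧ ‖s‖ ≤ ‖y‖ := by
  have hy : y ∈ vnComm (rstC i '' (P : Set (H →L[ℂ] H))) := by
    refine mem_vnComm.2 ?_
    rintro _ ⟨x, hx, rfl⟩
    exact ⟨h x hx, by rw [rstC_star]; exact h _ (star_mem hx)⟩
  obtain ⟨s, h1, h2, h3, -⟩ := ext_lin (indV P i 1) (indV P i y) (norm_nonneg y)
    (indV_norm P i hy) P (fun g hg => star_mem hg) fun g hg v => by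
      induction v using Finsupp.induction_linear with
      | zero => exact ⟨0, by simp, by simp⟩
      | add v w hv hw =>
        obtain ⟨v', a1, a2⟩ := hv
        obtain ⟨w', b1, b2⟩ := hw
        exact ⟨v' + w', by simp only [map_add, a1, b1], by simp only [map_add, a2, b2]⟩
      | single x η =>
        exact ⟨Finsupp.single ⟨g * x, mul_mem hg x.2⟩ η, by rw [indV_single, indV_single]; rfl,
          by rw [indV_single, indV_single]; rfl⟩
  refine ⟨s, VonNeumannAlgebra.mem_commutant_iff.2 h3, ContinuousLinearMap.ext fun η => ?_, h1⟩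
  have h4 := h2 (Finsupp.single 1 η)
  rw [indV_single, indV_single] at h4
  exact (congrArg i.adjoint h4).trans (hi.left _)

variable {e : H →L[ℂ] H} {i : H₀ →L[ℂ] H}

theorem rstC_add (i : H₀ →L[ℂ] H) (x y : H →L[ℂ] H) : rstC i (x + y) = rstC i x + rstC i y := by
  ext ξ
  simp only [rstC_apply, add_apply, map_add]

theorem rstC_sub (i : H₀ →L[ℂ] H) (x y : H →L[ℂ] H) : rstC i (x - y) = rstC i x - rstC i y := by
  ext ξ
  simp only [rstC_apply, sub_apply, map_sub]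

theorem rstC_smul (i : H₀ →L[ℂ] H) (c : ℂ) (x : H →L[ℂ] H) : rstC i (c • x) = c • rstC i x := by
  ext ξ
  simp only [rstC_apply, smul_apply, map_smul]

theorem rstC_rstE (hi : RstIso i e) (y : H₀ →L[ℂ] H₀) : rstC i (rstE i y) = y := by
  ext ξ
  simp only [rstC_apply, rstE_apply, hi.left]

theorem rstE_rstC (hi : RstIso i e) (x : H →L[ℂ] H) : rstE i (rstC i x) = e * x * e := by
  ext ξ
  simp only [rstC_apply, rstE_apply, hi.right, mul_apply_eq_comp]

theorem rstE_mul (hi : RstIso i e) (y y' : H₀ →L[ℂ] H₀) :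
    rstE i (y * y') = rstE i y * rstE i y' := by
  ext ξ
  simp only [rstE_apply, hi.left, mul_apply_eq_comp]

theorem e_rstE (hi : RstIso i e) (y : H₀ →L[ℂ] H₀) : e * rstE i y = rstE i y ∧
    rstE i y * e = rstE i y := by
  constructor <;> ext ξ
  · simp only [rstE_apply, hi.z_i, mul_apply_eq_comp]
  · simp only [rstE_apply, hi.adj_z, mul_apply_eq_comp]

theorem rstE_one (hi : RstIso i e) : rstE i 1 = e := by
  ext ξ
  exact hi.right ξ

theorem rst_mem (he : e ∈ M.commutant) (hi : RstIso i e) {x : H →L[ℂ] H} (hx : x ∈ M) :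
    rstC i x ∈ rstAlg i M := by
  have h1 : ∀ s ∈ M.commutant, rstC i s * rstC i x = rstC i x * rstC i s := fun s hs => by
    rw [hi.C_mul _ (comm_of_mem he hx), comm_of_mem hs hx]
    ext ξ
    exact (hi.C_adj (comm_of_mem he hx) _).symm
  refine mem_vnComm.2 ?_
  rintro _ ⟨s, hs, rfl⟩
  refine ⟨h1 s hs, ?_⟩
  rw [rstC_star]
  exact h1 _ (star_mem hs)

theorem rst_lift (hp : IsStarProjection e) (he : e ∈ M.commutant) (hi : RstIso i e)
    {y : H₀ →L[ℂ] H₀} (hy : y ∈ rstAlg i M) : ∃ x ∈ M, rstC i x = y ∧ ‖x‖ ≤ ‖y‖ := by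
  have h := induce M.commutant hp he hi fun s hs => (mem_vnComm.1 hy _ ⟨s, hs, rfl⟩).1
  rwa [VonNeumannAlgebra.commutant_commutant] at h

theorem rst_comm_iff (he : e ∈ M.commutant) (hi : RstIso i e) {y : H₀ →L[ℂ] H₀} :
    y ∈ (rstAlg i M).commutant ↔ rstE i y ∈ M.commutant := by
  refine ⟨fun hy => VonNeumannAlgebra.mem_commutant_iff.2 fun x hx => ?_,
    fun hy => rstC_rstE hi y ▸ rstC_mem_commutant hy⟩
  have h1 := comm_of_mem hy (rst_mem he hi hx)
  ext η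
  rw [mul_apply_eq_comp, mul_apply_eq_comp, rstE_apply, rstE_apply, ← hi.i_C (comm_of_mem he hx),
    ← hi.C_adj (comm_of_mem he hx), ← mul_apply_eq_comp, ← h1, mul_apply_eq_comp]

theorem rst_near (hp : IsStarProjection e) (he : e ∈ M.commutant) (he' : e ∈ N.commutant)
    (hi : RstIso i e) {c : ℝ} (hc : 0 ≤ c) (h : NearV M N c) :
    NearV (rstAlg i M) (rstAlg i N) c := by
  intro y hy
  obtain ⟨x, hx, rfl, h1⟩ := rst_lift hp he hi hy
  obtain ⟨x', hx', h2⟩ := h x hx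
  refine ⟨rstC i x', rst_mem he' hi hx', ?_⟩
  rw [← rstC_sub]
  exact (hi.norm_C _).trans (h2.trans (mul_le_mul_of_nonneg_left h1 hc))

end Vale.Agent.KK
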