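import Vale.Agent.KK.StdFT
import Vale.Agent.KK.Classes

/-!
The theorem. near_of_dist: scale x to the unit ball, Metric.exists_dist_lt_of_hausdorffDist_lt.
-/

namespace Vale.Agent.KK

open Vale.Agent.P104
open scoped InnerProductSpace

universe u

theorem near_of_dist {H : Type*} [NormedAddCommGroup H] [InnerProductSpace ℂ H] [CompleteSpace H]
    {M N : VonNeumannAlgebra H} {δ : ℝ} (h : kkDist M N < δ) : NearV M N δ ∧ NearV N M δ := by
  have key : ∀ {M N : VonNeumannAlgebra H}, kkDist M N < δ → NearV M N δ := by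
    intro M N h x hx
    by_cases h0 : x = 0
    · exact ⟨0, zero_mem N, by simp [h0]⟩
    have hn : 0 < ‖x‖ := norm_pos_iff.mpr h0
    have hc : (‖x‖ : ℂ) ≠ 0 := by exact_mod_cast hn.ne'
    have hmem : ((‖x‖ : ℂ)⁻¹ • x) ∈ (M : Set (H →L[ℂ] H)) ∩ Metric.closedBall 0 1 := by
      refine ⟨M.toStarSubalgebra.smul_mem hx _, ?_⟩
      rw [mem_closedBall_zero_iff, norm_smul, norm_inv, Complex.norm_real, norm_norm,
        inv_mul_cancel₀ hn.ne']
    have hfin : Metric.hausdorffEDist ((M : Set (H →L[ℂ] H)) ∩ Metric.closedBall 0 1)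
        ((N : Set (H →L[ℂ] H)) ∩ Metric.closedBall 0 1) ≠ ⊤ :=
      Metric.hausdorffEDist_ne_top_of_nonempty_of_bounded ⟨0, zero_mem M, by simp⟩
        ⟨0, zero_mem N, by simp⟩ (Metric.isBounded_closedBall.subset Set.inter_subset_right)
        (Metric.isBounded_closedBall.subset Set.inter_subset_right)
    obtain ⟨y, hy, hd⟩ := Metric.exists_dist_lt_of_hausdorffDist_lt hmem h hfin
    refine ⟨(‖x‖ : ℂ) • y, N.toStarSubalgebra.smul_mem hy.1 _, ?_⟩
    have e : x - (‖x‖ : ℂ) • y = (‖x‖ : ℂ) • ((‖x‖ : ℂ)⁻¹ • x - y) := by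
      rw [smul_sub, smul_smul, mul_inv_cancel₀ hc, one_smul]
    rw [e, norm_smul, Complex.norm_real, norm_norm, mul_comm, ← dist_eq_norm]
    exact mul_le_mul_of_nonneg_right hd.le hn.le
  refine ⟨key h, key ?_⟩
  unfold kkDist at h ⊢
  rwa [Metric.hausdorffDist_comm]

theorem kk_semifin : KKp.{u} fun _ _ _ _ M => SemiFin M :=
  have h1 : KKp QC.{u} := kk_mono (kk_loc kk_std') fun _ _ _ _ _ h => qc_loc h
  have h2 : KKp FinC.{u} := kk_mono (kk_com (kk_loc (kk_com h1))) fun _ _ _ _ _ h => fin_loc h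
  kk_mono (kk_com (kk_loc (kk_com h2))) fun _ _ _ _ _ h => sf_loc h

theorem strong_kk (ε : ℝ) (hε : 0 < ε) : ∃ δ : ℝ, 0 < δ ∧ ∀ (H : Type u) [NormedAddCommGroup H]
    [InnerProductSpace ℂ H] [CompleteSpace H] (M N : VonNeumannAlgebra H), SemiFin M →
    kkDist M N < δ → ∃ w ∈ unitary (H →L[ℂ] H),
      (fun x => w * x * star w) '' (M : Set (H →L[ℂ] H)) = N ∧ ‖w - 1‖ < ε := by
  obtain ⟨δ, hδ, h⟩ := kk_semifin.{u} (ε / 2) (by positivity)
  refine ⟨δ, hδ, fun H _ _ _ M N hM hd => ?_⟩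
  obtain ⟨h1, h2⟩ := near_of_dist hd
  obtain ⟨w, hw, hw1, hc⟩ := h H M N hM h1 h2
  refine ⟨w, hw, ?_, by linarith⟩
  have a1 : w * star w = 1 := Unitary.mul_star_self_of_mem hw
  ext y
  constructor
  · rintro ⟨x, hx, rfl⟩
    exact (hc x).mp hx
  · intro hy
    have e : w * (star w * y * w) * star w = y := by
      calc w * (star w * y * w) * star w = (w * star w) * y * (w * star w) := by
            simp only [mul_assoc]
        _ = y := by rw [a1, one_mul, mul_one]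
    refine ⟨star w * y * w, (hc _).mpr ?_, e⟩
    rw [e]
    exact hy

end Vale.Agent.KK
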