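import Vale.Agent.KK.NearB

/-!
glue: maximal orthogonal family F of central z with LinN (exists_maximal_pairwise), its sum (sum_piso / compare_sum_proj) is a central
projection, equal to 1 by maximality, so sum_{i in s} z_i xi -> xi (HasSum). w_i from near_cproj; w_i w_j = 0 (norm <= 16 delta).
For every finite s: |sum_s w - sum_s z| <= 8 delta (induction: the central projection close to sum z is within 24 delta < 1 of sum w, proj_eq).
Signs: U = sum_s w_i z_i = E (sum sgn w)(sum sgn z) (Gamma_sign_sandwich with Y = 1), sum_s z = E (sum sgn z)^2, so |U - z_s| <= 16 delta, |U| <= 1.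
T_s x = sum_s w_i T_i x = sum w_i (T_i x - x z_i) w_i + U x U*, the first sum is block diagonal. So |T_s x - x z_s| <= (t + 32 delta)|x|.
T x = weak limit along Ultrafilter.of atTop on Finset F (exists_wot_lim, wot_mem, wot_norm).
-/

namespace Vale.Agent.KK

open Vale.Agent.P104
open scoped InnerProductSpace

universe u

variable {H : Type*} [NormedAddCommGroup H] [InnerProductSpace ℂ H] [CompleteSpace H]
  {M N : VonNeumannAlgebra H}

theorem glue_sum {I : Type*} {z : I → H →L[ℂ] H} (hz : ∀ i, CProj M (z i))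
    (ho : Pairwise fun i j => z i * z j = 0) (s : Finset I) : CProj M (∑ i ∈ s, z i) := by
  classical
  refine ⟨?_, sum_mem fun i _ => (hz i).mem, sum_mem fun i _ => (hz i).cen⟩
  induction s using Finset.induction_on with
  | empty => simp
  | insert a s ha ih =>
    rw [Finset.sum_insert ha]
    refine (hz a).proj.add ih ?_
    rw [Finset.mul_sum]
    exact Finset.sum_eq_zero fun i hi => ho fun h => ha (h ▸ hi)

theorem glue_block {I : Type*} [Fintype I] {w a : I → H →L[ℂ] H} (hw : ∀ i, CProj M (w i))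
    (ho : Pairwise fun i j => w i * w j = 0) {c : ℝ} (hc : 0 ≤ c) (ha : ∀ i, ‖a i‖ ≤ c) :
    ‖∑ i, w i * a i * w i‖ ≤ c := by
  refine ContinuousLinearMap.opNorm_le_bound _ hc fun ξ => ?_
  have hs : ∀ i, star (w i) = w i := fun i => (hw i).proj.isSelfAdjoint.star_eq
  have e1 := sums_norm_finsum (fun i => w i * a i * w i) (fun i j hij => by
    beta_reduce
    rw [star_mul, star_mul, hs i]
    simp only [mul_assoc]
    rw [← mul_assoc (w i) (w j), ho hij]
    simp) Finset.univ ξ
  have e2 := sums_norm_finsum w (fun i j hij => by simpa only [hs] using ho hij) Finset.univ ξ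
  have e3 : ‖∑ i, w i ξ‖ ≤ ‖ξ‖ := by
    have := (PIso.of_proj (glue_sum hw ho Finset.univ).proj).norm_apply_le ξ
    rwa [sum_apply] at this
  refine (sq_le_sq₀ (norm_nonneg _) (by positivity)).1 ?_
  rw [sum_apply, e1, mul_pow]
  refine le_trans ?_ (mul_le_mul_of_nonneg_left (pow_le_pow_left₀ (norm_nonneg _) e3 2)
    (sq_nonneg c))
  rw [e2, Finset.mul_sum]
  refine Finset.sum_le_sum fun i _ => ?_
  rw [← mul_pow]
  refine pow_le_pow_left₀ (norm_nonneg _) ?_ 2
  exact ((PIso.of_proj (hw i).proj).norm_apply_le _).trans (((a i).le_opNorm _).trans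
    (mul_le_mul_of_nonneg_right (ha i) (norm_nonneg _)))

theorem glue_orth {δ : ℝ} (hδ : δ ≤ 1 / 100) {I : Type*} {z w : I → H →L[ℂ] H}
    (hz : ∀ i, CProj M (z i)) (hw : ∀ i, CProj N (w i)) (ho : Pairwise fun i j => z i * z j = 0)
    (hzw : ∀ i, ‖z i - w i‖ ≤ 8 * δ) : Pairwise fun i j => w i * w j = 0 := by
  intro i j hij
  refine proj_zero ((hw i).mul (hw j)).proj ?_
  have e : w i * w j = -((z i - w i) * w j) - z i * (z j - w j) := by
    rw [sub_mul, mul_sub, ho hij]
    abel
  have e1 := norm_mul_le (z i - w i) (w j)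
  have e2 := norm_mul_le (z i) (z j - w j)
  have e3 := norm_sub_le (-((z i - w i) * w j)) (z i * (z j - w j))
  rw [norm_neg, ← e] at e3
  have e4 := mul_le_mul (hzw i) (hw j).proj.norm_le (norm_nonneg _)
    ((norm_nonneg _).trans (hzw i))
  have e5 := mul_le_mul (hz i).proj.norm_le (hzw j) (norm_nonneg _) zero_le_one
  linarith

theorem glue_close {δ : ℝ} (hδ0 : 0 ≤ δ) (hδ : δ ≤ 1 / 100) (h : NearV M N δ) (h' : NearV N M δ)
    {I : Type*} {z w : I → H →L[ℂ] H} (hz : ∀ i, CProj M (z i)) (hw : ∀ i, CProj N (w i))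
    (ho : Pairwise fun i j => z i * z j = 0) (hzw : ∀ i, ‖z i - w i‖ ≤ 8 * δ) (s : Finset I) :
    ‖∑ i ∈ s, (z i - w i)‖ ≤ 8 * δ := by
  classical
  induction s using Finset.induction_on with
  | empty => simpa using hδ0
  | insert a s ha ih =>
    obtain ⟨v, hv, hv'⟩ := near_cproj (by linarith) h h' hδ0 (glue_sum hz ho (insert a s))
    have hW := glue_sum hw (glue_orth hδ hz hw ho hzw) (insert a s)
    have e1 : ‖∑ i ∈ insert a s, (z i - w i)‖ ≤ 16 * δ := by
      rw [Finset.sum_insert ha]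
      linarith [norm_add_le (z a - w a) (∑ i ∈ s, (z i - w i)), hzw a]
    rw [Finset.sum_sub_distrib] at e1 ⊢
    have e2 : v = ∑ i ∈ insert a s, w i := proj_eq hv.proj hW.proj (hv.comm hW.mem) (by
      have := norm_sub_le_norm_sub_add_norm_sub v (∑ i ∈ insert a s, z i) (∑ i ∈ insert a s, w i)
      rw [norm_sub_rev v (∑ i ∈ insert a s, z i)] at this
      linarith)
    rwa [← e2]

theorem glue_sign {δ : ℝ} (hδ0 : 0 ≤ δ) (hδ : δ ≤ 1 / 100) (h : NearV M N δ) (h' : NearV N M δ)
    {I : Type*} [Fintype I] {z w : I → H →L[ℂ] H} (hz : ∀ i, CProj M (z i))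
    (hw : ∀ i, CProj N (w i)) (ho : Pairwise fun i j => z i * z j = 0)
    (hzw : ∀ i, ‖z i - w i‖ ≤ 8 * δ) : ‖∑ i, z i - ∑ i, w i * z i‖ ≤ 16 * δ := by
  classical
  have e := Gamma_sign_sandwich (fun i => z i - w i) z 1
  have e1 : ∑ i, (z i - w i) * 1 * z i = ∑ i, z i - ∑ i, w i * z i := by
    rw [← Finset.sum_sub_distrib]
    exact Finset.sum_congr rfl fun i _ => by
      rw [mul_one, sub_mul, (hz i).proj.isIdempotentElem.eq]
  have e2 : ∀ x : I → Bool, ‖(∑ i, sgn (x i) • (z i - w i)) * 1 * ∑ i, sgn (x i) • z i‖ ≤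
      16 * δ := fun x => by
    have a1 : ‖∑ i, sgn (x i) • z i‖ ≤ 1 := by
      have := glue_block (a := fun i => sgn (x i) • (1 : H →L[ℂ] H)) hz ho zero_le_one fun i => by
        rw [norm_smul]
        refine mul_le_one₀ ?_ (norm_nonneg _) ContinuousLinearMap.norm_id_le
        unfold sgn
        split_ifs <;> simp
      simpa only [mul_smul_comm, smul_mul_assoc, mul_one, (hz _).proj.isIdempotentElem.eq]
        using this
    have a2 : ∑ i, sgn (x i) • (z i - w i) = ∑ i ∈ Finset.univ.filter (fun i => x i = true),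
        (z i - w i) - ∑ i ∈ Finset.univ.filter (fun i => ¬ x i = true), (z i - w i) := by
      rw [Finset.sum_filter, Finset.sum_filter, ← Finset.sum_sub_distrib]
      refine Finset.sum_congr rfl fun i _ => ?_
      unfold sgn
      split_ifs <;> simp
    have a3 : ‖∑ i, sgn (x i) • (z i - w i)‖ ≤ 16 * δ := by
      rw [a2]
      refine (norm_sub_le _ _).trans ?_
      linarith [glue_close hδ0 hδ h h' hz hw ho hzw (Finset.univ.filter fun i => x i = true),
        glue_close hδ0 hδ h h' hz hw ho hzw (Finset.univ.filter fun i => ¬ x i = true)]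
    rw [mul_one]
    refine (norm_mul_le _ _).trans ?_
    have := mul_le_mul a3 a1 (norm_nonneg _) (by positivity)
    linarith
  have e3 := norm_sum_le_of_le Finset.univ fun x _ => e2 x
  rw [e, e1, norm_smul, Finset.sum_const, Finset.card_univ, nsmul_eq_mul, Complex.norm_natCast] at e3
  exact le_of_mul_le_mul_left e3 (Nat.cast_pos.2 Fintype.card_pos)

theorem glue_est {δ t : ℝ} (hδ0 : 0 ≤ δ) (hδ : δ ≤ 1 / 100) (ht : 0 ≤ t) (h : NearV M N δ)
    (h' : NearV N M δ) {I : Type*} [Fintype I] {z w a : I → H →L[ℂ] H} (hz : ∀ i, CProj M (z i))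
    (hw : ∀ i, CProj N (w i)) (ho : Pairwise fun i j => z i * z j = 0)
    (hzw : ∀ i, ‖z i - w i‖ ≤ 8 * δ) {x : H →L[ℂ] H} (hx : x ∈ M) (ha : ∀ i, a i ∈ N)
    (hax : ∀ i, ‖a i - x * z i‖ ≤ t * ‖x‖) :
    ‖∑ i, w i * a i - x * ∑ i, z i‖ ≤ (t + 40 * δ) * ‖x‖ := by
  have hZ := glue_sum hz ho Finset.univ
  have e1 := glue_block hw (glue_orth hδ hz hw ho hzw) (by positivity) hax
  have e2 := glue_sign hδ0 hδ h h' hz hw ho hzw
  set Z := ∑ i, z i with hZdef
  set U := ∑ i, w i * z i with hU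
  have e3 : U * x * star U = ∑ i, w i * (x * z i) * w i := by
    rw [hU, star_sum, Finset.sum_mul, Finset.sum_mul]
    refine Finset.sum_congr rfl fun i _ => ?_
    have a1 : ∀ j, w i * z i * x * star (w j * z j) = w i * (x * (z i * z j)) * w j := fun j => by
      rw [star_mul, (hz j).proj.isSelfAdjoint.star_eq, (hw j).proj.isSelfAdjoint.star_eq,
        mul_assoc (w i), (hz i).comm hx]
      simp only [mul_assoc]
    rw [Finset.mul_sum, Finset.sum_eq_single i (fun j _ hj => by
      rw [a1, ho hj.symm, mul_zero, mul_zero, zero_mul]) (by simp), a1,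
      (hz i).proj.isIdempotentElem.eq]
  have e4 : ∑ i, w i * a i - x * Z =
      ∑ i, w i * (a i - x * z i) * w i - ((Z - U) * x * star U + Z * x * star (Z - U)) := by
    have a1 : ∀ i, w i * (a i - x * z i) * w i = w i * a i - w i * (x * z i) * w i := fun i => by
      rw [mul_sub, sub_mul, mul_assoc (w i) (a i), ← (hw i).comm (ha i), ← mul_assoc,
        (hw i).proj.isIdempotentElem.eq]
    have a2 : Z * x * Z = x * Z := by
      rw [hZ.comm hx, mul_assoc, hZ.proj.isIdempotentElem.eq]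
    simp only [a1]
    simp only [Finset.sum_sub_distrib, ← e3, star_sub, hZ.proj.isSelfAdjoint.star_eq, sub_mul,
      mul_sub, a2]
    abel
  have b0 := hZ.proj.norm_le
  have b1 : ‖U‖ ≤ 1 + 16 * δ := by
    have := norm_sub_le Z (Z - U)
    rw [sub_sub_cancel] at this
    linarith
  have b2 : ‖(Z - U) * x * star U‖ ≤ 16 * δ * ‖x‖ * (1 + 16 * δ) := by
    refine (norm_mul_le _ _).trans (mul_le_mul ((norm_mul_le _ _).trans
      (mul_le_mul_of_nonneg_right e2 (norm_nonneg _))) (by rwa [norm_star]) (norm_nonneg _)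
      (by positivity))
  have b3 : ‖Z * x * star (Z - U)‖ ≤ 1 * ‖x‖ * (16 * δ) := by
    refine (norm_mul_le _ _).trans (mul_le_mul ((norm_mul_le _ _).trans
      (mul_le_mul_of_nonneg_right b0 (norm_nonneg _))) (by rwa [norm_star]) (norm_nonneg _)
      (by positivity))
  have b4 : δ * ‖x‖ * δ ≤ δ * ‖x‖ * (1 / 100) := mul_le_mul_of_nonneg_left hδ (by positivity)
  have b5 : 0 ≤ δ * ‖x‖ := by positivity
  rw [e4]
  refine (norm_sub_le _ _).trans ?_
  have b6 := norm_add_le ((Z - U) * x * star U) (Z * x * star (Z - U))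
  nlinarith

theorem glue {δ t : ℝ} (hδ0 : 0 ≤ δ) (hδ : δ ≤ 1 / 100) (ht : 0 ≤ t) (h : NearV M N δ)
    (h' : NearV N M δ)
    (hl : ∀ z₀, CProj M z₀ → z₀ ≠ 0 → ∃ z, CProj M z ∧ z ≠ 0 ∧ z₀ * z = z ∧ LinN M N z t) :
    LinN M N 1 (t + 40 * δ) := by
  obtain ⟨F, hF, hFo, hFm⟩ := exists_maximal_pairwise {z | CProj M z ∧ LinN M N z t}
    (fun a b => a * b = 0 ∧ b * a = 0) fun _ _ h => h.symm
  have hz : ∀ i : F, CProj M i.1 := fun i => (hF i.2).1
  have ho : Pairwise fun i j : F => i.1 * j.1 = 0 := fun i j hij =>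
    (hFo i.2 j.2 fun e => hij (Subtype.ext e)).1
  have hs : ∀ i : F, star i.1 = i.1 := fun i => (hz i).proj.isSelfAdjoint.star_eq
  obtain ⟨Q, hQM, hQ, q1, q2, q3⟩ := compare_sum_proj M (fun i : F => i.1) (fun i => (hz i).mem)
    (fun i => (hz i).proj) ho
  have hQc : CProj M Q := by
    have e : ∀ x ∈ M, Q * x * Q = x * Q := fun x hx => by
      have := q3 ((1 - Q) * x) fun i => by
        rw [mul_assoc, ← (hz i).comm hx, ← mul_assoc, sub_mul, one_mul, q1, sub_self, zero_mul]
      rw [sub_mul, sub_mul, one_mul, sub_eq_zero] at this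
      exact this.symm
    refine ⟨hQ, hQM, VonNeumannAlgebra.mem_commutant_iff.2 fun x hx => ?_⟩
    have e1 := congrArg star (e _ (star_mem hx))
    rw [star_mul, star_mul, star_mul, star_star, hQ.isSelfAdjoint.star_eq, ← mul_assoc] at e1
    rw [← e x hx, e1]
  have hQ1 : Q = 1 := by
    by_contra hne
    obtain ⟨z, a1, a2, a3, a4⟩ := hl _ hQc.one_sub fun e => hne (sub_eq_zero.1 e).symm
    have a5 : Q * z = 0 := by
      rw [← a3, ← mul_assoc, mul_sub, mul_one, hQ.isIdempotentElem.eq, sub_self, zero_mul]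
    have a6 : ∀ b ∈ F, b * z = 0 := fun b hb => by
      have e : b * Q = b := q2 ⟨b, hb⟩
      rw [← e, mul_assoc, a5, mul_zero]
    have a7 := hFm z ⟨a1, a4⟩ fun b hb => ⟨by rw [a1.comm (hF hb).1.mem, a6 b hb], a6 b hb⟩
    exact a2 (by rw [← a1.proj.isIdempotentElem.eq, a6 z a7])
  obtain ⟨V, -, -, v1, -, -, -, v2, -⟩ := sum_piso M (fun i : F => i.1) (fun i => (hz i).mem)
    (fun i => PIso.of_proj (hz i).proj) (fun i j hij => by simpa only [hs] using ho hij)
    fun i j hij => by simpa only [hs] using ho hij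
  have hV : V = 1 := by
    have e := q3 (1 - V) fun i => by
      have e1 := v1 i
      rw [hs, (hz i).proj.isIdempotentElem.eq] at e1
      rw [sub_mul, one_mul, e1, sub_self]
    rw [hQ1, mul_one, sub_eq_zero] at e
    exact e.symm
  choose w hw hzw using fun i : F => near_cproj (by linarith) h h' hδ0 (hz i)
  choose T hT1 hT2 using fun i : F => (hF i.2).2
  have est : ∀ (x : M) (s : Finset F),
      ‖∑ i ∈ s, w i * T i x - x.1 * ∑ i ∈ s, i.1‖ ≤ (t + 40 * δ) * ‖x‖ := fun x s => by
    have := glue_est hδ0 hδ ht h h' (I := s) (z := fun i => i.1.1) (w := fun i => w i.1)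
      (a := fun i => T i.1 x) (fun i => hz i.1) (fun i => hw i.1)
      (fun i j hij => ho fun e => hij (Subtype.ext e)) (fun i => hzw i.1) x.2
      (fun i => hT1 i.1 x) fun i => hT2 i.1 x
    rwa [Finset.sum_coe_sort s fun i => w i * T i x, Finset.sum_coe_sort s fun i => i.1] at this
  set 𝒰 : Ultrafilter (Finset F) := Ultrafilter.of Filter.atTop with h𝒰
  have hle : (𝒰 : Filter (Finset F)) ≤ Filter.atTop := Ultrafilter.of_le _
  choose L hL1 hL using fun x : M => exists_wot_lim 𝒰 (fun s => ∑ i ∈ s, w i * T i x)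
    ((t + 40 * δ) * ‖x‖ + ‖x‖) fun s => by
      have e1 := norm_add_le (∑ i ∈ s, w i * T i x - x.1 * ∑ i ∈ s, i.1) (x.1 * ∑ i ∈ s, i.1)
      have e2 := (norm_mul_le x.1 _).trans
        (mul_le_of_le_one_right (norm_nonneg _) (glue_sum hz ho s).proj.norm_le)
      rw [sub_add_cancel] at e1
      exact e1.trans (add_le_add (est x s) e2)
  refine ⟨⟨⟨L, fun x y => ?_⟩, fun c x => ?_⟩,
    fun x => wot_mem (hL x) fun s => sum_mem fun i _ => mul_mem (hw i).mem (hT1 i x), fun x => ?_⟩
  · ext ξ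
    refine ext_inner_left ℂ fun η => tendsto_nhds_unique (hL (x + y) ξ η) ?_
    simpa only [map_add, mul_add, Finset.sum_add_distrib, add_apply, inner_add_right]
      using (hL x ξ η).add (hL y ξ η)
  · ext ξ
    refine ext_inner_left ℂ fun η => tendsto_nhds_unique (hL (c • x) ξ η) ?_
    simpa only [map_smul, mul_smul_comm, ← Finset.smul_sum, smul_apply, inner_smul_right,
      RingHom.id_apply] using (hL x ξ η).const_mul c
  · refine wot_norm (U := 𝒰) (L := L x - x.1 * 1) (fun ξ η => ?_) (est x)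
    have e1 : Filter.Tendsto (fun s : Finset F => ∑ i ∈ s, i.1 ξ) 𝒰 (nhds ξ) := by
      have := v2 ξ
      rw [hV] at this
      exact Filter.Tendsto.mono_left this hle
    have e2 := Filter.Tendsto.inner (𝕜 := ℂ) (tendsto_const_nhds (x := η))
      ((x.1.continuous.tendsto ξ).comp e1)
    simpa only [sub_apply, inner_sub_right, mul_one, mul_apply_eq_comp, sum_apply,
      Function.comp] using (hL x ξ η).sub e2

end Vale.Agent.KK
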