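import Vale.Agent.KK.NearB
import Vale.Agent.KK.Ext

/-!
il: w0 = csupp N' e (central in N, w0 e = e, n e = 0 => n w0 = 0 for n in N). w1 from near_cproj for z, z1 from near_cproj for w0.
(1 - w1) e is a projection of norm <= 8 delta so (1 - w1) w0 = 0; likewise (1 - z1) z = 0; w1 (1 - w0) is a projection of norm <= 16 delta,
so w1 = w0. For n in N: |n w0| <= |rstC n| (rst_lift gives s in N with rstC s = rstC n, rstE_rstC gives (s - n) e = 0).
T x = n w0 for any n in N with rstC n = u (rstC x) u*; linear by uniqueness (the norm bound). With n0 close to x: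
|T x - n0 w0| <= |u (rstC x) u* - rstC n0| <= (2c + delta)|x| and |n0 w0 - x z| <= 9 delta |x|.
-/

namespace Vale.Agent.KK

open Vale.Agent.P104
open scoped InnerProductSpace

universe u

variable {H : Type*} [NormedAddCommGroup H] [InnerProductSpace ℂ H] [CompleteSpace H]
  {H₀ : Type*} [NormedAddCommGroup H₀] [InnerProductSpace ℂ H₀] [CompleteSpace H₀]
  {M N : VonNeumannAlgebra H}

theorem il_cut {e w z : H →L[ℂ] H} (hp : IsStarProjection e) (he : e ∈ N.commutant)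
    (hw : CProj N w) (hze : z * e = e) (h : ‖z - w‖ < 1) : (1 - w) * e = 0 := by
  have hc : (1 - w) * e = e * (1 - w) := (comm_of_mem he hw.one_sub.mem).symm
  apply proj_zero (hw.one_sub.proj.mul hp hc)
  have h1 : (1 - w) * e = (z - w) * e := by rw [sub_mul, sub_mul, one_mul, hze]
  rw [h1]
  calc ‖(z - w) * e‖ ≤ ‖z - w‖ * ‖e‖ := norm_mul_le _ _
    _ ≤ ‖z - w‖ * 1 := by gcongr; exact hp.norm_le
    _ < 1 := by rwa [mul_one]

theorem il_supp {e : H →L[ℂ] H} (he : e ∈ N.commutant) :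
    ∃ w, CProj N w ∧ w * e = e ∧ ∀ n ∈ N, n * e = 0 → n * w = 0 := by
  obtain ⟨w, hw, hwe, hmin⟩ := csupp N.commutant he
  refine ⟨w, ⟨hw.proj, ?_, hw.mem⟩, hwe, fun n hn h0 => hmin n fun x hx => ?_⟩
  · have := hw.cen
    rwa [VonNeumannAlgebra.commutant_commutant] at this
  · rw [← comm_of_mem hx hn, mul_assoc, h0, mul_zero]

theorem il_close {e z w : H →L[ℂ] H} (hp : IsStarProjection e) (he : e ∈ M.commutant)
    (he' : e ∈ N.commutant) {δ : ℝ} (hδ0 : 0 ≤ δ) (hδ : δ ≤ 1 / 100)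
    (h : NearV M N δ) (h' : NearV N M δ) (hz : CProj M z)
    (hze : z * e = e) (hmin : ∀ x ∈ M, x * e = 0 → x * z = 0) (hw : CProj N w)
    (hwe : w * e = e) (hmin' : ∀ x ∈ N, x * e = 0 → x * w = 0) : ‖z - w‖ ≤ 8 * δ := by
  obtain ⟨w1, hw1, hn1⟩ := near_cproj (by linarith) h h' hδ0 hz
  obtain ⟨z1, hz1, hn2⟩ := near_cproj (by linarith) h' h hδ0 hw
  have a1 : (1 - w1) * w = 0 :=
    hmin' _ hw1.one_sub.mem (il_cut hp he' hw1 hze (by linarith))
  have a2 : (1 - z1) * z = 0 :=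
    hmin _ hz1.one_sub.mem (il_cut hp he hz1 hwe (by linarith))
  have a3 : z * z1 = z := by
    rw [sub_mul, one_mul, sub_eq_zero] at a2
    rw [hz.comm hz1.mem]
    exact a2.symm
  have a4 : w1 * (1 - w) = 0 := by
    apply proj_zero (hw1.mul hw.one_sub).proj
    have e1 : w1 * (1 - w) = -((z - w1) * (1 - w)) - z * (w - z1) := by
      rw [mul_sub z w z1, a3]
      noncomm_ring
    rw [e1]
    have b1 : ‖(z - w1) * (1 - w)‖ ≤ 8 * δ * 1 :=
      (norm_mul_le _ _).trans (by gcongr; exact hw.one_sub.proj.norm_le)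
    have b2 : ‖z * (w - z1)‖ ≤ 1 * (8 * δ) :=
      (norm_mul_le _ _).trans (by gcongr; exact hz.proj.norm_le)
    calc ‖-((z - w1) * (1 - w)) - z * (w - z1)‖
        ≤ ‖-((z - w1) * (1 - w))‖ + ‖z * (w - z1)‖ := norm_sub_le _ _
      _ < 1 := by rw [norm_neg]; linarith
  have a5 : w1 = w := by
    rw [sub_mul, one_mul, sub_eq_zero] at a1
    rw [mul_sub, mul_one, sub_eq_zero] at a4
    rw [a4]
    exact a1.symm
  rwa [a5] at hn1

theorem il_norm {e w : H →L[ℂ] H} {i : H₀ →L[ℂ] H} (hp : IsStarProjection e)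
    (he : e ∈ N.commutant) (hi : RstIso i e) (hw : CProj N w)
    (hmin : ∀ x ∈ N, x * e = 0 → x * w = 0) {n : H →L[ℂ] H} (hn : n ∈ N) :
    ‖n * w‖ ≤ ‖rstC i n‖ := by
  obtain ⟨s, hs, hs1, hs2⟩ := rst_lift hp he hi (rst_mem he hi hn)
  have hsn : s - n ∈ N := sub_mem hs hn
  have a1 : e * (s - n) * e = 0 := by
    rw [← rstE_rstC hi, rstC_sub, hs1, sub_self]
    ext ξ
    simp [rstE_apply]
  have a2 : (s - n) * e = 0 := by
    rw [comm_of_mem he hsn, mul_assoc, hp.isIdempotentElem.eq] at a1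
    exact a1
  have a3 := hmin _ hsn a2
  rw [sub_mul, sub_eq_zero] at a3
  rw [← a3]
  calc ‖s * w‖ ≤ ‖s‖ * ‖w‖ := norm_mul_le _ _
    _ ≤ ‖rstC i n‖ * 1 := by gcongr; exact hw.proj.norm_le
    _ = _ := mul_one _

theorem il {e z : H →L[ℂ] H} {i : H₀ →L[ℂ] H} (hp : IsStarProjection e) (he : e ∈ M.commutant)
    (he' : e ∈ N.commutant) (hi : RstIso i e) {δ c : ℝ} (hδ0 : 0 ≤ δ) (hδ : δ ≤ 1 / 100)
    (h : NearV M N δ) (h' : NearV N M δ) (hc : Conj (rstAlg i M) (rstAlg i N) c) (hz : CProj M z)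
    (hze : z * e = e) (hmin : ∀ x ∈ M, x * e = 0 → x * z = 0) : LinN M N z (2 * c + 20 * δ) := by
  obtain ⟨w, hw, hwe, hmin'⟩ := il_supp he'
  have hzw := il_close hp he he' hδ0 hδ h h' hz hze hmin hw hwe hmin'
  obtain ⟨u, hu, huc, hconj⟩ := hc
  have hex : ∀ x : M, ∃ n ∈ N, rstC i n = u * rstC i (x : H →L[ℂ] H) * star u := fun x => by
    obtain ⟨n, hn, h1, -⟩ := rst_lift hp he' hi ((hconj _).1 (rst_mem he hi x.2))
    exact ⟨n, hn, h1⟩
  choose f hfN hf using hex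
  have uniq : ∀ n ∈ N, ∀ n' ∈ N, rstC i n = rstC i n' → n * w = n' * w := fun n hn n' hn' hnn => by
    have := il_norm hp he' hi hw hmin' (sub_mem hn hn')
    rw [rstC_sub, hnn, sub_self, norm_zero, norm_le_zero_iff, sub_mul, sub_eq_zero] at this
    exact this
  let T : M →ₗ[ℂ] (H →L[ℂ] H) :=
    { toFun := fun x => f x * w
      map_add' := fun x y => by
        rw [← add_mul]
        apply uniq _ (hfN _) _ (add_mem (hfN _) (hfN _))
        rw [rstC_add, hf, hf, hf]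
        have : ((x + y : M) : H →L[ℂ] H) = x + y := rfl
        rw [this, rstC_add, mul_add, add_mul]
      map_smul' := fun a x => by
        rw [RingHom.id_apply, ← smul_mul_assoc]
        apply uniq _ (hfN _) _ (SMulMemClass.smul_mem a (hfN _))
        rw [rstC_smul, hf, hf]
        have : ((a • x : M) : H →L[ℂ] H) = a • x := rfl
        rw [this, rstC_smul, mul_smul_comm, smul_mul_assoc] }
  refine ⟨T, fun x => mul_mem (hfN x) hw.mem, fun x => ?_⟩
  obtain ⟨n, hn, hxn⟩ := h x x.2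
  have hx0 : 0 ≤ ‖(x : H →L[ℂ] H)‖ := norm_nonneg _
  have b1 : ‖(f x - n) * w‖ ≤ 2 * c * ‖(x : H →L[ℂ] H)‖ + δ * ‖(x : H →L[ℂ] H)‖ := by
    refine (il_norm hp he' hi hw hmin' (sub_mem (hfN x) hn)).trans ?_
    have e1 : rstC i (f x - n) = (u * rstC i (x : H →L[ℂ] H) * star u - rstC i x) +
        rstC i ((x : H →L[ℂ] H) - n) := by
      rw [rstC_sub, rstC_sub, hf]
      abel
    rw [e1]
    refine (norm_add_le _ _).trans (add_le_add ?_ ((hi.norm_C _).trans hxn))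
    refine (norm_conj_sub hu _).trans ?_
    have hc0 : 0 ≤ c := (norm_nonneg _).trans huc
    have := hi.norm_C (x : H →L[ℂ] H)
    gcongr
  have b2 : ‖((x : H →L[ℂ] H) - n) * w‖ ≤ δ * ‖(x : H →L[ℂ] H)‖ * 1 :=
    (norm_mul_le _ _).trans (by gcongr; exact hw.proj.norm_le)
  have b3 : ‖(x : H →L[ℂ] H) * (z - w)‖ ≤ ‖(x : H →L[ℂ] H)‖ * (8 * δ) :=
    (norm_mul_le _ _).trans (by gcongr)
  have e2 : T x - (x : H →L[ℂ] H) * z =
      (f x - n) * w - ((x : H →L[ℂ] H) - n) * w - (x : H →L[ℂ] H) * (z - w) := by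
    change f x * w - _ = _
    noncomm_ring
  have e3 : ‖x‖ = ‖(x : H →L[ℂ] H)‖ := rfl
  rw [e2, e3]
  have b4 := norm_sub_le ((f x - n) * w - ((x : H →L[ℂ] H) - n) * w) ((x : H →L[ℂ] H) * (z - w))
  have b5 := norm_sub_le ((f x - n) * w) (((x : H →L[ℂ] H) - n) * w)
  have b6 : 0 ≤ δ * ‖(x : H →L[ℂ] H)‖ := mul_nonneg hδ0 hx0
  nlinarith

end Vale.Agent.KK
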