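import Vale.Agent.KK.Bi3

/-!
The lower bound along the tower. P = emb emb*, q z = |z|^2 - |emb* z|^2 = |z - P z|^2, mu = 1 / card.
low_key: expand with TW.key (L, Rr are commuting cells): |W|^2 = sum_ab <z_ab, L a Rr b z_ab>, and <emb eta, W> for emb* W.
U j = cs L a, V j = cs Rr r, That j = cs Rr T, X = twX U, Y = twX V, D = twD That V, Xi = emb xi, Z j = [X j, D j] Xi. Facts: X j commutes with Y, V, Rr, amp (r b);
X j Y j Xi = Xi (TW.lemb); D j commutes with L and is harmonic for amp a; X j, Y j, D j preserve the subspace D i for j <= i.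
(I2) for harmonic c: emb* (X j amp c Y j Xi) = c xi (induction, X (j+1) c Y (j+1) Xi = sum_ab L a Rr b amp (a a) X j amp (c r b) Y j Xi, c r b is harmonic,
a c r a xi = a c a* xi, and sum_l a_l c a_l* = card c by symmetry). (I3) q (X (j+1) c Y (j+1) Xi) >= av_l |a_l c a_l* xi - c xi|^2 = av |[a_l, c] xi|^2.
Step: Z (j+1) = sum_ab L a Rr b z_ab, z_ab = amp (a_a r_b) (Z j + A_b + A'_a) + emb ([a_a, T_b] xi), c_b = r_b* T_b, A_b = X j c_b Y j Xi - emb (c_b xi),
A'_a = (D - amp a* D amp a) X j Xi; sum_b A_b = 0 = sum_a A'_a. q is invariant under amp of a unitary and under adding emb eta. So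
q (Z (j+1)) >= av_ab q (Z j + A_b + A'_a) >= q (Z j) + av_b q (A_b) (Jensen in a, orthogonality in b).
-/

namespace Vale.Agent.KK

open Vale.Agent.P104
open scoped InnerProductSpace

universe u

variable {H K : Type*} [NormedAddCommGroup H] [InnerProductSpace ℂ H] [CompleteSpace H]
  [NormedAddCommGroup K] [InnerProductSpace ℂ K] [CompleteSpace K]
  {ι : Type*} [Fintype ι] [DecidableEq ι]
  [Nonempty ι] {A : Amp H K (ι × ι)} {n : ℕ} {Λ : Type} [Fintype Λ] [DecidableEq Λ] [Nonempty Λ]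
  {L Rr : ℕ → Λ → K →L[ℂ] K} {D : ℕ → Submodule ℂ K}

/-- The projection onto the orthogonal complement of the range of `emb A`. -/
noncomputable def lowQ (A : Amp H K (ι × ι)) : K →L[ℂ] K := 1 - emb A ∘L (emb A).adjoint

omit [Nonempty ι] in
theorem lowQ_apply (ζ : K) : lowQ A ζ = ζ - emb A ((emb A).adjoint ζ) := rfl

theorem lowQ_norm (ζ : K) : ‖lowQ A ζ‖ ^ 2 = ‖ζ‖ ^ 2 - ‖(emb A).adjoint ζ‖ ^ 2 := by
  rw [lowQ_apply, @norm_sub_sq ℂ, norm_emb, ← ContinuousLinearMap.adjoint_inner_left,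
    inner_self_eq_norm_sq]
  ring

theorem lowQ_emb (η : H) : lowQ A (emb A η) = 0 := by
  rw [lowQ_apply, emb_adj_emb, sub_self]

omit [Nonempty ι] in
theorem lowQ_amp (y : H →L[ℂ] H) (ζ : K) : lowQ A (A.amp y ζ) = A.amp y (lowQ A ζ) := by
  rw [lowQ_apply, lowQ_apply, map_sub, amp_emb, emb_adj_amp]

omit [Nonempty ι] in
theorem low_amp_uni {y : H →L[ℂ] H} (hy : y ∈ unitary (H →L[ℂ] H)) :
    A.amp y ∈ unitary (K →L[ℂ] K) :=
  ⟨by rw [← A.amp_star, ← A.amp_mul, hy.1, A.amp_one],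
    by rw [← A.amp_star, ← A.amp_mul, hy.2, A.amp_one]⟩

omit [Nonempty ι] [Nonempty Λ] in
theorem low_cell (h : TW A n L Rr D) (j : ℕ) (a b : Λ) (ζ : K) :
    ‖Rr j b (L j a ζ)‖ ^ 2 = (⟪ζ, L j a (Rr j b ζ)⟫_ℂ).re := by
  have e1 : star (Rr j b * L j a) * (Rr j b * L j a) = L j a * Rr j b := by
    rw [star_mul, (h.cl j).star_eq, (h.cr j).star_eq, mul_assoc, ← mul_assoc (Rr j b),
      (h.cr j).idem, ← h.lr, ← mul_assoc, (h.cl j).idem]
  have := qf_star_mul_self (Rr j b * L j a) ζ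
  rw [e1] at this
  exact this.symm

omit [Nonempty Λ] in
theorem low_key (h : TW A n L Rr D) {j : ℕ} (hj : j < n) (z : Λ → Λ → K) (hz : ∀ a b, z a b ∈ D j) :
    (emb A).adjoint (∑ a, ∑ b, L j a (Rr j b (z a b))) =
        (Fintype.card Λ : ℂ)⁻¹ • ∑ a, (emb A).adjoint (z a a) ∧
      ‖∑ a, ∑ b, L j a (Rr j b (z a b))‖ ^ 2 =
        ((Fintype.card Λ : ℝ)⁻¹) ^ 2 * ∑ a, ∑ b, (‖z a b‖ ^ 2 - ‖(emb A).adjoint (z a b)‖ ^ 2) +
          (Fintype.card Λ : ℝ)⁻¹ * ∑ a, ‖(emb A).adjoint (z a a)‖ ^ 2 := by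
  constructor
  · refine ext_inner_left ℂ fun η => ?_
    rw [ContinuousLinearMap.adjoint_inner_right, inner_smul_right, inner_sum, inner_sum,
      Finset.mul_sum]
    refine Finset.sum_congr rfl fun a _ => ?_
    rw [inner_sum]
    simp only [h.key j hj _ (h.demb j η) _ (hz _ _), emb_adj_emb,
      ContinuousLinearMap.adjoint_inner_right, sub_self, mul_zero, zero_add, ite_mul, zero_mul,
      Finset.sum_ite_eq, Finset.mem_univ, if_true]
  · have e1 : ∀ a, ∑ b, L j a (Rr j b (z a b)) = L j a (∑ b, Rr j b (z a b)) := fun a => by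
      rw [map_sum]
    have e2 : ∀ a, L j a (∑ b, Rr j b (z a b)) = ∑ b, Rr j b (L j a (z a b)) := fun a => by
      rw [map_sum]
      exact Finset.sum_congr rfl fun b _ => by
        rw [← mul_apply_eq_comp, h.lr, mul_apply_eq_comp]
    simp only [e1]
    rw [cells_pyth (h.cl j)]
    simp only [e2, cells_pyth (h.cr j), low_cell h]
    rw [Finset.mul_sum, Finset.mul_sum, ← Finset.sum_add_distrib]
    refine Finset.sum_congr rfl fun a _ => ?_
    have e3 : ∀ b, (⟪z a b, L j a (Rr j b (z a b))⟫_ℂ).re =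
        ((Fintype.card Λ : ℝ)⁻¹) ^ 2 * (‖z a b‖ ^ 2 - ‖(emb A).adjoint (z a b)‖ ^ 2) +
          if a = b then (Fintype.card Λ : ℝ)⁻¹ * ‖(emb A).adjoint (z a b)‖ ^ 2 else 0 := fun b => by
      rw [h.key j hj _ (hz a b) _ (hz a b), inner_self_eq_norm_sq_to_K,
        inner_self_eq_norm_sq_to_K]
      refine (congrArg Complex.re ?_).trans (Complex.ofReal_re _)
      split_ifs <;> simp
    simp only [e3, Finset.sum_add_distrib, Finset.sum_ite_eq, Finset.mem_univ, if_true,
      Finset.mul_sum]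

section Alg

variable {R : Type*} [Ring R]

theorem low_comm_X {U : ℕ → R} {y : R} (h : ∀ j, y * U j = U j * y) :
    ∀ j, y * twX U j = twX U j * y
  | 0 => by simp [twX]
  | j + 1 => by rw [twX, ← mul_assoc, h, mul_assoc, low_comm_X h j, mul_assoc]

theorem low_comm_D {T V : ℕ → R} {y : R} (hT : ∀ j, y * T j = T j * y)
    (hV : ∀ j, y * V j = V j * y) : ∀ j, y * twD T V j = twD T V j * y
  | 0 => by simp [twD]
  | j + 1 => by
    rw [twD, mul_add, add_mul, ← mul_assoc, hT, mul_assoc, low_comm_X hV j, ← mul_assoc y, hV,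
      mul_assoc (V j), low_comm_D hT hV j, mul_assoc, mul_assoc]

end Alg

omit [Nonempty ι] [DecidableEq Λ] [Nonempty Λ] in
theorem low_comm_cs {P : Λ → K →L[ℂ] K} {f : Λ → H →L[ℂ] H} {y : K →L[ℂ] K}
    (h1 : ∀ a, y * A.amp (f a) = A.amp (f a) * y) (h2 : ∀ a, y * P a = P a * y) :
    y * cs A P f = cs A P f * y := by
  simp only [cs, Finset.mul_sum, Finset.sum_mul]
  exact Finset.sum_congr rfl fun a _ => by rw [← mul_assoc, h1, mul_assoc, h2, mul_assoc]

omit [Nonempty ι] [Nonempty Λ] in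
theorem low_pres_X {P : ℕ → Λ → K →L[ℂ] K} {f : Λ → H →L[ℂ] H} (h : TW A n L Rr D) {i : ℕ}
    (hP : ∀ j a, j < i → ∀ ζ ∈ D i, P j a ζ ∈ D i) :
    ∀ j ≤ i, ∀ ζ ∈ D i, twX (fun j => cs A (P j) f) j ζ ∈ D i
  | 0, _, ζ, hζ => hζ
  | j + 1, hj, ζ, hζ => by
    simp only [twX, cs, mul_apply_eq_comp, _root_.sum_apply]
    exact Submodule.sum_mem _ fun a _ => h.damp _ _ _
      (hP j a hj _ (low_pres_X h hP j (Nat.le_of_succ_le hj) ζ hζ))

omit [Nonempty ι] [Nonempty Λ] in
theorem low_pres_D {r T : Λ → H →L[ℂ] H} (h : TW A n L Rr D) {i : ℕ} :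
    ∀ j ≤ i, ∀ ζ ∈ D i,
      twD (fun j => cs A (Rr j) T) (fun j => cs A (Rr j) r) j ζ ∈ D i
  | 0, _, ζ, _ => by simp [twD]
  | j + 1, hj, ζ, hζ => by
    simp only [twD, _root_.add_apply, mul_apply_eq_comp]
    refine Submodule.add_mem _ ?_ ?_
    · rw [cs, _root_.sum_apply]
      exact Submodule.sum_mem _ fun a _ => h.damp _ _ _ (h.dr j i a hj _
        (low_pres_X h (fun j a hj => h.dr j i a hj) j (Nat.le_of_succ_le hj) ζ hζ))
    · rw [cs, _root_.sum_apply]
      exact Submodule.sum_mem _ fun a _ => h.damp _ _ _ (h.dr j i a hj _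
        (low_pres_D h j (Nat.le_of_succ_le hj) ζ hζ))

omit [Nonempty ι] [Nonempty Λ] in
theorem low_split (h : TW A n L Rr D) (j : ℕ) (ζ : K) :
    ζ = ∑ a, ∑ b, L j a (Rr j b ζ) := by
  simp only [← map_sum, ← _root_.sum_apply, (h.cr j).sum, (h.cl j).sum,
    one_apply_eq_self]

omit [Nonempty ι] [Nonempty Λ] in
theorem low_UV (h : TW A n L Rr D) {a r : Λ → H →L[ℂ] H}
    (har : ∀ l l', a l * r l' = r l' * a l) (i j : ℕ) :
    cs A (Rr j) r * cs A (L i) a = cs A (L i) a * cs A (Rr j) r :=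
  low_comm_cs (fun l => (low_comm_cs (fun l' => by rw [← A.amp_mul, ← A.amp_mul, har])
    fun l' => (h.ramp j l' _).symm).symm)
    fun l => (low_comm_cs (fun l' => h.lamp i l _) fun l' => h.lr i j l l').symm

omit [Nonempty ι] [Nonempty Λ] in
theorem tw_xy (h : TW A n L Rr D) {a r : Λ → H →L[ℂ] H} {ξ : H}
    (har : ∀ l l', a l * r l' = r l' * a l) (hξ : ∀ l, a l (r l ξ) = ξ) (j : ℕ) :
    twX (fun j => cs A (L j) a) j (twX (fun j => cs A (Rr j) r) j (emb A ξ)) = emb A ξ := by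
  induction j with
  | zero => rfl
  | succ j ih =>
    have e1 := low_comm_X (U := fun i => cs A (L i) a) (fun i => low_UV h har i j) j
    simp only [twX, mul_apply_eq_comp]
    rw [← mul_apply_eq_comp (twX _ j), ← e1, mul_apply_eq_comp, ih]
    rw [cs, _root_.sum_apply]
    have e0 : emb A ξ = ∑ l, L j l (emb A ξ) := by
      rw [← _root_.sum_apply, (h.cl j).sum, one_apply_eq_self]
    conv_rhs => rw [e0]
    refine Finset.sum_congr rfl fun l _ => ?_
    have e2 : L j l * cs A (Rr j) r = cs A (Rr j) r * L j l :=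
      low_comm_cs (fun l' => h.lamp j l _) fun l' => h.lr j j l l'
    have e3 : Rr j l * cs A (Rr j) r = cs A (Rr j) r * Rr j l :=
      low_comm_cs (fun l' => h.ramp j l _) fun l' => by
        rw [(h.cr j).mul, (h.cr j).mul]
        split_ifs with h1 h2 h2
        · rw [h1]
        · exact absurd h1.symm h2
        · exact absurd h2.symm h1
        · rfl
    rw [mul_apply_eq_comp, ← mul_apply_eq_comp (L j l), e2,
      mul_apply_eq_comp, h.lemb, ← mul_apply_eq_comp (cs A _ _), ← e3,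
      cell_mul_cs A (h.cr j) (h.ramp j), mul_apply_eq_comp, amp_emb,
      ← mul_apply_eq_comp (A.amp _), ← h.ramp, mul_apply_eq_comp, amp_emb,
      hξ]

theorem low_alg {R : Type*} [Ring R] {a as r t c X Y D : R} (h1 : r * c = t) (h2 : a * as = 1)
    (h3 : a * r = r * a) (h4 : X * r = r * X) (h5 : Y * a = a * Y) (h6 : Y * X = X * Y) :
    a * X * (t * Y + r * D) - (t * Y + r * D) * (a * X) =
      a * r * (cm X D + (X * c * Y - c * (X * Y)) + (D - as * D * a) * X) + cm a t * (X * Y) := by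
  have e1 : a * r * (X * c * Y) = a * X * (t * Y) := by
    rw [← h1, mul_assoc a, ← mul_assoc r, ← mul_assoc r, ← h4]; noncomm_ring
  have e2 : a * r * (c * (X * Y)) = a * t * (X * Y) := by rw [← h1]; noncomm_ring
  have e3 : a * r * (as * D * a * X) = r * D * (a * X) := by
    rw [h3, mul_assoc r, mul_assoc as, mul_assoc as, ← mul_assoc a, h2]; noncomm_ring
  have e4 : t * Y * (a * X) = t * a * (X * Y) := by
    rw [mul_assoc t, ← mul_assoc Y, h5, mul_assoc a, h6]; noncomm_ring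
  have e5 : a * X * (r * D) = a * r * (X * D) := by
    rw [mul_assoc a, ← mul_assoc X, h4]; noncomm_ring
  have key : a * r * (cm X D + (X * c * Y - c * (X * Y)) + (D - as * D * a) * X) +
      cm a t * (X * Y) = a * r * (X * D) + a * r * (X * c * Y) - a * r * (c * (X * Y)) -
        a * r * (as * D * a * X) + a * t * (X * Y) - t * a * (X * Y) := by
    simp only [cm]; noncomm_ring
  rw [key, e1, e2, e3, ← e4, ← e5]
  noncomm_ring

omit [DecidableEq Λ] [Nonempty Λ] in
theorem low_orth {F : Type*} [NormedAddCommGroup F] [InnerProductSpace ℂ F] (c : F) (w : Λ → F)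
    (hw : ∑ l, w l = 0) :
    ∑ l, ‖c + w l‖ ^ 2 = Fintype.card Λ * ‖c‖ ^ 2 + ∑ l, ‖w l‖ ^ 2 := by
  simp only [@norm_add_sq ℂ, Finset.sum_add_distrib, ← Finset.mul_sum, ← map_sum, ← inner_sum, hw,
    inner_zero_right, map_zero, mul_zero, add_zero, Finset.sum_const, Finset.card_univ,
    nsmul_eq_mul]

omit [DecidableEq Λ] [Nonempty Λ] in
theorem low_harm_mul {a : Λ → H →L[ℂ] H} {c y : H →L[ℂ] H} (hc : Harm a c)
    (hy : ∀ l, a l * y = y * a l) : Harm a (c * y) ∧
      ((∀ l, star (a l) * y = y * star (a l)) → Harm a (y * c)) := by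
  unfold Harm at hc ⊢
  refine ⟨?_, fun hy' => ?_⟩
  · rw [← smul_mul_assoc, ← hc, Finset.sum_mul]
    exact Finset.sum_congr rfl fun l _ => by rw [mul_assoc _ (a l), hy]; noncomm_ring
  · rw [← mul_smul_comm, ← hc, Finset.mul_sum]
    exact Finset.sum_congr rfl fun l _ => by rw [← mul_assoc (star _), hy']; noncomm_ring

theorem low_star_comm {x y : H →L[ℂ] H} (hx : x ∈ unitary (H →L[ℂ] H)) (h : x * y = y * x) :
    star x * y = y * star x := by
  calc star x * y = star x * y * (x * star x) := by rw [hx.2, mul_one]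
    _ = star x * (x * y) * star x := by rw [h]; noncomm_ring
    _ = y * star x := by rw [← mul_assoc, hx.1, one_mul]

section Main

variable {a r T : Λ → H →L[ℂ] H} {ξ : H}

omit [Nonempty ι] [Nonempty Λ] in
theorem low_exp (h : TW A n L Rr D) (j : ℕ) (c : H →L[ℂ] H) (ζ : K) :
    twX (fun j => cs A (L j) a) (j + 1) (A.amp c (twX (fun j => cs A (Rr j) r) (j + 1) ζ)) =
      ∑ l, ∑ l', L j l (Rr j l' (A.amp (a l) (twX (fun j => cs A (L j) a) j
        (A.amp (c * r l') (twX (fun j => cs A (Rr j) r) j ζ))))) := by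
  refine (low_split h j _).trans
    (Finset.sum_congr rfl fun l _ => Finset.sum_congr rfl fun l' _ => ?_)
  have f1 : ∀ i, Rr j l' * cs A (L i) a = cs A (L i) a * Rr j l' := fun i =>
    low_comm_cs (fun _ => h.ramp j l' _) fun b => (h.lr i j b l').symm
  have f2 := low_comm_X (U := fun i => cs A (L i) a) f1 j
  set X := twX (fun j => cs A (L j) a) j
  have e : L j l * Rr j l' * (cs A (L j) a * X * A.amp c * cs A (Rr j) r) =
      L j l * Rr j l' * (A.amp (a l) * X * A.amp (c * r l')) := by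
    calc _ = L j l * (Rr j l' * cs A (L j) a) * X * A.amp c * cs A (Rr j) r := by noncomm_ring
      _ = (L j l * cs A (L j) a) * (Rr j l' * X) * A.amp c * cs A (Rr j) r := by
        rw [f1]; noncomm_ring
      _ = L j l * A.amp (a l) * X * (Rr j l' * A.amp c) * cs A (Rr j) r := by
        rw [f2, cell_mul_cs A (h.cl j) (h.lamp j)]; noncomm_ring
      _ = L j l * A.amp (a l) * X * A.amp c * (Rr j l' * cs A (Rr j) r) := by
        rw [h.ramp]; noncomm_ring
      _ = L j l * A.amp (a l) * X * (A.amp c * Rr j l') * A.amp (r l') := by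
        rw [cell_mul_cs A (h.cr j) (h.ramp j)]; noncomm_ring
      _ = L j l * A.amp (a l) * (X * Rr j l') * A.amp c * A.amp (r l') := by
        rw [← h.ramp]; noncomm_ring
      _ = L j l * (A.amp (a l) * Rr j l') * X * A.amp c * A.amp (r l') := by
        rw [← f2]; noncomm_ring
      _ = _ := by rw [← h.ramp, A.amp_mul]; noncomm_ring
  exact congrArg (fun W : K →L[ℂ] K => W (twX (fun j => cs A (Rr j) r) j ζ)) e

omit [Nonempty ι] [Nonempty Λ] in
theorem low_mem (h : TW A n L Rr D) (j : ℕ) (c : H →L[ℂ] H) :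
    twX (fun j => cs A (L j) a) j (A.amp c (twX (fun j => cs A (Rr j) r) j (emb A ξ))) ∈ D j :=
  low_pres_X h (fun i a hi => h.dl i j a hi) j le_rfl _ (h.damp _ _ _
    (low_pres_X h (fun i a hi => h.dr i j a hi) j le_rfl _ (h.demb j ξ)))

omit [DecidableEq Λ] [Nonempty Λ] in
theorem low_sym (ha : ∀ l, a l ∈ unitary (H →L[ℂ] H)) (hξ : ∀ l, a l (r l ξ) = ξ)
    (hs : ∃ σ : Λ ≃ Λ, ∀ l, a (σ l) = star (a l)) {c : H →L[ℂ] H} (hc : Harm a c) :
    ∑ l, a l (c (r l ξ)) = (Fintype.card Λ : ℂ) • c ξ ∧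
      ∑ l, ‖a l (c (r l ξ)) - c ξ‖ ^ 2 = ∑ l, ‖cm (a l) c ξ‖ ^ 2 := by
  obtain ⟨σ, hσ⟩ := hs
  have e : ∀ l, r l ξ = star (a l) ξ := fun l => by
    conv_rhs => rw [← hξ l, ← mul_apply_eq_comp, (ha l).1, one_apply_eq_self]
  constructor
  · have := congrArg (fun W : H →L[ℂ] H => W ξ) hc
    simp only [_root_.sum_apply, mul_apply_eq_comp, _root_.smul_apply] at this
    rw [← this, ← σ.sum_comp]
    exact Finset.sum_congr rfl fun l _ => by rw [e, hσ, star_star]
  · rw [← σ.sum_comp]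
    refine Finset.sum_congr rfl fun l _ => ?_
    rw [e, hσ, star_star, ← uni_apply (ha l), map_sub, ← mul_apply_eq_comp (a l) (star _),
      (ha l).2, one_apply_eq_self, norm_sub_rev]
    rfl

theorem low_I2 (h : TW A n L Rr D) (ha : ∀ l, a l ∈ unitary (H →L[ℂ] H))
    (har : ∀ l l', a l * r l' = r l' * a l) (hξ : ∀ l, a l (r l ξ) = ξ)
    (hs : ∃ σ : Λ ≃ Λ, ∀ l, a (σ l) = star (a l)) : ∀ j ≤ n, ∀ c, Harm a c →
    (emb A).adjoint (twX (fun j => cs A (L j) a) j
      (A.amp c (twX (fun j => cs A (Rr j) r) j (emb A ξ)))) = c ξ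
  | 0, _, c, _ => by
    simp only [twX, one_apply_eq_self]
    rw [amp_emb, emb_adj_emb]
  | j + 1, hj, c, hc => by
    rw [low_exp h, (low_key h hj _ fun l l' => h.damp _ _ _ (low_mem h j _)).1]
    simp only [emb_adj_amp,
      low_I2 h ha har hξ hs j (Nat.le_of_succ_le hj) _ (low_harm_mul hc fun l => har l _).1,
      mul_apply_eq_comp]
    rw [(low_sym ha hξ hs hc).1, smul_smul, inv_mul_cancel₀ (by simp), one_smul]

theorem low_I3 (h : TW A n L Rr D) (ha : ∀ l, a l ∈ unitary (H →L[ℂ] H))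
    (har : ∀ l l', a l * r l' = r l' * a l) (hξ : ∀ l, a l (r l ξ) = ξ)
    (hs : ∃ σ : Λ ≃ Λ, ∀ l, a (σ l) = star (a l)) {j : ℕ} (hj : j < n) {c : H →L[ℂ] H}
    (hc : Harm a c) : (Fintype.card Λ : ℝ)⁻¹ * ∑ l, ‖cm (a l) c ξ‖ ^ 2 ≤
      ‖lowQ A (twX (fun j => cs A (L j) a) (j + 1)
        (A.amp c (twX (fun j => cs A (Rr j) r) (j + 1) (emb A ξ))))‖ ^ 2 := by
  rw [lowQ_norm, low_I2 h ha har hξ hs _ hj c hc, low_exp h,
    (low_key h hj _ fun l l' => h.damp _ _ _ (low_mem h j _)).2]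
  simp only [← lowQ_norm]
  simp only [emb_adj_amp,
    low_I2 h ha har hξ hs j hj.le _ (low_harm_mul hc fun l => har l _).1, mul_apply_eq_comp]
  obtain ⟨e1, e2⟩ := low_sym ha hξ hs hc
  have e3 := low_orth (c ξ) (fun l => a l (c (r l ξ)) - c ξ) (by
    rw [Finset.sum_sub_distrib, e1, Finset.sum_const, Finset.card_univ, Nat.cast_smul_eq_nsmul,
      sub_self])
  simp only [add_sub_cancel] at e3
  have e4 : (0 : ℝ) < Fintype.card Λ := by exact_mod_cast Fintype.card_pos
  rw [e3, e2, mul_add, ← mul_assoc, inv_mul_cancel₀ e4.ne', one_mul]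
  have e5 : ∀ x y z : ℝ, 0 ≤ x → y ≤ x + (z + y) - z := fun x y z hx => by linarith
  exact e5 _ _ _ (mul_nonneg (sq_nonneg _)
    (Finset.sum_nonneg fun _ _ => Finset.sum_nonneg fun _ _ => sq_nonneg _))

omit [Nonempty ι] [Nonempty Λ] in
theorem low_harmD (h : TW A n L Rr D) (har : ∀ l l', a l * r l' = r l' * a l)
    (ha : ∀ l, a l ∈ unitary (H →L[ℂ] H)) (hT : ∀ l, Harm a (T l)) : ∀ j,
    Harm (fun l => A.amp (a l)) (twD (fun j => cs A (Rr j) T) (fun j => cs A (Rr j) r) j)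
  | 0 => by simp [twD, Harm]
  | j + 1 => by
    have f1 : ∀ l i, A.amp (a l) * cs A (Rr i) r = cs A (Rr i) r * A.amp (a l) := fun l i =>
      low_comm_cs (fun l' => by rw [← A.amp_mul, ← A.amp_mul, har]) fun l' => (h.ramp i l' _).symm
    have f2 : Harm (fun l => A.amp (a l)) (cs A (Rr j) T) := by
      unfold Harm cs
      simp only [Finset.mul_sum, Finset.sum_mul, Finset.smul_sum]
      rw [Finset.sum_comm]
      refine Finset.sum_congr rfl fun l' _ => ?_
      rw [← smul_mul_assoc, ← A.amp_smul, ← hT l', A.amp_sum, Finset.sum_mul]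
      exact Finset.sum_congr rfl fun l _ => by
        simp only [A.amp_mul, A.amp_star, mul_assoc]
        rw [h.ramp j l' (a l)]
    have f3 := (low_harm_mul f2 fun l => low_comm_X (U := fun i => cs A (Rr i) r) (f1 l) j).1
    have f4 := (low_harm_mul (low_harmD h har ha hT j) fun l => f1 l j).2 fun l =>
      low_star_comm (low_amp_uni (ha l)) (f1 l j)
    unfold Harm at f3 f4 ⊢
    simp only [twD, mul_add, add_mul, Finset.sum_add_distrib, smul_add]
    rw [f3, f4]

theorem low_step (h : TW A n L Rr D) (ha : ∀ l, a l ∈ unitary (H →L[ℂ] H))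
    (hr : ∀ l, r l ∈ unitary (H →L[ℂ] H)) (har : ∀ l l', a l * r l' = r l' * a l)
    (hξ : ∀ l, a l (r l ξ) = ξ) (hT : ∀ l, Harm a (T l)) (hT0 : ∑ l, star (r l) * T l = 0)
    {j : ℕ} (hj : j < n) :
    ‖lowQ A (cm (twX (fun j => cs A (L j) a) j)
        (twD (fun j => cs A (Rr j) T) (fun j => cs A (Rr j) r) j) (emb A ξ))‖ ^ 2 +
      (Fintype.card Λ : ℝ)⁻¹ * ∑ l, ‖lowQ A (twX (fun j => cs A (L j) a) j
        (A.amp (star (r l) * T l) (twX (fun j => cs A (Rr j) r) j (emb A ξ))))‖ ^ 2 ≤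
    ‖lowQ A (cm (twX (fun j => cs A (L j) a) (j + 1))
        (twD (fun j => cs A (Rr j) T) (fun j => cs A (Rr j) r) (j + 1)) (emb A ξ))‖ ^ 2 := by
  have hxy := tw_xy h har hξ j
  have hD := low_harmD h har ha hT j
  have pX := low_pres_X (f := a) h (fun i a hi => h.dl i j a hi) j le_rfl
  have pD := low_pres_D (r := r) (T := T) h j le_rfl
  have pM := fun c => low_mem (a := a) (r := r) (ξ := ξ) h j c
  have cRX : ∀ l, Rr j l * twX (fun j => cs A (L j) a) j = twX (fun j => cs A (L j) a) j * Rr j l :=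
    fun l => low_comm_X (fun i => low_comm_cs (fun _ => h.ramp j l _)
      fun b => (h.lr i j b l).symm) j
  have cLV : ∀ l i (f : Λ → H →L[ℂ] H), L j l * cs A (Rr i) f = cs A (Rr i) f * L j l :=
    fun l i f => low_comm_cs (fun _ => h.lamp j l _) fun b => h.lr j i l b
  have cLY := fun l => low_comm_X (U := fun i => cs A (Rr i) r) (fun i => cLV l i r) j
  have cLD := fun l => low_comm_D (T := fun i => cs A (Rr i) T) (V := fun i => cs A (Rr i) r)
    (fun i => cLV l i T) (fun i => cLV l i r) j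
  have crX := fun l => low_comm_X (U := fun i => cs A (L i) a) (y := A.amp (r l))
    (fun i => low_comm_cs (fun l' => by rw [← A.amp_mul, ← A.amp_mul, har])
      fun l' => (h.lamp i l' _).symm) j
  have caY := fun l => low_comm_X (U := fun i => cs A (Rr i) r) (y := A.amp (a l))
    (fun i => low_comm_cs (fun l' => by rw [← A.amp_mul, ← A.amp_mul, har])
      fun l' => (h.ramp i l' _).symm) j
  have cXY := low_comm_X (U := fun i => cs A (Rr i) r) (y := twX (fun j => cs A (L j) a) j)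
    (fun i => (low_comm_X (fun k => low_UV h har k i) j).symm) j
  simp only [twX, twD]
  set X := twX (fun j => cs A (L j) a) j
  set Y := twX (fun j => cs A (Rr j) r) j
  set E := twD (fun j => cs A (Rr j) T) (fun j => cs A (Rr j) r) j
  set Z := cm X E (emb A ξ) with hZ
  let α : Λ → K := fun l => X (A.amp (star (r l) * T l) (Y (emb A ξ))) -
    emb A ((star (r l) * T l) ξ)
  let β : Λ → K := fun l => ((E - star (A.amp (a l)) * E * A.amp (a l)) * X) (emb A ξ)
  let z : Λ → Λ → K := fun l l' => A.amp (a l * r l') (Z + α l' + β l) + emb A (cm (a l) (T l') ξ)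
  have hz : ∀ l l', z l l' ∈ D j := fun l l' => by
    refine Submodule.add_mem _ (h.damp _ _ _ (Submodule.add_mem _ (Submodule.add_mem _ ?_
      (Submodule.sub_mem _ (pM _) (h.demb _ _))) ?_)) (h.demb _ _)
    · exact Submodule.sub_mem _ (pX _ (pD _ (h.demb _ _))) (pD _ (pX _ (h.demb _ _)))
    · simp only [β]
      rw [← A.amp_star]
      exact Submodule.sub_mem _ (pD _ (pX _ (h.demb _ _)))
        (h.damp _ _ _ (pD _ (h.damp _ _ _ (pX _ (h.demb _ _)))))
  have hexp : cm (cs A (L j) a * X) (cs A (Rr j) T * Y + cs A (Rr j) r * E) (emb A ξ) =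
      ∑ l, ∑ l', L j l (Rr j l' (z l l')) := by
    refine (low_split h j _).trans
      (Finset.sum_congr rfl fun l _ => Finset.sum_congr rfl fun l' _ => ?_)
    have g1 : Rr j l' * (cs A (Rr j) T * Y + cs A (Rr j) r * E) =
        Rr j l' * (A.amp (T l') * Y + A.amp (r l') * E) := by
      rw [mul_add, mul_add, ← mul_assoc, ← mul_assoc, cell_mul_cs A (h.cr j) (h.ramp j),
        cell_mul_cs A (h.cr j) (h.ramp j), mul_assoc, mul_assoc]
    have g2 : L j l * (cs A (L j) a * X) = L j l * (A.amp (a l) * X) := by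
      rw [← mul_assoc, cell_mul_cs A (h.cl j) (h.lamp j), mul_assoc]
    have g3 : Rr j l' * (cs A (L j) a * X) = cs A (L j) a * X * Rr j l' := by
      rw [← mul_assoc, low_comm_cs (fun _ => h.ramp j l' _) fun b => (h.lr j j b l').symm,
        mul_assoc, cRX, mul_assoc]
    have g4 : Rr j l' * (A.amp (a l) * X) = A.amp (a l) * X * Rr j l' := by
      rw [← mul_assoc, h.ramp, mul_assoc, cRX, mul_assoc]
    have g5 : L j l * (A.amp (T l') * Y + A.amp (r l') * E) =
        (A.amp (T l') * Y + A.amp (r l') * E) * L j l := by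
      rw [mul_add, add_mul, ← mul_assoc, h.lamp, mul_assoc, cLY, ← mul_assoc (L j l), h.lamp,
        mul_assoc (A.amp (r l')), cLD, mul_assoc, mul_assoc]
    set W := cs A (Rr j) T * Y + cs A (Rr j) r * E
    set W' := A.amp (T l') * Y + A.amp (r l') * E
    have e1 : L j l * Rr j l' * (cs A (L j) a * X * W) =
        L j l * Rr j l' * (A.amp (a l) * X * W') := by
      calc _ = L j l * (Rr j l' * (cs A (L j) a * X)) * W := by noncomm_ring
        _ = L j l * (cs A (L j) a * X) * (Rr j l' * W) := by rw [g3]; noncomm_ring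
        _ = L j l * (A.amp (a l) * X * Rr j l') * W' := by rw [g1, g2]; noncomm_ring
        _ = _ := by rw [← g4]; noncomm_ring
    have e2 : L j l * Rr j l' * (W * (cs A (L j) a * X)) =
        L j l * Rr j l' * (W' * (A.amp (a l) * X)) := by
      calc _ = L j l * (Rr j l' * W) * (cs A (L j) a * X) := by noncomm_ring
        _ = (L j l * Rr j l') * W' * (cs A (L j) a * X) := by rw [g1]; noncomm_ring
        _ = Rr j l' * (L j l * W') * (cs A (L j) a * X) := by rw [h.lr]; noncomm_ring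
        _ = Rr j l' * W' * (L j l * (cs A (L j) a * X)) := by rw [g5]; noncomm_ring
        _ = Rr j l' * (W' * L j l) * (A.amp (a l) * X) := by rw [g2]; noncomm_ring
        _ = _ := by rw [← g5, h.lr]; noncomm_ring
    have e3 := low_alg (a := A.amp (a l)) (as := star (A.amp (a l))) (r := A.amp (r l'))
      (t := A.amp (T l')) (c := A.amp (star (r l') * T l')) (X := X) (Y := Y) (D := E)
      (by rw [← A.amp_mul, ← mul_assoc, (hr l').2, one_mul]) (low_amp_uni (ha l)).2
      (by rw [← A.amp_mul, ← A.amp_mul, har]) (crX l').symm (caY l).symm cXY.symm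
    have e4 : L j l * Rr j l' * cm (cs A (L j) a * X) W = L j l * Rr j l' *
        (A.amp (a l) * X * W' - W' * (A.amp (a l) * X)) := by
      rw [mul_sub, mul_sub, e1, e2]
    rw [e3] at e4
    refine (congrArg (fun W : K →L[ℂ] K => W (emb A ξ)) e4).trans ?_
    simp only [z, α, β, hZ, mul_apply_eq_comp, _root_.add_apply, _root_.sub_apply, hxy, amp_emb,
      A.amp_mul, map_sub (emb A)]
  have hα : ∑ l, lowQ A (α l) = 0 := by
    rw [← map_sum]
    simp only [α, Finset.sum_sub_distrib, ← map_sum, ← _root_.sum_apply, ← A.amp_sum, hT0,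
      A.amp_zero, _root_.zero_apply, map_zero, sub_zero]
  have hβ : ∑ l, lowQ A (β l) = 0 := by
    rw [← map_sum]
    simp only [β]
    rw [← _root_.sum_apply, ← Finset.sum_mul, Finset.sum_sub_distrib, hD, Finset.sum_const,
      Finset.card_univ, Nat.cast_smul_eq_nsmul, sub_self, zero_mul, _root_.zero_apply, map_zero]
  have hq : ∀ l l', ‖lowQ A (z l l')‖ = ‖lowQ A Z + lowQ A (α l') + lowQ A (β l)‖ := fun l l' => by
    simp only [z]
    rw [map_add, lowQ_emb, add_zero, lowQ_amp, uni_apply (low_amp_uni (mul_mem (ha l) (hr l'))),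
      map_add, map_add]
  have hα' : ∀ l, lowQ A (α l) = lowQ A (X (A.amp (star (r l) * T l) (Y (emb A ξ)))) := fun l => by
    simp only [α]
    rw [map_sub, lowQ_emb, sub_zero]
  obtain ⟨k1, k2⟩ := low_key h hj z hz
  have e4 : (0 : ℝ) < Fintype.card Λ := by exact_mod_cast Fintype.card_pos
  rw [hexp, lowQ_norm (∑ l, _), k1, k2]
  simp only [← lowQ_norm, hq, ← hα']
  have j1 : ‖(Fintype.card Λ : ℂ)⁻¹ • ∑ l, (emb A).adjoint (z l l)‖ ^ 2 ≤
      (Fintype.card Λ : ℝ)⁻¹ * ∑ l, ‖(emb A).adjoint (z l l)‖ ^ 2 := by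
    have := low_orth ((Fintype.card Λ : ℂ)⁻¹ • ∑ l, (emb A).adjoint (z l l))
      (fun l => (emb A).adjoint (z l l) - (Fintype.card Λ : ℂ)⁻¹ • ∑ l, (emb A).adjoint (z l l))
      (by rw [Finset.sum_sub_distrib, Finset.sum_const, Finset.card_univ, ← Nat.cast_smul_eq_nsmul ℂ,
        smul_smul, mul_inv_cancel₀ (by simp), one_smul, sub_self])
    simp only [add_sub_cancel] at this
    rw [this, mul_add, ← mul_assoc, inv_mul_cancel₀ e4.ne', one_mul]
    exact le_add_of_nonneg_right (by positivity)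
  have j2 : (Fintype.card Λ : ℝ) * (Fintype.card Λ * ‖lowQ A Z‖ ^ 2 + ∑ l, ‖lowQ A (α l)‖ ^ 2) ≤
      ∑ l, ∑ l', ‖lowQ A Z + lowQ A (α l') + lowQ A (β l)‖ ^ 2 := by
    rw [Finset.sum_comm, ← low_orth _ _ hα, Finset.mul_sum]
    refine Finset.sum_le_sum fun l' _ => ?_
    rw [low_orth _ _ hβ]
    exact le_add_of_nonneg_right (by positivity)
  have j3 := mul_le_mul_of_nonneg_left j2 (sq_nonneg (Fintype.card Λ : ℝ)⁻¹)
  have j4 : ((Fintype.card Λ : ℝ)⁻¹) ^ 2 * ((Fintype.card Λ : ℝ) *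
      (Fintype.card Λ * ‖lowQ A Z‖ ^ 2 + ∑ l, ‖lowQ A (α l)‖ ^ 2)) =
      ‖lowQ A Z‖ ^ 2 + (Fintype.card Λ : ℝ)⁻¹ * ∑ l, ‖lowQ A (α l)‖ ^ 2 := by
    field_simp
  linarith

end Main

theorem lower (h : TW A n L Rr D) {a r T : Λ → H →L[ℂ] H} {ξ : H}
    (ha : ∀ l, a l ∈ unitary (H →L[ℂ] H)) (hr : ∀ l, r l ∈ unitary (H →L[ℂ] H))
    (har : ∀ l l', a l * r l' = r l' * a l) (hξ : ∀ l, a l (r l ξ) = ξ)
    (hs : ∃ σ : Λ ≃ Λ, ∀ l, a (σ l) = star (a l)) (hT : ∀ l, Harm a (T l))
    (hT0 : ∑ l, star (r l) * T l = 0) :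
    ((n : ℝ) - 1) * av (fun p : Λ × Λ => ‖cm (a p.1) (T p.2) ξ‖ ^ 2) ≤
      ‖cm (twX (fun j => cs A (L j) a) n)
        (twD (fun j => cs A (Rr j) T) (fun j => cs A (Rr j) r) n) (emb A ξ)‖ ^ 2 := by
  set s := av (fun p : Λ × Λ => ‖cm (a p.1) (T p.2) ξ‖ ^ 2) with hs'
  have s0 : 0 ≤ s := av_nonneg fun _ => by positivity
  have hc : ∀ l, Harm a (star (r l) * T l) := fun l =>
    (low_harm_mul (hT l) fun l' => (low_star_comm (hr l) (har l' l).symm).symm).2 fun l' => by
      rw [← star_mul, ← star_mul, har]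
  have es : s = (Fintype.card Λ : ℝ)⁻¹ * ∑ l, ((Fintype.card Λ : ℝ)⁻¹ *
      ∑ l', ‖cm (a l') (star (r l) * T l) ξ‖ ^ 2) := by
    rw [hs', av_prod']
    simp only [av, smul_eq_mul]
    refine congrArg _ (Finset.sum_congr rfl fun l _ => congrArg _
      (Finset.sum_congr rfl fun l' _ => ?_))
    have : cm (a l') (star (r l) * T l) = star (r l) * cm (a l') (T l) := by
      simp only [cm]
      rw [← mul_assoc, ← low_star_comm (hr l) (har l' l).symm]; noncomm_ring
    rw [this, mul_apply_eq_comp, uni_apply (Unitary.star_mem (hr l))]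
  have key : ∀ j ≤ n, ((j : ℝ) - 1) * s ≤ ‖lowQ A (cm (twX (fun j => cs A (L j) a) j)
      (twD (fun j => cs A (Rr j) T) (fun j => cs A (Rr j) r) j) (emb A ξ))‖ ^ 2 := by
    intro j
    induction j with
    | zero => exact fun _ => le_trans (by simpa using s0) (sq_nonneg _)
    | succ j ih =>
      intro hj
      rcases j with _ | i
      · simp
      · refine le_trans ?_ (low_step h ha hr har hξ hT hT0 hj)
        have := ih (Nat.le_of_succ_le hj)
        have e2 : s ≤ (Fintype.card Λ : ℝ)⁻¹ * ∑ l, ‖lowQ A (twX (fun j => cs A (L j) a) (i + 1)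
            (A.amp (star (r l) * T l) (twX (fun j => cs A (Rr j) r) (i + 1) (emb A ξ))))‖ ^ 2 := by
          rw [es]
          exact mul_le_mul_of_nonneg_left (Finset.sum_le_sum fun l _ =>
            low_I3 h ha har hξ hs (by omega) (hc l)) (by positivity)
        push_cast at this ⊢
        linarith
  refine (key n le_rfl).trans ?_
  rw [lowQ_norm]
  exact sub_le_self _ (sq_nonneg _)

end Vale.Agent.KK
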