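import Vale.Agent.KK.Mirror

/-!
A biharmonic operator commutes with the letters on the vectors w xi.
For a harmonic T and a vector z: sum_l |T a_l z|^2 = sum_l |a_l* T a_l z|^2 = card |T z|^2 + sum_l |(a_l* T a_l - T) z|^2.
On W = closure (range a): f w = |k w xi|^2, phi w = sum_l |[k, a_l] w xi|^2, P f w = sum_l f (w a_l), P' f w = sum_l f (a_l w).
P' f = card f + phi. [k, a_l] is harmonic for r = mir a and r_l w xi = w a_l* xi, so (symmetry of the letters) P phi >= card phi.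
P and P' commute and P f 1 = P' f 1. With n = card, a_j = n^-j (P^j f) 1 <= |k|^2 and d_j = n^-j (P^j phi) 1: a_{j+1} = a_j + d_j / n,
d_j is nondecreasing and nonnegative, so d_j = 0. (P^j phi) w = 0 gives (P^(j-1) phi)(w a_l) = 0; a word is a product of a list of letters
(Submonoid.exists_list_of_mem_closure).
-/

namespace Vale.Agent.KK

open Vale.Agent.P104
open scoped InnerProductSpace

universe u

variable {H : Type*} [NormedAddCommGroup H] [InnerProductSpace ℂ H] [CompleteSpace H]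

/-- Sums over words. -/
noncomputable def mvP {R Λ : Type*} [Mul R] [Fintype Λ] (a : Λ → R) : ℕ → (R → ℝ) → R → ℝ
  | 0, g, w => g w
  | j + 1, g, w => ∑ l, mvP a j g (w * a l)

section Words

variable {R Λ : Type*} [Monoid R] [Fintype Λ] (a : Λ → R)

theorem mvP_right (g : R → ℝ) (j : ℕ) (w : R) :
    mvP a j (fun w => ∑ l, g (w * a l)) w = mvP a (j + 1) g w := by
  induction j generalizing w with
  | zero => rfl
  | succ j ih =>
    rw [mvP, mvP]
    simp only [ih]

theorem mvP_left (g : R → ℝ) (j : ℕ) (w : R) :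
    mvP a j (fun w => ∑ l, g (a l * w)) w = ∑ l, mvP a j g (a l * w) := by
  induction j generalizing w with
  | zero => rfl
  | succ j ih =>
    simp only [mvP, ih, mul_assoc]
    exact Finset.sum_comm

theorem mvP_lin (c : ℝ) (g g' : R → ℝ) (j : ℕ) (w : R) :
    mvP a j (fun w => c * g w + g' w) w = c * mvP a j g w + mvP a j g' w := by
  induction j generalizing w with
  | zero => rfl
  | succ j ih => simp only [mvP, ih, Finset.sum_add_distrib, Finset.mul_sum]

theorem mvP_const (c : ℝ) (j : ℕ) (w : R) :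
    mvP a j (fun _ => c) w = (Fintype.card Λ : ℝ) ^ j * c := by
  induction j generalizing w with
  | zero => simp [mvP]
  | succ j ih =>
    simp only [mvP, ih, Finset.sum_const, Finset.card_univ, nsmul_eq_mul]
    ring

theorem mvP_mono {W : Set R} (hW : ∀ w ∈ W, ∀ l, w * a l ∈ W) {g g' : R → ℝ}
    (h : ∀ w ∈ W, g w ≤ g' w) (j : ℕ) {w : R} (hw : w ∈ W) : mvP a j g w ≤ mvP a j g' w := by
  induction j generalizing w with
  | zero => exact h w hw
  | succ j ih => exact Finset.sum_le_sum fun l _ => ih (hW w hw l)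

theorem mvP_nonneg {g : R → ℝ} (h : ∀ w, 0 ≤ g w) (j : ℕ) (w : R) : 0 ≤ mvP a j g w := by
  induction j generalizing w with
  | zero => exact h w
  | succ j ih => exact Finset.sum_nonneg fun l _ => ih _

theorem mvP_zero {g : R → ℝ} (h : ∀ w, 0 ≤ g w) (L : List R) (hL : ∀ y ∈ L, y ∈ Set.range a)
    (w : R) (h0 : mvP a L.length g w = 0) : g (w * L.prod) = 0 := by
  induction L generalizing w with
  | nil => simpa [mvP] using h0
  | cons y L ih =>
    obtain ⟨l, rfl⟩ := hL y (by simp)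
    rw [List.prod_cons, ← mul_assoc]
    refine ih (fun y hy => hL y (by simp [hy])) _ ?_
    exact (Finset.sum_eq_zero_iff_of_nonneg fun l _ => mvP_nonneg a h _ _).1 h0 l
      (Finset.mem_univ l)

end Words

theorem mv_seq {n C : ℝ} (hn : 0 < n) {F D : ℕ → ℝ} (hF0 : ∀ j, 0 ≤ F j)
    (hF : ∀ j, F j ≤ n ^ j * C) (hD0 : ∀ j, 0 ≤ D j) (h1 : ∀ j, F (j + 1) = n * F j + D j)
    (h2 : ∀ j, n * D j ≤ D (j + 1)) (j : ℕ) : D j = 0 := by
  by_contra hne
  have hpos : 0 < D j := lt_of_le_of_ne (hD0 j) (Ne.symm hne)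
  have h3 : ∀ m : ℕ, n ^ m * D j ≤ D (j + m) := fun m => by
    induction m with
    | zero => simp
    | succ m ih =>
      have := mul_le_mul_of_nonneg_left ih hn.le
      have h4 := h2 (j + m)
      rw [pow_succ, ← add_assoc]
      linarith
  have h5 : ∀ m : ℕ, m * n ^ m * D j ≤ n * F (j + m) := fun m => by
    induction m with
    | zero => simpa using mul_nonneg hn.le (hF0 j)
    | succ m ih =>
      have a1 := mul_le_mul_of_nonneg_left ih hn.le
      have a2 := mul_le_mul_of_nonneg_left (h3 m) hn.le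
      rw [← add_assoc, h1, pow_succ]
      push_cast
      nlinarith
  obtain ⟨m, hm⟩ := exists_nat_gt (n * n ^ j * C / D j)
  rw [div_lt_iff₀ hpos] at hm
  have a1 := (h5 m).trans (mul_le_mul_of_nonneg_left (hF (j + m)) hn.le)
  have a2 : (0 : ℝ) < n ^ m := by positivity
  have a3 := mul_lt_mul_of_pos_left hm a2
  rw [pow_add] at a1
  nlinarith

theorem mv_harm_id {Λ : Type} [Fintype Λ] {b : Λ → H →L[ℂ] H}
    (hb : ∀ l, b l ∈ unitary (H →L[ℂ] H)) {T : H →L[ℂ] H} (hT : Harm b T) (z : H) :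
    ∑ l, ‖T (b l z)‖ ^ 2 =
      Fintype.card Λ * ‖T z‖ ^ 2 + ∑ l, ‖T (b l z) - b l (T z)‖ ^ 2 := by
  have h1 : ∑ l, (⟪T (b l z), b l (T z)⟫_ℂ).re = Fintype.card Λ * ‖T z‖ ^ 2 := by
    have h2 := congrArg (fun S : H →L[ℂ] H => (⟪S z, T z⟫_ℂ).re) hT
    simp only [sum_apply, mul_apply_eq_comp, sum_inner, inner_star_left, Complex.re_sum,
      smul_apply, inner_smul_left, inner_self_eq_norm_sq_to_K] at h2
    rw [h2]
    simp [← Complex.ofReal_pow]
  have h3 : ∀ l, ‖T (b l z) - b l (T z)‖ ^ 2 =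
      ‖T (b l z)‖ ^ 2 - 2 * (⟪T (b l z), b l (T z)⟫_ℂ).re + ‖T z‖ ^ 2 := fun l => by
    rw [@norm_sub_sq ℂ, uni_apply (hb l)]
    rfl
  simp only [h3, Finset.sum_add_distrib, Finset.sum_sub_distrib, ← Finset.mul_sum, h1,
    Finset.sum_const, Finset.card_univ, nsmul_eq_mul]
  ring

theorem mv {M : VonNeumannAlgebra H} {ξ : H} (h : Std M ξ) {Λ : Type} [Fintype Λ] [Nonempty Λ]
    {a : Λ → H →L[ℂ] H} (ha : Lett M a) {k : H →L[ℂ] H} (h1 : Harm a k)
    (h2 : Harm (fun l => mir M ξ (a l)) k) :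
    ∀ l, ∀ w ∈ Submonoid.closure (Set.range a), k (a l (w ξ)) = a l (k (w ξ)) := by
  set f : (H →L[ℂ] H) → ℝ := fun w => ‖k (w ξ)‖ ^ 2 with hf
  set φ : (H →L[ℂ] H) → ℝ := fun w => ∑ l, ‖k (a l (w ξ)) - a l (k (w ξ))‖ ^ 2 with hφ
  have hφ0 : ∀ w, 0 ≤ φ w := fun w => Finset.sum_nonneg fun _ _ => sq_nonneg _
  have hf0 : ∀ w, 0 ≤ f w := fun w => sq_nonneg _
  have hn : (0 : ℝ) < Fintype.card Λ := by exact_mod_cast Fintype.card_pos
  have e1 : (fun w => ∑ l, f (a l * w)) = fun w => Fintype.card Λ * f w + φ w := by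
    funext w
    exact mv_harm_id ha.uni h1 (w ξ)
  set W : Set (H →L[ℂ] H) := {w | w ∈ M ∧ ‖w‖ ≤ 1} with hW
  have hW1 : (1 : H →L[ℂ] H) ∈ W := ⟨one_mem _, ContinuousLinearMap.norm_id_le⟩
  have hWa : ∀ w ∈ W, ∀ l, w * a l ∈ W := fun w hw l =>
    ⟨mul_mem hw.1 (ha.mem l), (norm_mul_le _ _).trans
      (mul_le_one₀ hw.2 (norm_nonneg _) (uni_norm_le (ha.uni l)))⟩
  have e2 : ∀ w ∈ W, Fintype.card Λ * φ w + 0 ≤ ∑ m, φ (w * a m) := fun w hw => by
    obtain ⟨σ, hσ⟩ := ha.sym
    rw [add_zero, ← Equiv.sum_comp σ]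
    simp only [hφ, hσ]
    rw [Finset.mul_sum, Finset.sum_comm]
    refine Finset.sum_le_sum fun l _ => ?_
    have hc : ∀ m, mir M ξ (a m) * a l = a l * mir M ξ (a m) := fun m =>
      comm_of_mem (mir_mem h (ha.mem m)) (ha.mem l)
    have hc' : ∀ m, star (mir M ξ (a m)) * a l = a l * star (mir M ξ (a m)) := fun m =>
      comm_of_mem (star_mem (mir_mem h (ha.mem m))) (ha.mem l)
    have hT : Harm (fun m => mir M ξ (a m)) (k * a l - a l * k) := by
      unfold Harm at h2 ⊢
      have : ∀ m, star (mir M ξ (a m)) * (k * a l - a l * k) * mir M ξ (a m) =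
          star (mir M ξ (a m)) * k * mir M ξ (a m) * a l -
            a l * (star (mir M ξ (a m)) * k * mir M ξ (a m)) := fun m => by
        rw [mul_assoc _ (mir M ξ (a m)), hc, ← mul_assoc (a l), ← mul_assoc (a l), ← hc']
        noncomm_ring
      simp only [this]
      rw [Finset.sum_sub_distrib, ← Finset.sum_mul, ← Finset.mul_sum, h2, smul_sub,
        smul_mul_assoc, mul_smul_comm]
    have h3 := mv_harm_id (fun m => mir_unitary h (ha.mem m) (ha.uni m)) hT (w ξ)
    simp only [mir_apply h (ha.mem _) hw.1, sub_apply, mul_apply_eq_comp] at h3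
    simp only [mul_apply_eq_comp]
    rw [h3]
    exact le_add_of_nonneg_right (Finset.sum_nonneg fun _ _ => sq_nonneg _)
  have hD : ∀ j, mvP a j φ 1 = 0 := mv_seq (C := (‖k‖ * ‖ξ‖) ^ 2) hn
    (F := fun j => mvP a j f 1) (fun j => mvP_nonneg a hf0 j 1)
    (fun j => by
      rw [← mvP_const a _ j 1]
      refine mvP_mono a hWa (fun w hw => ?_) j hW1
      refine pow_le_pow_left₀ (norm_nonneg _) ((k.le_opNorm _).trans
        (mul_le_mul_of_nonneg_left ((w.le_opNorm ξ).trans ?_) (norm_nonneg _))) 2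
      exact mul_le_of_le_one_left (norm_nonneg _) hw.2)
    (fun j => mvP_nonneg a hφ0 j 1)
    (fun j => by
      rw [← mvP_lin, ← e1, mvP_left]
      simp only [mvP, mul_one, one_mul])
    (fun j => by
      have := mvP_mono a hWa e2 j hW1
      rw [mvP_lin, mvP_const, mvP_right] at this
      simpa using this)
  intro l w hw
  obtain ⟨L, hL, rfl⟩ := Submonoid.exists_list_of_mem_closure hw
  have h3 := mvP_zero a hφ0 L hL 1 (hD _)
  rw [one_mul] at h3
  have h4 := (Finset.sum_eq_zero_iff_of_nonneg fun _ _ => sq_nonneg _).1 h3 l (Finset.mem_univ l)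
  exact sub_eq_zero.1 (norm_eq_zero.1 (pow_eq_zero_iff two_ne_zero |>.1 h4))

end Vale.Agent.KK
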