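import Vale.Agent.KK.Basic

/-!
Stationary means. P c g = card^-1 sum_l c (g a l); A n c = (n+1)^-1 sum_{j <= n} (P^j c) 1; m c = weak limit of A n c along hyperfilter Nat
(exists_wot_lim, choose; 0 if c is not bounded). It is convenient to show by induction that A n c = sum_{i in s} w_i c (g_i) is a convex combination which does not
depend on c, or to prove each property for P, P^j and A n. bound: convexity of the square of the norm, then weak_le in
PiLp 2 (fun _ : I => H), or test against the limit vectors: sum |m_i|^2 = lim sum <m_i, A_i> <= sqrt (sum |m_i|^2) sqrt beta.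
stat: A n (P c) - A n c = (n+1)^-1 ((P^(n+1) c) 1 - c 1) tends to 0.
-/

namespace Vale.Agent.KK

open Vale.Agent.P104
open scoped InnerProductSpace

universe u

variable {H : Type*} [NormedAddCommGroup H] [InnerProductSpace ℂ H] [CompleteSpace H]

section Bdd

variable {G : Type*} {c c' : G → H →L[ℂ] H}

omit [CompleteSpace H] in
theorem mean_bdd_add (hc : Bdd c) (hc' : Bdd c') : Bdd fun g => c g + c' g := by
  obtain ⟨C, hC⟩ := hc
  obtain ⟨C', hC'⟩ := hc'
  exact ⟨C + C', fun g => (norm_add_le _ _).trans (add_le_add (hC g) (hC' g))⟩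

omit [CompleteSpace H] in
theorem mean_bdd_smul (hc : Bdd c) (z : ℂ) : Bdd fun g => z • c g := by
  obtain ⟨C, hC⟩ := hc
  exact ⟨‖z‖ * C, fun g => by
    rw [norm_smul]
    exact mul_le_mul_of_nonneg_left (hC g) (norm_nonneg z)⟩

omit [CompleteSpace H] in
theorem mean_bdd_mul (hc : Bdd c) (s t : H →L[ℂ] H) : Bdd fun g => s * c g * t := by
  obtain ⟨C, hC⟩ := hc
  exact ⟨‖s‖ * C * ‖t‖, fun g => (norm_mul_le _ _).trans (mul_le_mul_of_nonneg_right
    ((norm_mul_le _ _).trans (mul_le_mul_of_nonneg_left (hC g) (norm_nonneg s))) (norm_nonneg t))⟩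

omit [CompleteSpace H] in
theorem mean_bdd_sum {I : Type*} (s : Finset I) {F : I → G → H →L[ℂ] H}
    (hF : ∀ i ∈ s, Bdd (F i)) : Bdd fun g => ∑ i ∈ s, F i g := by
  classical
  induction s using Finset.induction_on with
  | empty => exact ⟨0, fun g => by simp⟩
  | insert i s hi ih =>
    simp only [Finset.sum_insert hi]
    exact mean_bdd_add (hF i (by simp)) (ih fun j hj => hF j (by simp [hj]))

end Bdd

variable {G : Type*} [Monoid G] {Λ : Type} [Fintype Λ] {a : Λ → G}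
  {m : (G → H →L[ℂ] H) → H →L[ℂ] H} {c c' : G → H →L[ℂ] H}

theorem IsMean.apply_le (h : IsMean a m) (hc : Bdd c) {ζ : H} {β : ℝ} (hb : ∀ g, ‖c g ζ‖ ≤ β) :
    ‖m c ζ‖ ≤ β := by
  have hβ : 0 ≤ β := (norm_nonneg _).trans (hb 1)
  have := h.bound Unit (fun _ => c) (fun _ => ζ) (β ^ 2) (fun _ => hc) fun g => by
    simpa using pow_le_pow_left₀ (norm_nonneg _) (hb g) 2
  simp only [Finset.univ_unique, Finset.sum_singleton] at this
  exact (abs_le_of_sq_le_sq' this hβ).2

theorem IsMean.norm_le (h : IsMean a m) {β : ℝ} (hb : ∀ g, ‖c g‖ ≤ β) : ‖m c‖ ≤ β :=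
  ContinuousLinearMap.opNorm_le_bound _ ((norm_nonneg _).trans (hb 1)) fun ζ =>
    h.apply_le ⟨β, hb⟩ fun g => ((c g).le_opNorm ζ).trans
      (mul_le_mul_of_nonneg_right (hb g) (norm_nonneg ζ))

theorem IsMean.smul (h : IsMean a m) (hc : Bdd c) (z : ℂ) : m (fun g => z • c g) = z • m c := by
  simpa using h.mul c (z • 1) 1 hc

theorem IsMean.sub (h : IsMean a m) (hc : Bdd c) (hc' : Bdd c') :
    m (fun g => c g - c' g) = m c - m c' := by
  have h1 := h.add c (fun g => (-1 : ℂ) • c' g) hc (mean_bdd_smul hc' _)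
  rw [h.smul hc'] at h1
  simpa [sub_eq_add_neg] using h1

theorem IsMean.mul_left (h : IsMean a m) (hc : Bdd c) (s : H →L[ℂ] H) :
    m (fun g => s * c g) = s * m c := by
  simpa using h.mul c s 1 hc

theorem IsMean.mul_right (h : IsMean a m) (hc : Bdd c) (s : H →L[ℂ] H) :
    m (fun g => c g * s) = m c * s := by
  simpa using h.mul c 1 s hc

theorem IsMean.sum (h : IsMean a m) {I : Type*} (s : Finset I) {F : I → G → H →L[ℂ] H}
    (hF : ∀ i ∈ s, Bdd (F i)) : m (fun g => ∑ i ∈ s, F i g) = ∑ i ∈ s, m (F i) := by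
  classical
  induction s using Finset.induction_on with
  | empty => simpa using h.const 0
  | insert i s hi ih =>
    simp only [Finset.sum_insert hi]
    have hs : ∀ j ∈ s, Bdd (F j) := fun j hj => hF j (by simp [hj])
    rw [h.add (F i) _ (hF i (by simp)) (mean_bdd_sum s hs), ih hs]

theorem IsMean.mem (h : IsMean a m) (hc : Bdd c) {M : VonNeumannAlgebra H} (hM : ∀ g, c g ∈ M) :
    m c ∈ M := by
  rw [mem_iff_comm]
  intro s hs
  rw [← h.mul_left hc, ← h.mul_right hc]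
  congr 1
  funext g
  exact comm_of_mem hs (hM g)

theorem IsMean.xi (h : IsMean a m) (hc : Bdd c) {M : VonNeumannAlgebra H} {ξ : H} {t : ℝ}
    (hM : ∀ g, Xi M ξ (c g) t) : Xi M ξ (m c) t :=
  fun x hx => h.apply_le hc fun g => hM g x hx

theorem IsMean.gn (h : IsMean a m) {M : VonNeumannAlgebra H} {ξ : H} {t : ℝ} {L : Type}
    {e : L → G → H →L[ℂ] H} (he : ∀ l, Bdd (e l)) (hM : ∀ g, GN M ξ (fun l => e l g) t) :
    GN M ξ (fun l => m (e l)) t :=
  fun I _ l x hx => h.bound I (fun i => e (l i)) (fun i => x i ξ) _ (fun i => he (l i))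
    fun g => hM g I l x hx

theorem IsMean.harm (h : IsMean a m) (hc : Bdd c) {L : Type} [Fintype L] {b : L → H →L[ℂ] H}
    (hb : ∀ g, Harm b (c g)) : Harm b (m c) := by
  unfold Harm
  rw [← h.smul hc]
  have h1 := h.sum Finset.univ (F := fun l g => star (b l) * c g * b l)
    fun l _ => mean_bdd_mul hc _ _
  simp only [h.mul c _ _ hc] at h1
  rw [← h1]
  congr 1
  funext g
  exact hb g

/-- A mean without the stationarity condition. -/
abbrev PreMean (m : (G → H →L[ℂ] H) → H →L[ℂ] H) : Prop :=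
  IsMean (Λ := Empty) (fun x => (x.elim : G)) m

theorem premean_eval (g : G) : PreMean fun c : G → H →L[ℂ] H => c g :=
  ⟨fun _ _ _ _ => rfl, fun _ _ _ _ => rfl, fun _ => rfl, fun _ _ _ _ _ _ hb => hb g,
    fun _ _ => by simp⟩

theorem premean_avg {L : Type*} (s : Finset L) (hs : s.Nonempty)
    {E : L → (G → H →L[ℂ] H) → H →L[ℂ] H} (hE : ∀ l, PreMean (E l)) :
    PreMean fun c => (s.card : ℂ)⁻¹ • ∑ l ∈ s, E l c := by
  have hc0 : (s.card : ℂ) ≠ 0 := by exact_mod_cast hs.card_pos.ne'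
  have hcR : (0 : ℝ) < s.card := by exact_mod_cast hs.card_pos
  refine ⟨fun c c' hc hc' => ?_, fun c x y hc => ?_, fun x => ?_, fun I _ c ζ β hc hb => ?_,
    fun c _ => ?_⟩
  · simp only [(hE _).add c c' hc hc', Finset.sum_add_distrib, smul_add]
  · simp only [(hE _).mul c x y hc, mul_smul_comm, smul_mul_assoc, Finset.mul_sum,
      Finset.sum_mul]
  · simp only [(hE _).const, Finset.sum_const]
    rw [← Nat.cast_smul_eq_nsmul ℂ, smul_smul, inv_mul_cancel₀ hc0, one_smul]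
  · have h1 : ∀ i, ‖((s.card : ℂ)⁻¹ • ∑ l ∈ s, E l (c i)) (ζ i)‖ ^ 2 ≤
        (s.card : ℝ)⁻¹ * ∑ l ∈ s, ‖E l (c i) (ζ i)‖ ^ 2 := fun i => by
      rw [smul_apply, norm_smul, norm_inv, Complex.norm_natCast, sum_apply, mul_pow]
      have h2 : ‖∑ l ∈ s, E l (c i) (ζ i)‖ ^ 2 ≤ s.card * ∑ l ∈ s, ‖E l (c i) (ζ i)‖ ^ 2 :=
        (pow_le_pow_left₀ (norm_nonneg _) (norm_sum_le _ _) 2).trans sq_sum_le_card_mul_sum_sq
      refine (mul_le_mul_of_nonneg_left h2 (by positivity)).trans (le_of_eq ?_)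
      field_simp
    refine (Finset.sum_le_sum fun i _ => h1 i).trans ?_
    rw [← Finset.mul_sum, Finset.sum_comm]
    have h3 : ∑ l ∈ s, ∑ i, ‖E l (c i) (ζ i)‖ ^ 2 ≤ ∑ _l ∈ s, β :=
      Finset.sum_le_sum fun l _ => (hE l).bound I c ζ β hc hb
    refine (mul_le_mul_of_nonneg_left h3 (by positivity)).trans (le_of_eq ?_)
    rw [Finset.sum_const, nsmul_eq_mul]
    field_simp
  · have : ∀ l, E l (fun _ => 0) = 0 := fun l => (hE l).const 0
    simp [this]

/-- The iterated averages. -/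
noncomputable def meanQ (a : Λ → G) : ℕ → G → (G → H →L[ℂ] H) → H →L[ℂ] H
  | 0, g, c => c g
  | j + 1, g, c => ((Finset.univ : Finset Λ).card : ℂ)⁻¹ • ∑ l, meanQ a j (g * a l) c

theorem premean_meanQ [Nonempty Λ] (a : Λ → G) (j : ℕ) (g : G) :
    PreMean (meanQ (H := H) a j g) := by
  induction j generalizing g with
  | zero => exact premean_eval g
  | succ j ih => exact premean_avg Finset.univ Finset.univ_nonempty fun l => ih (g * a l)

omit [CompleteSpace H] in
theorem meanQ_stat [Nonempty Λ] (a : Λ → G) (c : G → H →L[ℂ] H) (j : ℕ) (g : G) :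
    meanQ a j g (fun g => ∑ l, c (g * a l)) = (Fintype.card Λ : ℂ) • meanQ a (j + 1) g c := by
  have hc0 : (Fintype.card Λ : ℂ) ≠ 0 := by exact_mod_cast Fintype.card_ne_zero
  induction j generalizing g with
  | zero =>
    simp only [meanQ, Finset.card_univ]
    rw [smul_smul, mul_inv_cancel₀ hc0, one_smul]
  | succ j ih =>
    rw [meanQ, meanQ]
    simp only [ih]
    rw [← Finset.smul_sum, smul_comm]

omit [CompleteSpace H] in
theorem mean_wot_ext {I : Type*} {U : Ultrafilter I} {F : I → H →L[ℂ] H} {L L' : H →L[ℂ] H}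
    (hL : ∀ ξ η, Filter.Tendsto (fun i => ⟪η, F i ξ⟫_ℂ) U (nhds ⟪η, L ξ⟫_ℂ))
    (hL' : ∀ ξ η, Filter.Tendsto (fun i => ⟪η, F i ξ⟫_ℂ) U (nhds ⟪η, L' ξ⟫_ℂ)) : L = L' := by
  ext ξ
  exact ext_inner_left ℂ fun η => tendsto_nhds_unique (hL ξ η) (hL' ξ η)

theorem exists_mean {G : Type*} [Monoid G] {Λ : Type} [Fintype Λ] [Nonempty Λ] (a : Λ → G) :
    ∃ m : (G → H →L[ℂ] H) → H →L[ℂ] H, IsMean a m := by
  set A : ℕ → (G → H →L[ℂ] H) → H →L[ℂ] H := fun n c =>
    ((Finset.range (n + 1)).card : ℂ)⁻¹ • ∑ j ∈ Finset.range (n + 1), meanQ a j 1 c with hA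
  have hP : ∀ n, PreMean (A n) := fun n =>
    premean_avg _ Finset.nonempty_range_add_one fun j => premean_meanQ a j 1
  have hex : ∀ c : G → H →L[ℂ] H, Bdd c → ∃ L : H →L[ℂ] H, ∀ ξ η, Filter.Tendsto
      (fun n => ⟪η, A n c ξ⟫_ℂ) (Filter.hyperfilter ℕ) (nhds ⟪η, L ξ⟫_ℂ) := fun c hc => by
    obtain ⟨C, hC⟩ := hc
    obtain ⟨L, -, hL⟩ := exists_wot_lim (Filter.hyperfilter ℕ) (fun n => A n c) C
      fun n => (hP n).norm_le hC
    exact ⟨L, hL⟩
  choose! m hm using hex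
  refine ⟨m, fun c c' hc hc' => ?_, fun c s t hc => ?_, fun s => ?_,
    fun I _ c ζ β hc hb => ?_, fun c hc => ?_⟩
  · refine mean_wot_ext (hm _ (mean_bdd_add hc hc')) fun ξ η => ?_
    simp only [(hP _).add c c' hc hc', add_apply, inner_add_right]
    exact (hm c hc ξ η).add (hm c' hc' ξ η)
  · refine mean_wot_ext (hm _ (mean_bdd_mul hc s t)) fun ξ η => ?_
    simp only [(hP _).mul c s t hc]
    exact polar_wot (hm c hc) s t ξ η
  · refine mean_wot_ext (hm _ ⟨‖s‖, fun _ => le_rfl⟩) fun ξ η => ?_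
    simp only [(hP _).const s]
    exact tendsto_const_nhds
  · set S := ∑ i, ‖m (c i) (ζ i)‖ ^ 2 with hS
    have hlim : Filter.Tendsto (fun n => ∑ i, (⟪m (c i) (ζ i), A n (c i) (ζ i)⟫_ℂ).re)
        (Filter.hyperfilter ℕ) (nhds S) := by
      refine tendsto_finsetSum _ fun i _ => ?_
      have := (Complex.continuous_re.tendsto _).comp (hm _ (hc i) (ζ i) (m (c i) (ζ i)))
      rw [inner_self_eq_norm_sq_to_K] at this
      simpa [Function.comp_def, ← Complex.ofReal_pow] using this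
    have hle : ∀ n, ∑ i, (⟪m (c i) (ζ i), A n (c i) (ζ i)⟫_ℂ).re ≤ (S + β) / 2 := fun n => by
      have h1 := (hP n).bound I c ζ β hc hb
      have h2 : ∑ i, (⟪m (c i) (ζ i), A n (c i) (ζ i)⟫_ℂ).re ≤
          ∑ i, (‖m (c i) (ζ i)‖ ^ 2 + ‖A n (c i) (ζ i)‖ ^ 2) / 2 :=
        Finset.sum_le_sum fun i _ => by
          have h3 := (Complex.re_le_norm _).trans
            (norm_inner_le_norm (𝕜 := ℂ) (m (c i) (ζ i)) (A n (c i) (ζ i)))
          nlinarith [sq_nonneg (‖m (c i) (ζ i)‖ - ‖A n (c i) (ζ i)‖)]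
      rw [← Finset.sum_div, Finset.sum_add_distrib] at h2
      linarith
    have := le_of_tendsto' hlim hle
    linarith
  · obtain ⟨C, hC⟩ := id hc
    have hb : Bdd fun g => ∑ l, c (g * a l) :=
      mean_bdd_sum Finset.univ (F := fun l g => c (g * a l)) fun l _ => ⟨C, fun g => hC _⟩
    refine mean_wot_ext (hm _ hb) fun ξ η => ?_
    have e : ∀ n, A n (fun g => ∑ l, c (g * a l)) = (Fintype.card Λ : ℂ) • A n c +
        (((n + 1 : ℕ) : ℂ)⁻¹ * Fintype.card Λ) • (meanQ a (n + 1) 1 c - meanQ a 0 1 c) :=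
      fun n => by
        simp only [hA, meanQ_stat, Finset.card_range]
        rw [← Finset.smul_sum, ← Finset.sum_range_sub (fun j => meanQ a j 1 c),
          Finset.sum_sub_distrib]
        module
    have h0 : Filter.Tendsto (fun n : ℕ => ⟪η, ((((n + 1 : ℕ) : ℂ)⁻¹ * Fintype.card Λ) •
        (meanQ a (n + 1) 1 c - meanQ a 0 1 c)) ξ⟫_ℂ) (Filter.hyperfilter ℕ) (nhds 0) := by
      refine Filter.Tendsto.mono_left ?_ Nat.hyperfilter_le_atTop
      refine squeeze_zero_norm (a := fun n : ℕ => 1 / ((n : ℝ) + 1) *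
        (‖η‖ * (Fintype.card Λ * (C + C) * ‖ξ‖))) (fun n => ?_) ?_
      · refine (norm_inner_le_norm _ _).trans ?_
        have h1 : ‖meanQ a (n + 1) 1 c - meanQ a 0 1 c‖ ≤ C + C :=
          (norm_sub_le _ _).trans (add_le_add ((premean_meanQ a _ 1).norm_le hC)
            ((premean_meanQ a _ 1).norm_le hC))
        have h2 := ((meanQ a (n + 1) 1 c - meanQ a 0 1 c).le_opNorm ξ).trans
          (mul_le_mul_of_nonneg_right h1 (norm_nonneg ξ))
        rw [smul_apply, norm_smul, norm_mul, norm_inv, Complex.norm_natCast, Complex.norm_natCast]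
        have h3 := mul_le_mul_of_nonneg_left h2 (show (0 : ℝ) ≤ ‖η‖ * ((((n + 1 : ℕ) : ℝ))⁻¹ *
          Fintype.card Λ) by positivity)
        push_cast at h3 ⊢
        rw [one_div]
        linarith
      · simpa using tendsto_one_div_add_atTop_nhds_zero_nat.mul_const
          (‖η‖ * (Fintype.card Λ * (C + C) * ‖ξ‖))
    have h1 := ((hm c hc ξ η).const_mul (Fintype.card Λ : ℂ)).add h0
    have h2 : ∀ T : H →L[ℂ] H, ⟪η, ((Fintype.card Λ : ℂ) • T) ξ⟫_ℂ =
        (Fintype.card Λ : ℂ) * ⟪η, T ξ⟫_ℂ := fun T => by rw [smul_apply, inner_smul_right]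
    simp only [e, add_apply, inner_add_right, h2]
    rwa [add_zero] at h1

end Vale.Agent.KK
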