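import Mathlib

/-!
A minimax lemma. In Fin n -> R (enumerate S by S.equivFin, since I has to live in Type) let A = {t : exists x in C, val i x <= t i}, B = {t : t i < s + delta}: convex, B open. If they are disjoint,
geometric_hahn_banach_open gives c with c b < u <= c a; c >= 0 (A is stable under adding positive vectors), c is not zero, and sum c_i val_i x >= (s + delta) sum c_i on C.
k_i = ceil (L c_i / w_i) (Nat.ceil) with L large, I = Sigma i, Fin (k i): sum k_i w_i (val_i x - s) >= L delta sum c - s sum w > 0, a contradiction.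
-/

namespace Vale.Agent.KK

theorem minimax {X : Type*} [AddCommGroup X] [Module ℝ X] {C : Set X} (hC : Convex ℝ C)
    (hne : C.Nonempty) {T : Type*} (val : T → X → ℝ) (hv : ∀ t, ConvexOn ℝ C (val t))
    (h0 : ∀ t x, 0 ≤ val t x) (w : T → ℕ) (hw : ∀ t, 0 < w t) {s : ℝ} (hs : 0 ≤ s)
    (h : ∀ (I : Type) [Fintype I] [DecidableEq I] [Nonempty I] (τ : I → T), ∃ x ∈ C,
      ∑ i, (w (τ i) : ℝ) * val (τ i) x ≤ s * ∑ i, (w (τ i) : ℝ))
    (S : Finset T) {δ : ℝ} (hδ : 0 < δ) : ∃ x ∈ C, ∀ t ∈ S, val t x ≤ s + δ := by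
  classical
  by_contra hcon
  set n := S.card with hn
  let t : Fin n → T := fun i => (S.equivFin.symm i : T)
  let A : Set (Fin n → ℝ) := {u | ∃ x ∈ C, ∀ i, val (t i) x ≤ u i}
  let B : Set (Fin n → ℝ) := {u | ∀ i, u i < s + δ}
  have hA : Convex ℝ A := by
    rintro u ⟨x, hx, hxu⟩ v ⟨y, hy, hyv⟩ a b ha hb hab
    refine ⟨a • x + b • y, hC hx hy ha hb hab, fun i => ?_⟩
    refine ((hv (t i)).2 hx hy ha hb hab).trans ?_
    simp only [Pi.add_apply, Pi.smul_apply, smul_eq_mul]
    exact add_le_add (mul_le_mul_of_nonneg_left (hxu i) ha) (mul_le_mul_of_nonneg_left (hyv i) hb)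
  have hBe : B = Set.pi Set.univ fun _ => Set.Iio (s + δ) := by
    ext u
    simp [B]
  have hB : Convex ℝ B := by
    rw [hBe]
    exact convex_pi fun _ _ => convex_Iio _
  have hBo : IsOpen B := by
    rw [hBe]
    exact isOpen_set_pi Set.finite_univ fun _ _ => isOpen_Iio
  have hd : Disjoint B A := by
    rw [Set.disjoint_left]
    rintro u hu ⟨x, hx, hxu⟩
    refine hcon ⟨x, hx, fun r hr => ?_⟩
    have h1 := (hxu (S.equivFin ⟨r, hr⟩)).trans (hu _).le
    simpa [t] using h1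
  obtain ⟨f, u, hf1, hf2⟩ := geometric_hahn_banach_open hB hBo hA hd
  let c : Fin n → ℝ := fun i => f (Pi.single i 1)
  have hf : ∀ v : Fin n → ℝ, f v = ∑ i, v i * c i := by
    intro v
    conv_lhs => rw [pi_eq_sum_univ' v, map_sum]
    refine Finset.sum_congr rfl fun i _ => ?_
    rw [map_smul, smul_eq_mul]
  have hsB : (fun _ => s) ∈ B := fun _ => by linarith
  have hg : 0 < u - s * ∑ i, c i := by
    have h1 := hf1 _ hsB
    rw [hf, ← Finset.mul_sum] at h1
    linarith
  have hc : ∀ i, 0 ≤ c i := by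
    intro i
    by_contra hneg
    have hci : c i < 0 := not_le.mp hneg
    set r : ℝ := (u - s * ∑ i, c i) / (-c i) with hr
    have hr0 : 0 ≤ r := div_nonneg hg.le (by linarith)
    have hmem : (fun _ => s) - r • (Pi.single i 1 : Fin n → ℝ) ∈ B := by
      intro j
      have h1 : 0 ≤ (Pi.single i 1 : Fin n → ℝ) j := by
        by_cases hj : j = i
        · subst hj; simp
        · simp [Pi.single_eq_of_ne hj]
      have h2 := mul_nonneg hr0 h1
      simp only [Pi.sub_apply, Pi.smul_apply, smul_eq_mul]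
      linarith
    have h1 := hf1 _ hmem
    rw [map_sub, map_smul, hf, ← Finset.mul_sum, smul_eq_mul] at h1
    have h2 : r * (-c i) = u - s * ∑ i, c i := div_mul_cancel₀ _ (by linarith)
    have h3 : f (Pi.single i 1) = c i := rfl
    rw [h3] at h1
    linarith
  have hW : 0 ≤ s * ∑ i, (w (t i) : ℝ) :=
    mul_nonneg hs (Finset.sum_nonneg fun i _ => Nat.cast_nonneg _)
  set L : ℝ := (s * ∑ i, (w (t i) : ℝ) + 1) / (u - s * ∑ i, c i) with hL
  have hL0 : 0 ≤ L := div_nonneg (by linarith) hg.le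
  have hLg : L * (u - s * ∑ i, c i) = s * ∑ i, (w (t i) : ℝ) + 1 := div_mul_cancel₀ _ hg.ne'
  let k : Fin n → ℕ := fun i => ⌈L * c i / w (t i)⌉₊
  have hw' : ∀ i, (0 : ℝ) < w (t i) := fun i => by exact_mod_cast hw (t i)
  have hk1 : ∀ i, L * c i ≤ k i * w (t i) := fun i => by
    rw [← div_le_iff₀ (hw' i)]
    exact Nat.le_ceil _
  have hk2 : ∀ i, (k i : ℝ) * w (t i) ≤ L * c i + w (t i) := fun i => by
    have h1 : (k i : ℝ) ≤ L * c i / w (t i) + 1 :=
      (Nat.ceil_lt_add_one (div_nonneg (mul_nonneg hL0 (hc i)) (hw' i).le)).le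
    have h2 := mul_le_mul_of_nonneg_right h1 (hw' i).le
    rwa [add_mul, div_mul_cancel₀ _ (hw' i).ne', one_mul] at h2
  have key : ∀ x ∈ C, s * ∑ p : (Σ i : Fin n, Fin (k i)), (w (t p.1) : ℝ) <
      ∑ p : (Σ i : Fin n, Fin (k i)), (w (t p.1) : ℝ) * val (t p.1) x := by
    intro x hx
    have h1 := hf2 (fun i => val (t i) x) ⟨x, hx, fun _ => le_rfl⟩
    rw [hf] at h1
    simp only [Fintype.sum_sigma, Finset.sum_const, Finset.card_univ, Fintype.card_fin,
      nsmul_eq_mul]
    have h2 : ∑ i, (k i : ℝ) * w (t i) ≤ L * ∑ i, c i + ∑ i, (w (t i) : ℝ) := by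
      rw [Finset.mul_sum, ← Finset.sum_add_distrib]
      exact Finset.sum_le_sum fun i _ => hk2 i
    have h3 : L * ∑ i, val (t i) x * c i ≤ ∑ i, (k i : ℝ) * (w (t i) * val (t i) x) := by
      rw [Finset.mul_sum]
      refine Finset.sum_le_sum fun i _ => ?_
      have h4 := mul_le_mul_of_nonneg_right (hk1 i) (h0 (t i) x)
      linarith
    have h4 := mul_le_mul_of_nonneg_left h2 hs
    have h5 := mul_le_mul_of_nonneg_left h1 hL0
    linarith
  rcases isEmpty_or_nonempty (Σ i : Fin n, Fin (k i)) with hI | hI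
  · obtain ⟨x, hx⟩ := hne
    have h1 := key x hx
    simp at h1
  · obtain ⟨x, hx, h1⟩ := h (Σ i : Fin n, Fin (k i)) fun p => t p.1
    exact absurd (key x hx) (not_lt.mpr h1)

end Vale.Agent.KK
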