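import Vale.Agent.KK.Defs

/-!
Matrix models of freeness to second order.
model_basis: transport to ZMod d, d = card iota; G (k,l) (i,s) = d^-1/2 chi (k i) [s = i + l] (ZMod.stdAddChar, AddChar.sum_mulShift or
ZMod.isPrimitive_stdAddChar). The diagonal entry (k,l) of G (y x 1) G* is d^-1 sum_i y i i.
model_one: R = iota x (iota x iota -> Lambda); on the block of the colouring c, p a = G* diag [c x = a] G (index (i, (s, c)); use
Matrix.of with an if on the colourings, or reindex blockDiagonal). With Y = G (y x 1) G*: tr (Y* d_a Y' d_b) = sum_{x,x'} conj (Y x x') [c x = a] Y' x x' [c x' = b];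
the average over c of [c x = a][c x' = b] is mu^2 for x not x' and delta mu for x = x'.
model_tower: induction on n; R' = R x R1, old cells and subalgebras are lifted by y -> y x 1 (an AlgHom, kronecker, preserving ntr and star), p' n is new,
D' j = map lift (D j) for j <= n and top for j > n. For n = 0: R = Unit, p j a = if a = a0 then 1 else 0, D j = top.
-/

namespace Vale.Agent.KK

open Vale.Agent.P104 Matrix
open scoped Kronecker ComplexConjugate

/-- The normalized trace. -/
noncomputable def ntr {ι : Type*} [Fintype ι] (y : Matrix ι ι ℂ) : ℂ :=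
  (Fintype.card ι : ℂ)⁻¹ * y.trace

theorem model_had (ι : Type) [Fintype ι] [DecidableEq ι] [Nonempty ι] :
    ∃ (χ : ι → ι → ℂ) (f : ι → ι → ι),
      (∀ k k', ∑ i, χ k i * conj (χ k' i) = if k = k' then (Fintype.card ι : ℂ) else 0) ∧
      (∀ k i, χ k i * conj (χ k i) = 1) ∧ (∀ i l l', f i l = f i l' ↔ l = l') ∧
      ∀ i i' l, f i l = f i' l ↔ i = i' := by
  have : NeZero (Fintype.card ι) := ⟨Fintype.card_ne_zero⟩
  let e : ι ≃ ZMod (Fintype.card ι) := Fintype.equivOfCardEq (by rw [ZMod.card])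
  have hm : ∀ k k' i : ZMod (Fintype.card ι),
      ZMod.stdAddChar (k * i) * conj (ZMod.stdAddChar (k' * i)) =
        ZMod.stdAddChar (i * (k - k')) := by
    intro k k' i
    rw [← AddChar.map_neg_eq_conj, ← AddChar.map_add_eq_mul]
    exact congrArg _ (by ring)
  refine ⟨fun k i => ZMod.stdAddChar (e k * e i), fun i l => e.symm (e i + e l), ?_, ?_, ?_, ?_⟩
  · intro k k'
    simp only [hm]
    rw [e.sum_comp fun i => ZMod.stdAddChar (i * (e k - e k')),
      AddChar.sum_mulShift _ (ZMod.isPrimitive_stdAddChar _), ZMod.card]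
    simp only [sub_eq_zero, e.injective.eq_iff]
    split_ifs <;> simp
  · intro k i
    simp only [hm, sub_self, mul_zero, AddChar.map_zero_eq_one]
  · intro i l l'
    simp only [e.symm.injective.eq_iff, add_right_inj, e.injective.eq_iff]
  · intro i i' l
    simp only [e.symm.injective.eq_iff, add_left_inj, e.injective.eq_iff]

theorem model_basis (ι : Type) [Fintype ι] [DecidableEq ι] [Nonempty ι] :
    ∃ G ∈ unitary (Matrix (ι × ι) (ι × ι) ℂ), ∀ (y : Matrix ι ι ℂ) x,
      (G * (y ⊗ₖ (1 : Matrix ι ι ℂ)) * star G) x x = ntr y := by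
  obtain ⟨χ, f, h1, h2, h3, h4⟩ := model_had ι
  have hd : (0 : ℝ) < Fintype.card ι := by exact_mod_cast Fintype.card_pos
  obtain ⟨c, hc⟩ : ∃ c : ℂ, c * conj c = (Fintype.card ι : ℂ)⁻¹ := by
    refine ⟨((Real.sqrt (Fintype.card ι))⁻¹ : ℝ), ?_⟩
    rw [Complex.conj_ofReal, ← Complex.ofReal_mul, ← mul_inv, Real.mul_self_sqrt hd.le]
    simp
  have hd' : (Fintype.card ι : ℂ) ≠ 0 := by exact_mod_cast hd.ne'
  refine ⟨Matrix.of fun x u => if u.2 = f u.1 x.2 then c * χ x.1 u.1 else 0, ?_, ?_⟩
  · refine Matrix.mem_unitaryGroup_iff.2 ?_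
    ext ⟨k, l⟩ ⟨k', l'⟩
    simp only [Matrix.mul_apply, Matrix.star_apply, Matrix.of_apply, Fintype.sum_prod_type,
      ite_mul, zero_mul, Finset.sum_ite_eq', Finset.mem_univ, if_true, h3]
    by_cases hl : l = l'
    · subst hl
      have : ∀ i, c * χ k i * star (c * χ k' i) =
          (Fintype.card ι : ℂ)⁻¹ * (χ k i * conj (χ k' i)) := by
        intro i
        rw [← hc, star_mul']
        simp only [Complex.star_def]
        ring
      simp only [if_true, this, ← Finset.mul_sum, h1, Matrix.one_apply, Prod.mk.injEq, and_true]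
      split_ifs
      · exact inv_mul_cancel₀ hd'
      · exact mul_zero _
    · simp [hl]
  · rintro y ⟨k, l⟩
    have hA : ∀ i' s', ((Matrix.of fun (x u : ι × ι) =>
        if u.2 = f u.1 x.2 then c * χ x.1 u.1 else 0) * (y ⊗ₖ (1 : Matrix ι ι ℂ))) (k, l) (i', s') =
        ∑ i, if f i l = s' then c * χ k i * y i i' else 0 := by
      intro i' s'
      simp only [Matrix.mul_apply, Matrix.of_apply, Fintype.sum_prod_type, ite_mul, zero_mul,
        Finset.sum_ite_eq', Finset.mem_univ, if_true, Matrix.kroneckerMap_apply, Matrix.one_apply,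
        mul_ite, mul_one, mul_zero]
      exact Finset.sum_congr rfl fun i _ => if_congr eq_comm rfl rfl
    rw [Matrix.mul_apply, Fintype.sum_prod_type]
    simp only [hA, Matrix.star_apply, Matrix.of_apply, apply_ite star, star_zero, mul_ite, mul_zero,
      Finset.sum_ite_eq', Finset.mem_univ, if_true, h4]
    unfold ntr Matrix.trace
    rw [Finset.mul_sum]
    refine Finset.sum_congr rfl fun i _ => ?_
    have e1 : c * χ k i * y i i * star (c * χ k i) =
        (c * conj c) * (χ k i * conj (χ k i)) * y i i := by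
      rw [star_mul']
      simp only [Complex.star_def]
      ring
    rw [e1, hc, h2, mul_one]
    rfl

section Blk

variable {ι C : Type} [Fintype ι] [DecidableEq ι] [Fintype C] [DecidableEq C]

/-- Block diagonal matrices, reindexed. -/
noncomputable def blk (M : C → Matrix (ι × ι) (ι × ι) ℂ) :
    Matrix (ι × ι × C) (ι × ι × C) ℂ :=
  (Matrix.blockDiagonal M).submatrix (Equiv.prodAssoc ι ι C).symm (Equiv.prodAssoc ι ι C).symm

omit [DecidableEq ι] in
theorem blk_mul (M N : C → Matrix (ι × ι) (ι × ι) ℂ) :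
    blk M * blk N = blk fun c => M c * N c := by
  unfold blk
  rw [Matrix.submatrix_mul_equiv, Matrix.blockDiagonal_mul]

omit [Fintype ι] [DecidableEq ι] [Fintype C] in
theorem blk_star (M : C → Matrix (ι × ι) (ι × ι) ℂ) :
    star (blk M) = blk fun c => star (M c) := by
  unfold blk
  rw [Matrix.star_eq_conjTranspose, Matrix.conjTranspose_submatrix,
    Matrix.blockDiagonal_conjTranspose]
  rfl

omit [Fintype ι] [DecidableEq ι] [Fintype C] in
theorem blk_apply (M : C → Matrix (ι × ι) (ι × ι) ℂ) (i s : ι) (c : C) (i' s' : ι) (c' : C) :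
    blk M (i, s, c) (i', s', c') = if c = c' then M c (i, s) (i', s') else 0 := by
  simp [blk, Matrix.blockDiagonal_apply]

omit [Fintype ι] [DecidableEq ι] [Fintype C] in
theorem blk_sum {Λ : Type} [Fintype Λ] (M : Λ → C → Matrix (ι × ι) (ι × ι) ℂ) :
    ∑ a, blk (M a) = blk fun c => ∑ a, M a c := by
  ext ⟨i, s, c⟩ ⟨i', s', c'⟩
  simp only [Matrix.sum_apply, blk_apply]
  split_ifs <;> simp

omit [Fintype ι] [Fintype C] in
theorem blk_one : blk (fun _ : C => (1 : Matrix (ι × ι) (ι × ι) ℂ)) = 1 := by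
  ext ⟨i, s, c⟩ ⟨i', s', c'⟩
  simp only [blk_apply, Matrix.one_apply, Prod.mk.injEq]
  by_cases h1 : i = i' <;> by_cases h2 : s = s' <;> by_cases h3 : c = c' <;> simp [h1, h2, h3]

omit [Fintype ι] [DecidableEq ι] [Fintype C] in
theorem blk_zero : blk (fun _ : C => (0 : Matrix (ι × ι) (ι × ι) ℂ)) = 0 := by
  ext ⟨i, s, c⟩ ⟨i', s', c'⟩
  simp [blk_apply]

omit [Fintype ι] [Fintype C] in
theorem blk_kron (y : Matrix ι ι ℂ) :
    y ⊗ₖ (1 : Matrix (ι × C) (ι × C) ℂ) = blk fun _ : C => y ⊗ₖ (1 : Matrix ι ι ℂ) := by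
  ext ⟨i, s, c⟩ ⟨i', s', c'⟩
  simp only [blk_apply, Matrix.kroneckerMap_apply, Matrix.one_apply, Prod.mk.injEq]
  by_cases h2 : s = s' <;> by_cases h3 : c = c' <;> simp [h2, h3]

omit [DecidableEq ι] in
theorem blk_trace (M : C → Matrix (ι × ι) (ι × ι) ℂ) :
    (blk M).trace = ∑ c, (M c).trace := by
  simp only [Matrix.trace, Matrix.diag_apply, Fintype.sum_prod_type, blk_apply, if_true]
  rw [Finset.sum_comm]
  simp only [Finset.sum_comm (s := (Finset.univ : Finset C))]
  exact Finset.sum_comm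

end Blk

section Avg

variable {X Λ : Type} [Fintype X] [DecidableEq X] [Fintype Λ] [DecidableEq Λ] [Nonempty Λ]

omit [DecidableEq Λ] in
theorem avg_prod (f : X → Λ → ℂ) :
    ∑ c : X → Λ, ∏ z, f z (c z) =
      (Fintype.card (X → Λ) : ℂ) * ∏ z, ((Fintype.card Λ : ℂ)⁻¹ * ∑ t, f z t) := by
  have hd : (Fintype.card Λ : ℂ) ≠ 0 := by exact_mod_cast Fintype.card_ne_zero
  rw [Finset.prod_mul_distrib, Finset.prod_univ_sum, Fintype.piFinset_univ, Finset.prod_const,
    Fintype.card_fun, ← mul_assoc]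
  push_cast
  rw [Finset.card_univ, ← mul_pow, mul_inv_cancel₀ hd, one_pow, one_mul]

theorem avg_pair (x x' : X) (a b : Λ) :
    ∑ c : X → Λ, (if c x' = a then (1 : ℂ) else 0) * (if c x = b then 1 else 0) =
      (Fintype.card (X → Λ) : ℂ) * (((Fintype.card Λ : ℂ)⁻¹) ^ 2 + if x' = x then
        ((if a = b then (Fintype.card Λ : ℂ)⁻¹ else 0) - ((Fintype.card Λ : ℂ)⁻¹) ^ 2) else 0) := by
  have hd : (Fintype.card Λ : ℂ) ≠ 0 := by exact_mod_cast Fintype.card_ne_zero
  have h := avg_prod (fun z t => (if z = x' then (if t = a then (1 : ℂ) else 0) else 1) *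
    (if z = x then (if t = b then (1 : ℂ) else 0) else 1))
  have e1 : ∀ c : X → Λ, ∏ z, ((if z = x' then (if c z = a then (1 : ℂ) else 0) else 1) *
      (if z = x then (if c z = b then (1 : ℂ) else 0) else 1)) =
      (if c x' = a then (1 : ℂ) else 0) * (if c x = b then 1 else 0) := by
    intro c
    rw [Finset.prod_mul_distrib, Finset.prod_ite_eq', Finset.prod_ite_eq']
    simp
  simp only [e1] at h
  rw [h]
  refine congrArg _ ?_
  by_cases hx : x' = x
  · subst hx
    have e2 : ∀ z, (Fintype.card Λ : ℂ)⁻¹ * ∑ t,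
        ((if z = x' then (if t = a then (1 : ℂ) else 0) else 1) *
        (if z = x' then (if t = b then (1 : ℂ) else 0) else 1)) =
        if z = x' then (if a = b then (Fintype.card Λ : ℂ)⁻¹ else 0) else 1 := by
      intro z
      by_cases hz : z = x'
      · by_cases hab : a = b
        · simp [hz, hab]
        · have hba : ¬ b = a := fun h' => hab h'.symm
          simp [hz, hab, hba]
      · simp [hz, hd]
    simp only [e2]
    rw [Finset.prod_ite_eq']
    simp
  · have e2 : ∀ z, (Fintype.card Λ : ℂ)⁻¹ * ∑ t,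
        ((if z = x' then (if t = a then (1 : ℂ) else 0) else 1) *
        (if z = x then (if t = b then (1 : ℂ) else 0) else 1)) =
        (if z = x' then (Fintype.card Λ : ℂ)⁻¹ else 1) *
          (if z = x then (Fintype.card Λ : ℂ)⁻¹ else 1) := by
      intro z
      by_cases hz : z = x'
      · have hz' : z ≠ x := fun h' => hx (hz.symm.trans h')
        simp [hz, hx]
      · by_cases hz' : z = x
        · have hx' : ¬ x = x' := fun h' => hx h'.symm
          simp [hz', hx']
        · simp [hz, hz', hd]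
    simp only [e2]
    rw [Finset.prod_mul_distrib, Finset.prod_ite_eq', Finset.prod_ite_eq']
    simp [hx, sq]

end Avg

theorem trace_cells {X : Type} [Fintype X] [DecidableEq X] (Y Y' : Matrix X X ℂ) (u v : X → ℂ) :
    (star Y * Matrix.diagonal u * Y' * Matrix.diagonal v).trace =
      ∑ x, ∑ x', conj (Y x' x) * Y' x' x * (u x' * v x) := by
  unfold Matrix.trace
  refine Finset.sum_congr rfl fun x _ => ?_
  rw [Matrix.diag_apply, Matrix.mul_diagonal, Matrix.mul_apply, Finset.sum_mul]
  refine Finset.sum_congr rfl fun x' _ => ?_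
  rw [Matrix.mul_diagonal, Matrix.star_apply, Complex.star_def]
  ring

theorem star_kron_one {ι R : Type} [DecidableEq R] (y : Matrix ι ι ℂ) :
    star (y ⊗ₖ (1 : Matrix R R ℂ)) = star y ⊗ₖ (1 : Matrix R R ℂ) := by
  rw [Matrix.star_eq_conjTranspose, Matrix.conjTranspose_kronecker, Matrix.conjTranspose_one]
  rfl

theorem kron_one_mul {ι R : Type} [Fintype ι] [Fintype R] [DecidableEq R] (y y' : Matrix ι ι ℂ) :
    (y ⊗ₖ (1 : Matrix R R ℂ)) * (y' ⊗ₖ (1 : Matrix R R ℂ)) = (y * y') ⊗ₖ (1 : Matrix R R ℂ) := by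
  rw [← Matrix.mul_kronecker_mul, Matrix.one_mul]

theorem ntr_kron_one {ι R : Type} [Fintype ι] [Fintype R] [DecidableEq R] [Nonempty R]
    (y : Matrix ι ι ℂ) : ntr (y ⊗ₖ (1 : Matrix R R ℂ)) = ntr y := by
  have hd : (Fintype.card R : ℂ) ≠ 0 := by exact_mod_cast Fintype.card_ne_zero
  unfold ntr
  rw [Matrix.trace_kronecker, Matrix.trace_one, Fintype.card_prod]
  push_cast
  rw [mul_inv, mul_mul_mul_comm, inv_mul_cancel₀ hd, mul_one]

theorem cells_conj {X Λ : Type} [Fintype X] [DecidableEq X] [Fintype Λ] [DecidableEq Λ]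
    {G : Matrix X X ℂ} (hG : G ∈ unitary (Matrix X X ℂ)) (c : X → Λ) :
    Cells fun a => star G * Matrix.diagonal (fun x => if c x = a then (1 : ℂ) else 0) * G := by
  have h1 : star G * G = 1 := hG.1
  have h2 : G * star G = 1 := hG.2
  refine ⟨fun a => ?_, fun a b => ?_, ?_⟩
  · have : star (Matrix.diagonal fun x => if c x = a then (1 : ℂ) else 0) =
        Matrix.diagonal fun x => if c x = a then (1 : ℂ) else 0 := by
      rw [Matrix.star_eq_conjTranspose, Matrix.diagonal_conjTranspose]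
      refine congrArg _ (funext fun x => ?_)
      simp only [Pi.star_apply]
      split_ifs <;> simp
    simp only [star_mul, star_star, this, mul_assoc]
  · have : ∀ A B : Matrix X X ℂ, star G * A * G * (star G * B * G) = star G * (A * B) * G := by
      intro A B
      calc star G * A * G * (star G * B * G) = star G * A * (G * star G) * B * G := by
            simp only [mul_assoc]
        _ = star G * (A * B) * G := by rw [h2]; simp only [mul_assoc, one_mul]
    simp only [this, Matrix.diagonal_mul_diagonal]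
    split_ifs with hab
    · subst hab
      refine congrArg (fun v => star G * Matrix.diagonal v * G) (funext fun x => ?_)
      split_ifs <;> simp
    · have : (fun x => (if c x = a then (1 : ℂ) else 0) * (if c x = b then (1 : ℂ) else 0)) =
          fun _ => 0 := by
        funext x
        by_cases hx : c x = a
        · have : ¬ c x = b := fun h => hab (hx.symm.trans h)
          simp [this]
        · simp [hx]
      rw [this, Matrix.diagonal_zero, mul_zero, zero_mul]
  · have : ∑ a, Matrix.diagonal (fun x => if c x = a then (1 : ℂ) else 0) = 1 := by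
      ext x x'
      simp only [Matrix.sum_apply, Matrix.diagonal_apply, Matrix.one_apply]
      split_ifs <;> simp
    rw [← Finset.sum_mul, ← Finset.mul_sum, this, mul_one, h1]

theorem model_key {ι Λ : Type} [Fintype ι] [DecidableEq ι] [Nonempty ι] [Fintype Λ]
    [DecidableEq Λ] [Nonempty Λ] {G : Matrix (ι × ι) (ι × ι) ℂ}
    (hG : G ∈ unitary (Matrix (ι × ι) (ι × ι) ℂ))
    (hdiag : ∀ (y : Matrix ι ι ℂ) x, (G * (y ⊗ₖ (1 : Matrix ι ι ℂ)) * star G) x x = ntr y)
    (y y' : Matrix ι ι ℂ) (a b : Λ) :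
    ntr (blk fun c : ι × ι → Λ => star (y ⊗ₖ (1 : Matrix ι ι ℂ)) *
      (star G * Matrix.diagonal (fun x => if c x = a then (1 : ℂ) else 0) * G) *
      (y' ⊗ₖ (1 : Matrix ι ι ℂ)) *
      (star G * Matrix.diagonal (fun x => if c x = b then (1 : ℂ) else 0) * G)) =
      ((Fintype.card Λ : ℂ)⁻¹) ^ 2 * (ntr (star y * y') - conj (ntr y) * ntr y') +
        (if a = b then (Fintype.card Λ : ℂ)⁻¹ else 0) * (conj (ntr y) * ntr y') := by
  have h1 : star G * G = 1 := hG.1
  obtain ⟨Y, hY⟩ : ∃ Y, Y = G * (y ⊗ₖ (1 : Matrix ι ι ℂ)) * star G := ⟨_, rfl⟩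
  obtain ⟨Y', hY'⟩ : ∃ Y', Y' = G * (y' ⊗ₖ (1 : Matrix ι ι ℂ)) * star G := ⟨_, rfl⟩
  have hd : ∀ x, Y x x = ntr y := fun x => by rw [hY]; exact hdiag y x
  have hd' : ∀ x, Y' x x = ntr y' := fun x => by rw [hY']; exact hdiag y' x
  have htr : ∀ A B : Matrix (ι × ι) (ι × ι) ℂ, (star (y ⊗ₖ (1 : Matrix ι ι ℂ)) *
      (star G * A * G) * (y' ⊗ₖ (1 : Matrix ι ι ℂ)) * (star G * B * G)).trace =
      (star Y * A * Y' * B).trace := by
    intro A B
    rw [← mul_assoc, Matrix.trace_mul_comm, hY, hY']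
    simp only [star_mul, star_star, mul_assoc]
  have hYY : ∑ x, ∑ x', conj (Y x' x) * Y' x' x =
      (Fintype.card (ι × ι) : ℂ) * ntr (star y * y') := by
    have e1 := trace_cells Y Y' (fun _ => 1) (fun _ => 1)
    have e2 := htr 1 1
    simp only [Matrix.diagonal_one, mul_one] at e1
    simp only [mul_one, h1] at e2
    rw [← e1, ← e2, star_kron_one, kron_one_mul, ← ntr_kron_one (R := ι) (star y * y')]
    have hc : (Fintype.card (ι × ι) : ℂ) ≠ 0 := by exact_mod_cast Fintype.card_ne_zero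
    unfold ntr
    rw [← mul_assoc, mul_inv_cancel₀ hc, one_mul]
  have hsum : ∑ c : ι × ι → Λ, ∑ x, ∑ x', conj (Y x' x) * Y' x' x *
      ((if c x' = a then (1 : ℂ) else 0) * (if c x = b then 1 else 0)) =
      (Fintype.card (ι × ι → Λ) : ℂ) * ((Fintype.card (ι × ι) : ℂ) *
        (((Fintype.card Λ : ℂ)⁻¹) ^ 2 * ntr (star y * y') +
        ((if a = b then (Fintype.card Λ : ℂ)⁻¹ else 0) - ((Fintype.card Λ : ℂ)⁻¹) ^ 2) *
          (conj (ntr y) * ntr y'))) := by
    rw [Finset.sum_comm]
    simp only [Finset.sum_comm (s := (Finset.univ : Finset (ι × ι → Λ))), ← Finset.mul_sum,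
      avg_pair]
    generalize (if a = b then (Fintype.card Λ : ℂ)⁻¹ else 0) - ((Fintype.card Λ : ℂ)⁻¹) ^ 2 = β
    generalize ((Fintype.card Λ : ℂ)⁻¹) ^ 2 = α
    generalize (Fintype.card (ι × ι → Λ) : ℂ) = N
    have e3 : ∀ x, ∑ x', conj (Y x' x) * Y' x' x * (N * (α + if x' = x then β else 0)) =
        N * α * (∑ x', conj (Y x' x) * Y' x' x) + N * β * (conj (ntr y) * ntr y') := by
      intro x
      simp only [mul_add, mul_ite, mul_zero, Finset.sum_add_distrib, Finset.sum_ite_eq',
        Finset.mem_univ, if_true, hd, hd', ← Finset.sum_mul]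
      ring
    simp only [e3, Finset.sum_add_distrib, ← Finset.mul_sum, hYY, Finset.sum_const,
      Finset.card_univ, nsmul_eq_mul]
    ring
  have hc1 : (Fintype.card (ι × ι → Λ) : ℂ) ≠ 0 := by exact_mod_cast Fintype.card_ne_zero
  have hc2 : (Fintype.card (ι × ι) : ℂ) ≠ 0 := by exact_mod_cast Fintype.card_ne_zero
  have hc3 : (Fintype.card (ι × ι × (ι × ι → Λ)) : ℂ) =
      (Fintype.card (ι × ι → Λ) : ℂ) * (Fintype.card (ι × ι) : ℂ) := by
    simp only [Fintype.card_prod]
    push_cast
    ring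
  rw [ntr, blk_trace]
  simp only [htr, trace_cells]
  rw [hsum, hc3, ← mul_assoc, ← mul_assoc, mul_assoc _ (Fintype.card (ι × ι → Λ) : ℂ),
    inv_mul_cancel₀ (mul_ne_zero hc1 hc2)]
  ring

/-- The embedding `y ↦ y ⊗ 1`. -/
noncomputable def kronOne (R R₁ : Type) [Fintype R] [DecidableEq R] [Fintype R₁]
    [DecidableEq R₁] : Matrix R R ℂ →ₐ[ℂ] Matrix (R × R₁) (R × R₁) ℂ where
  toFun y := y ⊗ₖ (1 : Matrix R₁ R₁ ℂ)
  map_one' := Matrix.one_kronecker_one
  map_mul' y y' := (kron_one_mul y y').symm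
  map_zero' := Matrix.zero_kronecker _
  map_add' y y' := Matrix.add_kronecker y y' _
  commutes' r := by
    rw [Algebra.algebraMap_eq_smul_one, Algebra.algebraMap_eq_smul_one, Matrix.smul_kronecker,
      Matrix.one_kronecker_one]

theorem kronOne_apply {R R₁ : Type} [Fintype R] [DecidableEq R] [Fintype R₁] [DecidableEq R₁]
    (y : Matrix R R ℂ) : kronOne R R₁ y = y ⊗ₖ (1 : Matrix R₁ R₁ ℂ) := rfl

theorem model_one (ι : Type) [Fintype ι] [DecidableEq ι] [Nonempty ι] (Λ : Type) [Fintype Λ]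
    [DecidableEq Λ] [Nonempty Λ] :
    ∃ (R : Type) (_ : Fintype R) (_ : DecidableEq R) (_ : Nonempty R)
      (p : Λ → Matrix (ι × R) (ι × R) ℂ), Cells p ∧ ∀ (y y' : Matrix ι ι ℂ) a b,
      ntr (star (y ⊗ₖ (1 : Matrix R R ℂ)) * p a * (y' ⊗ₖ (1 : Matrix R R ℂ)) * p b) =
        ((Fintype.card Λ : ℂ)⁻¹) ^ 2 * (ntr (star y * y') - conj (ntr y) * ntr y') +
          (if a = b then (Fintype.card Λ : ℂ)⁻¹ else 0) * (conj (ntr y) * ntr y') := by
  obtain ⟨G, hG, hdiag⟩ := model_basis ι
  refine ⟨ι × (ι × ι → Λ), inferInstance, inferInstance, inferInstance,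
    fun a => blk fun c => star G * Matrix.diagonal (fun x => if c x = a then (1 : ℂ) else 0) * G,
    ⟨fun a => ?_, fun a b => ?_, ?_⟩, fun y y' a b => ?_⟩
  · rw [blk_star]
    exact congrArg _ (funext fun c => (cells_conj hG c).star_eq a)
  · rw [blk_mul]
    simp only [(cells_conj hG _).mul a b]
    split_ifs
    · rfl
    · exact blk_zero
  · rw [blk_sum]
    simp only [(cells_conj hG _).sum]
    exact blk_one
  · rw [blk_kron, blk_kron, blk_star, blk_mul, blk_mul, blk_mul]
    exact model_key hG hdiag y y' a b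

theorem model_tower (n : ℕ) (Λ : Type) [Fintype Λ] [DecidableEq Λ] [Nonempty Λ] :
    ∃ (R : Type) (_ : Fintype R) (_ : DecidableEq R) (_ : Nonempty R)
      (p : ℕ → Λ → Matrix R R ℂ) (D : ℕ → Subalgebra ℂ (Matrix R R ℂ)),
      (∀ j, Cells (p j)) ∧ (∀ i j a, i < j → p i a ∈ D j) ∧
      ∀ j < n, ∀ y ∈ D j, ∀ y' ∈ D j, ∀ a b, ntr (star y * p j a * y' * p j b) =
        ((Fintype.card Λ : ℂ)⁻¹) ^ 2 * (ntr (star y * y') - conj (ntr y) * ntr y') +
          (if a = b then (Fintype.card Λ : ℂ)⁻¹ else 0) * (conj (ntr y) * ntr y') := by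
  induction n with
  | zero =>
    obtain ⟨a₀⟩ := (inferInstance : Nonempty Λ)
    refine ⟨Unit, inferInstance, inferInstance, inferInstance,
      fun _ a => if a = a₀ then 1 else 0, fun _ => ⊤, fun _ => ⟨fun a => ?_, fun a b => ?_, ?_⟩,
      fun _ _ _ _ => Algebra.mem_top, fun j hj => absurd hj (Nat.not_lt_zero j)⟩
    · by_cases ha : a = a₀ <;> simp [ha]
    · by_cases ha : a = a₀
      · by_cases hb : b = a₀
        · simp [ha, hb]
        · have : ¬ a₀ = b := fun h => hb h.symm
          simp [ha, hb, this]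
      · simp [ha]
    · simp
  | succ n ih =>
    obtain ⟨R, _, _, _, p, D, hc, hD, hk⟩ := ih
    obtain ⟨R₁, _, _, _, q, hq, hqk⟩ := model_one R Λ
    have hs : ∀ y, star (kronOne R R₁ y) = kronOne R R₁ (star y) := fun y => star_kron_one y
    have hn : ∀ y, ntr (kronOne R R₁ y) = ntr y := fun y => ntr_kron_one y
    refine ⟨R × R₁, inferInstance, inferInstance, inferInstance,
      fun j => if j = n then q else fun a => kronOne R R₁ (p j a),
      fun j => if j ≤ n then (D j).map (kronOne R R₁) else ⊤, fun j => ?_, fun i j a hij => ?_,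
      fun j hj y hy y' hy' a b => ?_⟩
    · beta_reduce
      split_ifs
      · exact hq
      · refine ⟨fun a => ?_, fun a b => ?_, ?_⟩
        · rw [hs, (hc j).star_eq]
        · rw [← map_mul, (hc j).mul]
          split_ifs
          · rfl
          · exact map_zero _
        · rw [← map_sum, (hc j).sum, map_one]
    · by_cases hj : j ≤ n
      · have hi : i ≠ n := by omega
        simp only [if_pos hj, if_neg hi]
        exact ⟨p i a, hD i j a hij, rfl⟩
      · simp only [if_neg hj]
        exact Algebra.mem_top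
    · have hj' : j ≤ n := by omega
      simp only [if_pos hj'] at hy hy'
      obtain ⟨z, hz, rfl⟩ := Subalgebra.mem_map.1 hy
      obtain ⟨z', hz', rfl⟩ := Subalgebra.mem_map.1 hy'
      have e1 : ntr (star (kronOne R R₁ z) * kronOne R R₁ z') = ntr (star z * z') := by
        rw [hs, ← map_mul, hn]
      by_cases hjn : j = n
      · simp only [if_pos hjn]
        exact (hqk z z' a b).trans (by rw [e1, hn, hn])
      · simp only [if_neg hjn]
        refine Eq.trans ?_ ((hk j (by omega) z hz z' hz' a b).trans (by rw [e1, hn, hn]))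
        rw [← hn, map_mul, map_mul, map_mul, ← hs]

end Vale.Agent.KK
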