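import Vale.Agent.KK.NearB
import Vale.Agent.P104.Kapl

/-!
A star homomorphism close to the identity is implemented by a unitary close to one.
WLOG c > 0 is assumed. K = H + H (exists_piAmp H Bool or Fin 2), rho x = J0 x J0* + J1 (pi x) J1* as a StarAlgHom from the C*-algebra M
(haveI := vn_isClosed M gives the CStarAlgebra instance of M.toStarSubalgebra), T = J1 J0*, |[T, rho x]| <= c |x|.
kaplansky: |[T, y]| <= 8c |y| on P = (vnComm (range rho)).commutant. hyper80: b in P.commutant = vnComm (range rho)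
(commutant_commutant), |T - b| <= 640 c. v = J1* b J0 has v x = pi x v and |v - 1| <= 640 c. polar_near.
-/

namespace Vale.Agent.KK

open Vale.Agent.P104
open scoped InnerProductSpace

universe u

variable {H : Type*} [NormedAddCommGroup H] [InnerProductSpace ℂ H] [CompleteSpace H]

section Diag

variable {K : Type*} [NormedAddCommGroup K] [InnerProductSpace ℂ K] [CompleteSpace K]

/-- A block diagonal operator. -/
noncomputable def spDiag (A : Amp H K Bool) (g : Bool → H →L[ℂ] H) : K →L[ℂ] K :=
  ∑ a, A.J a ∘L g a ∘L (A.J a).adjoint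

theorem sp_adj (A : Amp H K Bool) (g : Bool → H →L[ℂ] H) (a : Bool) (ζ : K) :
    (A.J a).adjoint (spDiag A g ζ) = g a ((A.J a).adjoint ζ) := by
  cases a <;> simp [spDiag, A.adj_J_apply]

theorem sp_J (A : Amp H K Bool) (g : Bool → H →L[ℂ] H) (a : Bool) (ξ : H) :
    spDiag A g (A.J a ξ) = A.J a (g a ξ) := by
  cases a <;> simp [spDiag, A.adj_J_apply]

theorem sp_star (A : Amp H K Bool) (g : Bool → H →L[ℂ] H) :
    spDiag A (fun a => star (g a)) = star (spDiag A g) := by
  simp [spDiag, ContinuousLinearMap.star_eq_adjoint, ContinuousLinearMap.adjoint_comp,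
    ContinuousLinearMap.comp_assoc]

theorem sp_norm_adj (A : Amp H K Bool) (a : Bool) (ζ : K) : ‖(A.J a).adjoint ζ‖ ≤ ‖ζ‖ := by
  refine (pow_le_pow_iff_left₀ (norm_nonneg _) (norm_nonneg _) two_ne_zero).1 ?_
  rw [A.norm_sq_eq]
  exact Finset.single_le_sum (f := fun a => ‖(A.J a).adjoint ζ‖ ^ 2) (fun _ _ => by positivity)
    (Finset.mem_univ a)

end Diag

theorem spatial (M : VonNeumannAlgebra H) (π : M → H →L[ℂ] H) (hadd : ∀ x y, π (x + y) = π x + π y)
    (hsmul : ∀ (c : ℂ) x, π (c • x) = c • π x) (hmul : ∀ x y, π (x * y) = π x * π y)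
    (hone : π 1 = 1) (hstar : ∀ x, π (star x) = star (π x)) {c : ℝ} (hc0 : 0 < c)
    (hc : c ≤ 1 / 2560) (h : ∀ x, ‖π x - x‖ ≤ c * ‖x‖) :
    ∃ w ∈ unitary (H →L[ℂ] H), ‖w - 1‖ ≤ 3200 * c ∧ ∀ x : M, w * x * star w = π x := by
  have := vn_isClosed M
  obtain ⟨A, -⟩ := exists_piAmp H Bool
  let g : M → Bool → H →L[ℂ] H := fun x a => bif a then π x else x
  have hz : π 0 = 0 := by simpa using hsmul 0 0
  let ρ : M →⋆ₐ[ℂ] ((PiLp 2 fun _ : Bool => H) →L[ℂ] PiLp 2 fun _ : Bool => H) :=
    { toFun := fun x => spDiag A (g x)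
      map_one' := ContinuousLinearMap.ext fun ζ => A.ext_adj fun a => by
        rw [sp_adj]; cases a <;> simp [g, hone]
      map_mul' := fun x y => ContinuousLinearMap.ext fun ζ => A.ext_adj fun a => by
        rw [ContinuousLinearMap.mul_apply, sp_adj, sp_adj, sp_adj]; cases a <;> simp [g, hmul]
      map_zero' := ContinuousLinearMap.ext fun ζ => A.ext_adj fun a => by
        rw [sp_adj]; cases a <;> simp [g, hz]
      map_add' := fun x y => ContinuousLinearMap.ext fun ζ => A.ext_adj fun a => by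
        rw [ContinuousLinearMap.add_apply, map_add, sp_adj, sp_adj, sp_adj]
        cases a <;> simp [g, hadd]
      commutes' := fun r => ContinuousLinearMap.ext fun ζ => A.ext_adj fun a => by
        rw [sp_adj]; cases a <;> simp [g, Algebra.algebraMap_eq_smul_one, hsmul, hone]
      map_star' := fun x => by
        rw [← sp_star]
        congr 1
        funext a
        cases a <;> simp [g, hstar] }
  have hρ : ∀ x, ρ x = spDiag A (g x) := fun _ => rfl
  let T := A.J true ∘L (A.J false).adjoint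
  have hT : ∀ x, ‖T * ρ x - ρ x * T‖ ≤ c * ‖x‖ := fun x => by
    refine ContinuousLinearMap.opNorm_le_bound _ (by positivity) fun ζ => ?_
    have e : (T * ρ x - ρ x * T) ζ = - A.J true ((π x - x) ((A.J false).adjoint ζ)) := by
      simp [T, hρ, sp_adj, sp_J, g]
    rw [e, norm_neg, A.norm_J]
    exact ((π x - x).le_opNorm _).trans
      (mul_le_mul (h x) (sp_norm_adj A _ _) (norm_nonneg _) (by positivity))
  obtain ⟨b, hb, hTb⟩ := hyper80 (vnComm (Set.range ρ)).commutant T (c := 8 * c) (by positivity)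
    (kaplansky ρ T hc0.le hT)
  rw [VonNeumannAlgebra.commutant_commutant] at hb
  let v : H →L[ℂ] H := (A.J true).adjoint ∘L b ∘L A.J false
  have hv : ∀ x : M, v * x = π x * v := fun x => ContinuousLinearMap.ext fun ξ => by
    have e := congrArg (fun y => (A.J true).adjoint (y (A.J false ξ)))
      (mem_vnComm.1 hb _ ⟨x, rfl⟩).1
    simp only [ContinuousLinearMap.mul_apply, hρ, sp_adj, sp_J, g, cond_true, cond_false] at e
    exact e.symm
  have hv1 : ‖v - 1‖ ≤ 640 * c := by
    refine ContinuousLinearMap.opNorm_le_bound _ (by positivity) fun ξ => ?_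
    have e : (v - 1) ξ = - (A.J true).adjoint ((T - b) (A.J false ξ)) := by
      simp [v, T, A.adj_J_apply]
    rw [e, norm_neg]
    refine (sp_norm_adj A _ _).trans (((T - b).le_opNorm _).trans ?_)
    rw [A.norm_J]
    exact mul_le_mul_of_nonneg_right (by linarith) (norm_nonneg _)
  obtain ⟨w, hw, hw1, hw2⟩ := polar_near hv1 (by linarith)
  refine ⟨w, hw, by linarith, fun x => ?_⟩
  rw [hw2 x (π x) (hv x) (by rw [← hstar]; exact hv (star x)), mul_assoc, hw.2, mul_one]

end Vale.Agent.KK
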