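import Vale.Agent.KK.Coh
import Vale.Agent.KK.Spatial

/-!
From a linear map close to the identity to a unitary.
newton_inv: T is bounded below by 3/4, onto by successive approximation (y - T x has norm <= (1/4 + 1/4 (5/4)) |y| <= 3/4 |y|
for x in M close to y; or closed range + Riesz lemma); R is the linear inverse.
newton_step: phi a b = R (T a T b - T (a b)), |phi| <= 2d, mu = a b + phi is associative, so
f = a phi(b,c) - phi(ab,c) + phi(a,bc) - phi(a,b) c = phi(phi(a,b),c) - phi(a,phi(b,c)) has norm <= 8 d^2 and is a cocycle.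
coh3: psi, norm <= 40 d^2. coh2 for psi - phi: chi, norm <= 4 (2d + 40 d^2) <= 10 d. R and phi are hermitian
(phi(a,b)* = phi(b*,a*)); chi' a = (chi a + (chi a*)*)/2 has d chi' = - phi + psi' with |psi'| <= 40 d^2.
T' = T (1 + chi'); T' a T' b - T'(ab) = T [psi'(a,b) + chi a chi b + phi(chi a,b) + phi(a,chi b) + phi(chi a,chi b)], |T| <= 5/4.
newton: symmetrize T (T x + (T x*)*)/2; d_0 = 4 t; iterate (d_k = d_0 / 2^k, distance to the inclusion <= t + 40 d_0 (1 - 2^-k)),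
the limit exists pointwise (cauchySeq_of_le_geometric), is linear, multiplicative, star preserving, has values in N (closed),
pi 1 is an idempotent close to 1 hence 1 (inv_near).
lin_conj: newton, spatial, and onto by newton_inv.
-/

namespace Vale.Agent.KK

open Vale.Agent.P104
open scoped InnerProductSpace

universe u

variable {H : Type*} [NormedAddCommGroup H] [InnerProductSpace ℂ H] [CompleteSpace H]
  {M N : VonNeumannAlgebra H}

section alg

variable {A B : Type*} [CStarAlgebra A] [CStarAlgebra B]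

/-- The hermitian part of a linear map. -/
noncomputable def newton_sym (χ : A →ₗ[ℂ] B) : A →ₗ[ℂ] B where
  toFun a := (1 / 2 : ℂ) • (χ a + star (χ (star a)))
  map_add' a b := by
    simp only [star_add, map_add, smul_add]
    abel
  map_smul' c a := by
    simp only [star_smul, map_smul, star_star, RingHom.id_apply, ← smul_add]
    exact smul_comm _ _ _

theorem newton_sym_apply (χ : A →ₗ[ℂ] B) (a : A) :
    newton_sym χ a = (1 / 2 : ℂ) • (χ a + star (χ (star a))) := rfl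

theorem newton_sym_star (χ : A →ₗ[ℂ] B) (a : A) :
    newton_sym χ (star a) = star (newton_sym χ a) := by
  rw [newton_sym_apply, newton_sym_apply, star_smul, star_add, star_star, star_star, add_comm]
  simp

theorem newton_half {x y : B} {c : ℝ} (hx : ‖x‖ ≤ c) (hy : ‖y‖ ≤ c) :
    ‖(1 / 2 : ℂ) • (x + star y)‖ ≤ c := by
  have h := norm_add_le_of_le hx ((norm_star y).le.trans hy)
  rw [norm_smul]
  have : ‖(1 / 2 : ℂ)‖ = 1 / 2 := by simp
  rw [this]
  linarith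

theorem newton_alg
    (c2 : ∀ (φ : A →ₗ[ℂ] A →ₗ[ℂ] A) {K : ℝ}, 0 ≤ K → (∀ a b, ‖φ a b‖ ≤ K * ‖a‖ * ‖b‖) →
      (∀ a b c, a * φ b c - φ (a * b) c + φ a (b * c) - φ a b * c = 0) →
      ∃ χ : A →ₗ[ℂ] A, (∀ a, ‖χ a‖ ≤ 4 * K * ‖a‖) ∧
        ∀ a b, φ a b = a * χ b - χ (a * b) + χ a * b)
    (c3 : ∀ (f : A →ₗ[ℂ] A →ₗ[ℂ] A →ₗ[ℂ] A) {K : ℝ}, 0 ≤ K →
      (∀ a b c, ‖f a b c‖ ≤ K * ‖a‖ * ‖b‖ * ‖c‖) →
      (∀ a b c d, a * f b c d - f (a * b) c d + f a (b * c) d - f a b (c * d) +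
        f a b c * d = 0) →
      ∃ ψ : A →ₗ[ℂ] A →ₗ[ℂ] A, (∀ a b, ‖ψ a b‖ ≤ 5 * K * ‖a‖ * ‖b‖) ∧
        ∀ a b c, f a b c = a * ψ b c - ψ (a * b) c + ψ a (b * c) - ψ a b * c)
    (φ : A →ₗ[ℂ] A →ₗ[ℂ] A) {d : ℝ} (hd0 : 0 ≤ d) (hd : d ≤ 1 / 1000)
    (hb : ∀ a b, ‖φ a b‖ ≤ 2 * d * ‖a‖ * ‖b‖)
    (has : ∀ a b c, (a * b + φ a b) * c + φ (a * b + φ a b) c =
      a * (b * c + φ b c) + φ a (b * c + φ b c))
    (hs : ∀ a b, star (φ a b) = φ (star b) (star a)) :
    ∃ χ : A →ₗ[ℂ] A, (∀ a, χ (star a) = star (χ a)) ∧ (∀ a, ‖χ a‖ ≤ 10 * d * ‖a‖) ∧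
      ∀ a b, ‖(a + χ a) * (b + χ b) + φ (a + χ a) (b + χ b) - (a * b + χ (a * b))‖ ≤
        2 / 5 * d * ‖a‖ * ‖b‖ := by
  obtain ⟨f, hf⟩ : ∃ f : A →ₗ[ℂ] A →ₗ[ℂ] A →ₗ[ℂ] A, ∀ a b c,
      f a b c = φ (φ a b) c - φ a (φ b c) :=
    ⟨LinearMap.mk₂ ℂ (fun a b => φ (φ a b) - φ a ∘ₗ φ b)
      (fun a a' b => by ext c; simp only [map_add, LinearMap.add_apply, LinearMap.sub_apply,
        LinearMap.comp_apply]; abel)
      (fun r a b => by ext c; simp [smul_sub])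
      (fun a b b' => by ext c; simp only [map_add, LinearMap.add_apply, LinearMap.sub_apply,
        LinearMap.comp_apply]; abel)
      (fun r a b => by ext c; simp [smul_sub]), fun _ _ _ => rfl⟩
  have hf2 : ∀ a b c, f a b c = a * φ b c - φ (a * b) c + φ a (b * c) - φ a b * c := by
    intro a b c
    have h := has a b c
    simp only [map_add, LinearMap.add_apply, add_mul, mul_add, mul_assoc] at h
    rw [hf, ← sub_eq_zero, ← sub_eq_zero.2 h]
    abel
  have hb' : ∀ {a b : A} {p q : ℝ}, ‖a‖ ≤ p → ‖b‖ ≤ q → ‖φ a b‖ ≤ 2 * d * p * q :=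
    fun {a b p q} ha hb' => (hb a b).trans (mul_le_mul
      (mul_le_mul_of_nonneg_left ha (by positivity)) hb' (norm_nonneg _)
      (mul_nonneg (by positivity) ((norm_nonneg _).trans ha)))
  obtain ⟨ψ, hψ, hψ2⟩ := c3 f (K := 8 * d ^ 2) (by positivity) (fun a b c => by
    rw [hf]
    exact (norm_sub_le_of_le (hb' (hb a b) le_rfl) (hb' le_rfl (hb b c))).trans
      (le_of_eq (by ring))) (fun a b c e => by
    simp only [hf2, mul_assoc]
    noncomm_ring)
  obtain ⟨χ, hχ, hχ2⟩ := c2 (ψ - φ) (K := 5 * (8 * d ^ 2) + 2 * d) (by positivity)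
    (fun a b => (norm_sub_le_of_le (hψ a b) (hb a b)).trans (le_of_eq (by ring)))
    (fun a b c => by
      have h := (hψ2 a b c).symm.trans (hf2 a b c)
      simp only [LinearMap.sub_apply, mul_sub, sub_mul]
      rw [← sub_eq_zero.2 h]
      abel)
  have n1 : ∀ a, ‖χ a‖ ≤ 10 * d * ‖a‖ := fun a => (hχ a).trans
    (mul_le_mul_of_nonneg_right (by nlinarith) (norm_nonneg _))
  have n2 : ∀ a, ‖newton_sym χ a‖ ≤ 10 * d * ‖a‖ := fun a =>
    newton_half (n1 a) ((n1 _).trans (by rw [norm_star]))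
  refine ⟨newton_sym χ, newton_sym_star χ, n2, fun a b => ?_⟩
  have e1 : a * newton_sym χ b - newton_sym χ (a * b) + newton_sym χ a * b + φ a b =
      (1 / 2 : ℂ) • (ψ a b + star (ψ (star b) (star a))) := by
    have g1 : ψ a b = a * χ b - χ (a * b) + χ a * b + φ a b := by
      rw [← hχ2]; simp
    have g2 : star (ψ (star b) (star a)) = star (χ (star a)) * b - star (χ (star (a * b))) +
        a * star (χ (star b)) + φ a b := by
      have : ψ (star b) (star a) = star b * χ (star a) - χ (star b * star a) +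
          χ (star b) * star a + φ (star b) (star a) := by
        rw [← hχ2]; simp
      rw [this, ← hs, ← star_mul]
      simp only [star_add, star_sub, star_mul, star_star]
    rw [g1, g2]
    simp only [newton_sym_apply, mul_smul_comm, smul_mul_assoc, mul_add, add_mul]
    module
  have e2 : (a + newton_sym χ a) * (b + newton_sym χ b) +
      φ (a + newton_sym χ a) (b + newton_sym χ b) - (a * b + newton_sym χ (a * b)) =
      (1 / 2 : ℂ) • (ψ a b + star (ψ (star b) (star a))) + newton_sym χ a * newton_sym χ b +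
        φ (newton_sym χ a) b + φ a (newton_sym χ b) +
          φ (newton_sym χ a) (newton_sym χ b) := by
    rw [← e1]
    simp only [map_add, LinearMap.add_apply, add_mul, mul_add]
    abel
  have t1 : ‖(1 / 2 : ℂ) • (ψ a b + star (ψ (star b) (star a)))‖ ≤ 5 * (8 * d ^ 2) * ‖a‖ * ‖b‖ :=
    newton_half (hψ a b) ((hψ _ _).trans (le_of_eq (by rw [norm_star, norm_star]; ring)))
  rw [e2]
  refine (norm_add_le_of_le (norm_add_le_of_le (norm_add_le_of_le (norm_add_le_of_le t1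
    (norm_mul_le_of_le (n2 a) (n2 b))) (hb' (n2 a) le_rfl)) (hb' le_rfl (n2 b)))
    (hb' (n2 a) (n2 b))).trans ?_
  have q : 0 ≤ d * (‖a‖ * ‖b‖) := by positivity
  have q1 := mul_le_mul_of_nonneg_right hd q
  have q2 := mul_le_mul_of_nonneg_left q1 hd0
  nlinarith

theorem newton_inv' (T : A →ₗ[ℂ] B) (h1 : ∀ x, 3 / 4 * ‖x‖ ≤ ‖T x‖)
    (h2 : ∀ x, ‖T x‖ ≤ 5 / 4 * ‖x‖) (h3 : ∀ y, ∃ x, ‖y - T x‖ ≤ 9 / 16 * ‖y‖) :
    ∃ R : B →ₗ[ℂ] A, (∀ y, T (R y) = y) ∧ (∀ x, R (T x) = x) ∧ ∀ y, ‖R y‖ ≤ 2 * ‖y‖ := by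
  have h4 : ∀ x, ‖x‖ ≤ (2 : NNReal) * ‖T.mkContinuous _ h2 x‖ := fun x => by
    have := h1 x
    have := norm_nonneg x
    simp only [NNReal.coe_ofNat, LinearMap.mkContinuous_apply]
    linarith
  have ha := (T.mkContinuous _ h2).antilipschitz_of_bound h4
  have hc : IsClosed ((LinearMap.range T : Submodule ℂ B) : Set B) :=
    ha.isClosed_range (T.mkContinuous _ h2).uniformContinuous
  have hsurj : Function.Surjective T := by
    by_contra hn
    obtain ⟨y, hy, hr⟩ := riesz_lemma hc (not_forall.1 hn) (r := 3 / 4) (by norm_num)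
    obtain ⟨x, hx⟩ := h3 y
    have := hr (T x) ⟨x, rfl⟩
    have h0 : ‖y‖ = 0 := le_antisymm (by linarith) (norm_nonneg _)
    exact hy (by rw [norm_eq_zero.1 h0]; exact zero_mem _)
  let e := LinearEquiv.ofBijective T ⟨ha.injective, hsurj⟩
  refine ⟨e.symm, fun y => e.apply_symm_apply y, fun x => e.symm_apply_apply x, fun y => ?_⟩
  have := h4 (e.symm y)
  have h5 : T (e.symm y) = y := e.apply_symm_apply y
  simp only [NNReal.coe_ofNat, LinearMap.mkContinuous_apply, h5] at this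
  exact this

end alg

/-- The map with values in `N`. -/
noncomputable def newton_res (T : M →ₗ[ℂ] (H →L[ℂ] H)) (hN : ∀ x, T x ∈ N) : M →ₗ[ℂ] N where
  toFun x := ⟨T x, hN x⟩
  map_add' x y := Subtype.ext (map_add T x y)
  map_smul' c x := Subtype.ext (map_smul T c x)

theorem newton_up {T : M →ₗ[ℂ] (H →L[ℂ] H)} {c : ℝ} (hT : ∀ x : M, ‖T x - x‖ ≤ c * ‖x‖)
    (x : M) : ‖T x‖ ≤ (1 + c) * ‖x‖ := by
  have h := norm_add_le_of_le (hT x) (le_refl ‖(x : H →L[ℂ] H)‖)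
  rw [sub_add_cancel] at h
  have e : ‖(x : H →L[ℂ] H)‖ = ‖x‖ := rfl
  linarith

theorem newton_inv (T : M →ₗ[ℂ] (H →L[ℂ] H)) (hN : ∀ x, T x ∈ N)
    (hT : ∀ x : M, ‖T x - x‖ ≤ 1 / 4 * ‖x‖) (h : NearV N M (1 / 4)) :
    ∃ R : N →ₗ[ℂ] M, (∀ y, T (R y) = y) ∧ (∀ x, R ⟨T x, hN x⟩ = x) ∧ ∀ y, ‖R y‖ ≤ 2 * ‖y‖ := by
  have hu := newton_up hT
  obtain ⟨R, r1, r2, r3⟩ := newton_inv' (newton_res T hN) (fun x => by
    have h1 := norm_sub_le_of_le (le_refl ‖T x‖) (hT x)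
    rw [sub_sub_cancel] at h1
    have e : ‖(x : H →L[ℂ] H)‖ = ‖x‖ := rfl
    change _ ≤ ‖T x‖
    linarith) (fun x => (hu x).trans (by norm_num)) (fun y => by
    obtain ⟨x, hx, h1⟩ := h y y.2
    refine ⟨⟨x, hx⟩, ?_⟩
    have h2 := hT ⟨x, hx⟩
    have h3 := norm_sub_le_of_le (le_refl ‖(y : H →L[ℂ] H)‖) h1
    rw [sub_sub_cancel] at h3
    have h4 := norm_sub_le_of_le h1 h2
    change ‖(y : H →L[ℂ] H) - x - (T ⟨x, hx⟩ - x)‖ ≤ 1 / 4 * _ + 1 / 4 * ‖x‖ at h4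
    rw [sub_sub_sub_cancel_right] at h4
    change ‖(y : H →L[ℂ] H) - T ⟨x, hx⟩‖ ≤ 9 / 16 * ‖(y : H →L[ℂ] H)‖
    linarith)
  exact ⟨R, fun y => congrArg Subtype.val (r1 y), r2, r3⟩

theorem newton_step (T : M →ₗ[ℂ] (H →L[ℂ] H)) (hN : ∀ x, T x ∈ N)
    (hT : ∀ x : M, ‖T x - x‖ ≤ 1 / 4 * ‖x‖) (h : NearV N M (1 / 4))
    (hs : ∀ x, T (star x) = star (T x)) {d : ℝ} (hd0 : 0 ≤ d) (hd : d ≤ 1 / 1000)
    (hm : ∀ a b, ‖T a * T b - T (a * b)‖ ≤ d * ‖a‖ * ‖b‖) :
    ∃ T' : M →ₗ[ℂ] (H →L[ℂ] H), (∀ x, T' x ∈ N) ∧ (∀ x, T' (star x) = star (T' x)) ∧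
      (∀ x, ‖T' x - T x‖ ≤ 20 * d * ‖x‖) ∧
      ∀ a b, ‖T' a * T' b - T' (a * b)‖ ≤ d / 2 * ‖a‖ * ‖b‖ := by
  obtain ⟨R, r1, r2, r3⟩ := newton_inv T hN hT h
  have hu : ∀ x, ‖T x‖ ≤ 5 / 4 * ‖x‖ := fun x => (newton_up hT x).trans (by norm_num)
  have inj : ∀ x y, T x = T y → x = y := fun x y e => by
    rw [← r2 x, ← r2 y]
    exact congrArg R (Subtype.ext e)
  obtain ⟨φ, hφ⟩ : ∃ φ : M →ₗ[ℂ] M →ₗ[ℂ] M, ∀ a b,
      φ a b = R (newton_res T hN a * newton_res T hN b - newton_res T hN (a * b)) :=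
    ⟨LinearMap.mk₂ ℂ
      (fun a b => R (newton_res T hN a * newton_res T hN b - newton_res T hN (a * b)))
      (fun a a' b => by rw [← map_add R, add_mul, map_add, map_add, add_mul]; congr 1; abel)
      (fun r a b => by
        rw [← map_smul R, smul_mul_assoc, map_smul, map_smul, smul_mul_assoc, smul_sub])
      (fun a b b' => by rw [← map_add R, mul_add, map_add, map_add, mul_add]; congr 1; abel)
      (fun r a b => by
        rw [← map_smul R, mul_smul_comm, map_smul, map_smul, mul_smul_comm, smul_sub]),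
      fun _ _ => rfl⟩
  have e1 : ∀ a b, T (φ a b) = T a * T b - T (a * b) := fun a b => by rw [hφ, r1]; rfl
  have e2 : ∀ a b, T (a * b + φ a b) = T a * T b := fun a b => by rw [map_add, e1]; abel
  obtain ⟨χ, c1, c2, c3⟩ := newton_alg (fun φ _ => coh2 M φ) (fun f _ => coh3 M f) φ hd0 hd
    (fun a b => by
      rw [hφ]
      refine (r3 _).trans ?_
      have := hm a b
      change 2 * ‖T a * T b - T (a * b)‖ ≤ _
      linarith)
    (fun a b c => inj _ _ (by rw [e2, e2, e2, e2, mul_assoc]))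
    (fun a b => inj _ _ (by rw [hs, e1, e1, ← star_mul, hs, hs, hs, star_sub, star_mul]))
  refine ⟨T ∘ₗ (LinearMap.id + χ), fun x => hN _, fun x => ?_, fun x => ?_, fun a b => ?_⟩
  · change T (star x + χ (star x)) = star (T (x + χ x))
    rw [c1, ← star_add, hs]
  · change ‖T (x + χ x) - T x‖ ≤ _
    rw [map_add, add_sub_cancel_left]
    have := mul_nonneg hd0 (norm_nonneg x)
    linarith [hu (χ x), c2 x]
  · change ‖T (a + χ a) * T (b + χ b) - T (a * b + χ (a * b))‖ ≤ _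
    rw [← e2, ← map_sub]
    linarith [hu ((a + χ a) * (b + χ b) + φ (a + χ a) (b + χ b) - (a * b + χ (a * b))), c3 a b]

theorem newton {t : ℝ} (ht0 : 0 ≤ t) (ht : t ≤ 1 / 4000) (hT : LinN M N 1 t)
    (h : NearV N M (1 / 4)) :
    ∃ π : M →ₗ[ℂ] (H →L[ℂ] H), (∀ x, π x ∈ N) ∧ (∀ x y, π (x * y) = π x * π y) ∧ π 1 = 1 ∧
      (∀ x, π (star x) = star (π x)) ∧ ∀ x : M, ‖π x - x‖ ≤ 200 * t * ‖x‖ := by
  obtain ⟨T₀, hN₀, hT₀⟩ := hT
  simp only [mul_one] at hT₀
  let P : ℕ → (M →ₗ[ℂ] (H →L[ℂ] H)) → Prop := fun k T => (∀ x, T x ∈ N) ∧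
    (∀ x, T (star x) = star (T x)) ∧
    (∀ x : M, ‖T x - x‖ ≤ (t + 160 * t * (1 - (1 / 2) ^ k)) * ‖x‖) ∧
    ∀ a b, ‖T a * T b - T (a * b)‖ ≤ 4 * t * (1 / 2) ^ k * ‖a‖ * ‖b‖
  have pw : ∀ k : ℕ, 0 ≤ t * (1 / 2 : ℝ) ^ k ∧ t * (1 / 2 : ℝ) ^ k ≤ t := fun k =>
    ⟨by positivity, mul_le_of_le_one_right ht0 (pow_le_one₀ (by norm_num) (by norm_num))⟩
  have h0 : P 0 (newton_sym T₀) := by
    have a1 : ∀ x : M, ‖newton_sym T₀ x - x‖ ≤ t * ‖x‖ := fun x => by
      have e : newton_sym T₀ x - x = (1 / 2 : ℂ) • ((T₀ x - x) +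
          star (T₀ (star x) - ((star x : M) : H →L[ℂ] H))) := by
        have : ((star x : M) : H →L[ℂ] H) = star (x : H →L[ℂ] H) := rfl
        rw [newton_sym_apply, this, star_sub, star_star]
        module
      rw [e]
      exact newton_half (hT₀ x) ((hT₀ _).trans (by rw [norm_star]))
    refine ⟨fun x => SMulMemClass.smul_mem _ (add_mem (hN₀ _) (star_mem (hN₀ _))),
      newton_sym_star T₀, fun x => by simpa using a1 x, fun a b => ?_⟩
    have e : newton_sym T₀ a * newton_sym T₀ b - newton_sym T₀ (a * b) =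
        (newton_sym T₀ a - a) * newton_sym T₀ b + a * (newton_sym T₀ b - b) -
          (newton_sym T₀ (a * b) - ((a * b : M) : H →L[ℂ] H)) := by
      have : ((a * b : M) : H →L[ℂ] H) = a * b := rfl
      rw [this]
      noncomm_ring
    have b1 := norm_mul_le_of_le (a1 a) (newton_up a1 b)
    have b2 : ‖(a : H →L[ℂ] H) * (newton_sym T₀ b - b)‖ ≤ ‖a‖ * (t * ‖b‖) :=
      norm_mul_le_of_le le_rfl (a1 b)
    have b3 := (a1 (a * b)).trans (mul_le_mul_of_nonneg_left (norm_mul_le a b) ht0)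
    rw [e]
    refine (norm_sub_le_of_le (norm_add_le_of_le b1 b2) b3).trans ?_
    have q : 0 ≤ t * (‖a‖ * ‖b‖) := by positivity
    have q1 := mul_le_mul_of_nonneg_right ht q
    rw [pow_zero]
    nlinarith
  have hstep : ∀ k T, P k T → ∃ T', P (k + 1) T' ∧
      ∀ x, ‖T' x - T x‖ ≤ 80 * t * ‖x‖ * (1 / 2) ^ k := by
    rintro k T ⟨p1, p2, p3, p4⟩
    obtain ⟨w1, w2⟩ := pw k
    obtain ⟨T', q1, q2, q3, q4⟩ := newton_step T p1 (fun x => (p3 x).trans
      (mul_le_mul_of_nonneg_right (by linarith) (norm_nonneg _))) h p2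
      (d := 4 * t * (1 / 2) ^ k) (by linarith) (by linarith) p4
    refine ⟨T', ⟨q1, q2, fun x => ?_, fun a b => (q4 a b).trans (le_of_eq (by ring))⟩,
      fun x => (q3 x).trans (le_of_eq (by ring))⟩
    have := norm_add_le_of_le (q3 x) (p3 x)
    rw [sub_add_sub_cancel] at this
    exact this.trans (le_of_eq (by ring))
  choose F hF hF' using hstep
  let s : (k : ℕ) → {T // P k T} := fun k =>
    Nat.rec ⟨newton_sym T₀, h0⟩ (fun k T => ⟨F k T.1 T.2, hF k T.1 T.2⟩) k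
  have hs : ∀ k x, ‖(s (k + 1)).1 x - (s k).1 x‖ ≤ 80 * t * ‖x‖ * (1 / 2) ^ k := fun k x =>
    hF' k (s k).1 (s k).2 x
  have hc : ∀ x, ∃ y, Filter.Tendsto (fun k => (s k).1 x) Filter.atTop (nhds y) := fun x =>
    cauchySeq_tendsto_of_complete (cauchySeq_of_le_geometric (1 / 2) (80 * t * ‖x‖)
      (by norm_num) fun k => by rw [dist_comm, dist_eq_norm]; exact hs k x)
  choose f hf using hc
  let π : M →ₗ[ℂ] (H →L[ℂ] H) := linearMapOfTendsto f (fun k => (s k).1) (tendsto_pi_nhds.2 hf)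
  have hπ : ∀ x, Filter.Tendsto (fun k => (s k).1 x) Filter.atTop (nhds (π x)) := hf
  have a1 : ∀ x y, π (x * y) = π x * π y := fun x y => by
    have l1 := (((hπ x).mul (hπ y)).sub (hπ (x * y))).norm
    have l2 : Filter.Tendsto (fun k : ℕ => 4 * t * (1 / 2 : ℝ) ^ k * ‖x‖ * ‖y‖) Filter.atTop
        (nhds (4 * t * 0 * ‖x‖ * ‖y‖)) :=
      (((tendsto_pow_atTop_nhds_zero_of_lt_one (by norm_num) (by norm_num)).const_mul _).mul_const
        _).mul_const _
    have := le_of_tendsto_of_tendsto' l1 l2 fun k => (s k).2.2.2.2 x y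
    rw [mul_zero, zero_mul, zero_mul] at this
    exact (sub_eq_zero.1 (norm_le_zero_iff.1 this)).symm
  have a2 : ∀ x : M, ‖π x - x‖ ≤ 200 * t * ‖x‖ := fun x =>
    le_of_tendsto' ((hπ x).sub_const _).norm fun k => ((s k).2.2.2.1 x).trans
      (mul_le_mul_of_nonneg_right (by linarith [(pw k).1]) (norm_nonneg _))
  refine ⟨π, fun x => (vn_isClosed N).mem_of_tendsto (hπ x)
    (Filter.Eventually.of_forall fun k => (s k).2.1 x), a1, ?_, fun x => ?_, a2⟩
  · have b1 : ‖(1 : M)‖ ≤ 1 := ContinuousLinearMap.norm_id_le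
    have b2 : ‖π 1 - 1‖ ≤ 1 / 2 := (a2 1).trans (by nlinarith)
    obtain ⟨y, -, y2, -⟩ := inv_near b2 le_rfl
    rw [add_sub_cancel] at y2
    have b3 := a1 1 1
    rw [one_mul] at b3
    calc π 1 = y * π 1 * π 1 := by rw [y2, one_mul]
      _ = 1 := by rw [mul_assoc, ← b3, y2]
  · refine tendsto_nhds_unique (hπ (star x)) ?_
    simp only [fun k => (s k).2.2.1 x]
    exact (hπ x).star

theorem lin_conj {t : ℝ} (ht0 : 0 < t) (ht : t ≤ 1 / 10 ^ 6) (hT : LinN M N 1 t)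
    (h : NearV N M (1 / 4)) : Conj M N (10 ^ 6 * t) := by
  obtain ⟨π, p1, p2, p3, p4, p5⟩ := newton ht0.le (ht.trans (by norm_num)) hT h
  obtain ⟨w, hw, w1, w2⟩ := spatial M π (map_add π) (map_smul π) p2 p3 p4 (c := 200 * t)
    (by positivity) (by norm_num at ht ⊢; linarith) p5
  obtain ⟨R, r1, -, -⟩ := newton_inv π p1 (fun x => (p5 x).trans
    (mul_le_mul_of_nonneg_right (by norm_num at ht ⊢; linarith) (norm_nonneg _))) h
  refine ⟨w, hw, w1.trans (by linarith), fun x => ⟨fun hx => ?_, fun hx => ?_⟩⟩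
  · rw [w2 ⟨x, hx⟩]
    exact p1 _
  · have e := (w2 (R ⟨_, hx⟩)).trans (r1 ⟨_, hx⟩)
    have u : star w * w = 1 := hw.1
    have c : ∀ z : H →L[ℂ] H, star w * (w * z * star w) * w = z := fun z => by
      have : star w * (w * z * star w) * w = (star w * w) * z * (star w * w) := by
        simp only [mul_assoc]
      rw [this, u, one_mul, mul_one]
    have e2 : (R ⟨_, hx⟩ : H →L[ℂ] H) = x := by
      rw [← c (R ⟨_, hx⟩ : H →L[ℂ] H), e, c]
    rw [← e2]
    exact (R ⟨_, hx⟩).2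

end Vale.Agent.KK
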