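import Vale.Agent.KK.Glue
import Vale.Agent.KK.IL
import Vale.Agent.KK.Newton

/-!
kk_com: near_comm twice and Conj.of_comm.
kk_loc: given c take t = min c 1 / 10^6, c2 = t / 10, delta2 from the hypothesis. For delta small and z0: e in M', f in N' with
|e - f| <= 1280 delta (near_comm, near_proj), w e w* = f with |w - 1| <= 6400 delta (conj_proj), N1 = vnConj w N, e in N1',
near_vnConj, rst_near, the hypothesis gives Conj (rstAlg i M) (rstAlg i N1) c2; z = csupp M' e (central in M by commutant_commutant,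
z0 z = z as (1 - z0) e = 0, z is not zero), il, linN_vnConj, glue, lin_conj.
-/

namespace Vale.Agent.KK

open Vale.Agent.P104
open scoped InnerProductSpace

universe u

theorem kk_mono {C C' : Cls.{u}} (h : KKp C)
    (hC : ∀ (H : Type u) [NormedAddCommGroup H] [InnerProductSpace ℂ H] [CompleteSpace H]
      (M : VonNeumannAlgebra H), C' H M → C H M) : KKp C' := by
  intro c hc
  obtain ⟨δ, hδ, h⟩ := h c hc
  exact ⟨δ, hδ, fun H _ _ _ M N hM h1 h2 => h H M N (hC H M hM) h1 h2⟩

theorem kk_com {C : Cls.{u}} (h : KKp C) : KKp (Com C) := by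
  intro c hc
  obtain ⟨δ, hδ, h⟩ := h c hc
  refine ⟨δ / 160, by positivity, fun H _ _ _ M N hM h1 h2 => ?_⟩
  have e : 160 * (δ / 160) = δ := by ring
  have a1 := near_comm (by positivity) h1
  have a2 := near_comm (by positivity) h2
  rw [e] at a1 a2
  exact Conj.of_comm (h H M.commutant N.commutant hM a2 a1)

theorem kk_loc {C : Cls.{u}} (h : KKp C) : KKp (Loc C) := by
  intro c hc
  set t : ℝ := min c 1 / 10 ^ 6 with ht
  have hm0 : 0 < min c 1 := lt_min hc one_pos
  have ht0 : 0 < t := by positivity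
  have ht1 : t ≤ 1 / 10 ^ 6 := div_le_div_of_nonneg_right (min_le_right _ _) (by positivity)
  have htc : 10 ^ 6 * t ≤ c := by
    have : 10 ^ 6 * t = min c 1 := by rw [ht]; field_simp
    rw [this]
    exact min_le_left _ _
  obtain ⟨δ₂, hδ₂, h⟩ := h (t / 10) (by positivity)
  set δ : ℝ := min (t / 10 ^ 6) (δ₂ / 12801) with hδ
  have hδ0 : 0 < δ := lt_min (by positivity) (by positivity)
  have hδt : δ ≤ t / 10 ^ 6 := min_le_left _ _
  have hδ2 : δ ≤ δ₂ / 12801 := min_le_right _ _
  have hδs : δ ≤ 1 / 10 ^ 12 := by linarith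
  refine ⟨δ, hδ0, fun H _ _ _ M N hM h1 h2 => ?_⟩
  have hg : LinN M N 1 (t / 2 + 40 * δ) := by
    refine glue hδ0.le (by linarith) (by positivity) h1 h2 fun z₀ hz₀ hz₀' => ?_
    obtain ⟨e, heM, hep, he0, hze, H₀, i1, i2, i3, i, hi, hC⟩ := hM z₀ hz₀ hz₀'
    obtain ⟨f, hfN, hfp, hef⟩ := near_proj (c := 160 * δ) (by linarith)
      (near_comm hδ0.le h2) hep heM (by positivity)
    obtain ⟨w, hw, hw1, hwe⟩ := conj_proj hep hfp hef (by linarith)
    have heN : e ∈ (vnConj w N).commutant := by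
      rw [mem_vnConj_comm hw, hwe]
      exact hfN
    obtain ⟨n1, n2⟩ := near_vnConj hw hw1 hδ0.le h1 h2
    have hd0 : 0 ≤ δ + 2 * (5 * (8 * (160 * δ))) := by positivity
    have r1 := rst_near hep heM heN hi hd0 n1
    have r2 := rst_near hep heN heM hi hd0 n2
    have hcj : Conj (rstAlg i M) (rstAlg i (vnConj w N)) (t / 10) :=
      h H₀ _ _ hC (r1.mono (by linarith)) (r2.mono (by linarith))
    obtain ⟨z, hz, hz1, hz2⟩ := csupp M.commutant heM
    have hzM : CProj M z := ⟨hz.proj, by simpa [M.commutant_commutant] using hz.cen, hz.mem⟩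
    have hmin : ∀ x ∈ M, x * e = 0 → x * z = 0 := by
      intro x hx hxe
      refine hz2 x fun y hy => ?_
      rw [← comm_of_mem hy hx, mul_assoc, hxe, mul_zero]
    refine ⟨z, hzM, ?_, ?_, ?_⟩
    · intro h0
      rw [h0, zero_mul] at hz1
      exact he0 hz1.symm
    · have := hmin (1 - z₀) hz₀.one_sub.mem (by rw [sub_mul, one_mul, hze, sub_self])
      rw [sub_mul, one_mul, sub_eq_zero] at this
      exact this.symm
    · have l1 := il hep heM heN hi hd0 (by linarith) n1 n2 hcj hzM hz1 hmin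
      have l2 := linN_vnConj hw hw1 hzM.proj.norm_le l1
      exact l2.mono (by linarith)
  have hl : LinN M N 1 t := hg.mono (by linarith)
  exact (lin_conj ht0 ht1 hl (h2.mono (by linarith))).mono htc

end Vale.Agent.KK
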