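import Vale.Agent.KK.Mirror

/-!
Selections which are close in norm and much closer at xi.

trunc: z in M with |T xi - z xi| <= b. e = cut of z* z at (2a)^2, m = z (1 - e), |m| <= 2a. r = mir e is a contraction in M'
with r xi = e xi and r z xi = z e xi. 2a |e xi| <= |z e xi| <= |r T xi| + b <= |T e xi| + 2b <= a |e xi| + 2b,
so |z e xi| <= 4 b, total 5 b.
succ_approx: y_0 = y, y_{j+1} = y_j - y'_j, |y_j| <= 2^{-j} |y|, b = sum b_j (norm convergent, B closed submodule),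
b - y = sum (b_j - y'_j).
sel_b0: T = b - y0, |T| <= E |b|, [T, x] = [b, x], trunc for Std M' (scale: b = 0 is trivial), then
(b - y) x xi = [b, x] xi + x (b - y) xi.
sel_b: succ_approx, b0 close to y, y' from sel_b0.
sel_a0: P t := every n in A has x in M with |n - x| <= 3 E |n| and |(n - x) xi| <= t |n|. P (3E). P t => P (161 kappa + t/2):
for y in M' and s = b - y from sel_b, [n, y] = - [n, s], |n s xi| <= 14 kappa |n||y|, |s n xi| <= |s x xi| + |s| |(n - x) xi|;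
trunc with T = n - x0. Induction gives P (322 kappa + 3E / 2^k), so P (323 kappa). Then Xi.of_comm:
(n - x) y xi = [n, y] xi + y (n - x) xi.
sel_a: succ_approx.
-/

namespace Vale.Agent.KK

open Vale.Agent.P104
open scoped InnerProductSpace

universe u

variable {H : Type*} [NormedAddCommGroup H] [InnerProductSpace ℂ H] [CompleteSpace H]
  {M : VonNeumannAlgebra H} {ξ : H}

theorem trunc (h : Std M ξ) {T : H →L[ℂ] H} {a b : ℝ} (ha : ‖T‖ ≤ a) (hb : 0 < b)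
    (hT : ∀ y ∈ M.commutant, ‖cm T y ξ‖ ≤ b * ‖y‖) :
    ∃ m ∈ M, ‖m‖ ≤ 2 * a ∧ ‖(T - m) ξ‖ ≤ 5 * b := by
  have ha0 : 0 ≤ a := (norm_nonneg T).trans ha
  obtain ⟨z, hz, hzb⟩ := h.cyc (T ξ) b hb
  obtain ⟨e, heM, he, -, hlo, hup, -⟩ := cut M (mul_mem (star_mem hz) hz)
    (IsSelfAdjoint.star_mul_self z) ((2 * a) ^ 2)
  simp only [qf_star_mul_self] at hlo hup
  have hr := mir_mem h heM
  have hrn : ‖mir M ξ e‖ ≤ 1 := (mir_norm h heM).trans he.norm_le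
  have hrξ : mir M ξ e ξ = e ξ := by rw [mir_xi h heM, he.isSelfAdjoint.star_eq]
  have hrz : mir M ξ e (z ξ) = z (e ξ) := by
    have := congrArg (fun S : H →L[ℂ] H => S ξ) (comm_of_mem hr hz)
    simpa only [mul_apply_eq_comp, hrξ] using this
  refine ⟨z * (1 - e), mul_mem hz (sub_mem (one_mem _) heM), ?_, ?_⟩
  · refine ContinuousLinearMap.opNorm_le_bound _ (by positivity) fun η => ?_
    have h1 := hup η
    have h2 : ‖η - e η‖ ≤ ‖η‖ := by
      have := (1 - e).le_opNorm η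
      have h3 := he.one_sub.norm_le
      simp only [sub_apply, one_apply_eq_self] at this
      nlinarith [norm_nonneg η]
    have h4 : ‖z (η - e η)‖ ≤ 2 * a * ‖η - e η‖ := by
      refine abs_le_of_sq_le_sq' ?_ (by positivity) |>.2
      rw [mul_pow]
      exact h1
    show ‖z (η - e η)‖ ≤ 2 * a * ‖η‖
    exact h4.trans (mul_le_mul_of_nonneg_left h2 (by positivity))
  · have h1 : 2 * a * ‖e ξ‖ ≤ ‖z (e ξ)‖ := by
      refine abs_le_of_sq_le_sq' ?_ (norm_nonneg _) |>.2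
      rw [mul_pow]
      exact hlo ξ
    have h2 : ‖T (e ξ) - mir M ξ e (T ξ)‖ ≤ b := by
      have := hT _ hr
      simp only [cm, sub_apply, mul_apply_eq_comp, hrξ] at this
      nlinarith
    have h3 : ‖mir M ξ e (T ξ - z ξ)‖ ≤ b := by
      have := (mir M ξ e).le_opNorm (T ξ - z ξ)
      nlinarith [norm_nonneg (T ξ - z ξ)]
    have h4 : ‖T (e ξ)‖ ≤ a * ‖e ξ‖ :=
      (T.le_opNorm _).trans (mul_le_mul_of_nonneg_right ha (norm_nonneg _))
    have h5 : z (e ξ) = T (e ξ) - (T (e ξ) - mir M ξ e (T ξ)) - mir M ξ e (T ξ - z ξ) := by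
      rw [map_sub, hrz]
      abel
    have h6 : ‖z (e ξ)‖ ≤ a * ‖e ξ‖ + b + b := by
      calc ‖z (e ξ)‖ = ‖T (e ξ) - (T (e ξ) - mir M ξ e (T ξ)) - mir M ξ e (T ξ - z ξ)‖ := by
            rw [← h5]
        _ ≤ ‖T (e ξ)‖ + ‖T (e ξ) - mir M ξ e (T ξ)‖ + ‖mir M ξ e (T ξ - z ξ)‖ :=
            (norm_sub_le _ _).trans (add_le_add (norm_sub_le _ _) le_rfl)
        _ ≤ _ := by linarith
    have h7 : (T - z * (1 - e)) ξ = (T ξ - z ξ) + z (e ξ) := by
      simp only [sub_apply, mul_apply_eq_comp,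
        one_apply_eq_self, map_sub]
      abel
    rw [h7]
    refine (norm_add_le _ _).trans ?_
    linarith

theorem succ_approx (P : VonNeumannAlgebra H) (B : Submodule ℂ (H →L[ℂ] H))
    (hB : IsClosed (B : Set (H →L[ℂ] H))) {α β : ℝ} (hα : 0 ≤ α) (hβ : 0 ≤ β)
    (h : ∀ y ∈ P, ∃ b ∈ B, ∃ y' ∈ P, ‖b - y'‖ ≤ α * ‖y‖ ∧ Xi M ξ (b - y') (β * ‖y‖) ∧
      ‖y - y'‖ ≤ ‖y‖ / 2) :
    ∀ y ∈ P, ∃ b ∈ B, ‖b - y‖ ≤ 2 * α * ‖y‖ ∧ Xi M ξ (b - y) (2 * β * ‖y‖) := by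
  intro y hy
  choose! fb hfb fy hfy h1 h2 h3 using h
  set Y : ℕ → H →L[ℂ] H := fun j => (fun w => w - fy w)^[j] y with hY
  have hY0 : Y 0 = y := rfl
  have hYs : ∀ j, Y (j + 1) = Y j - fy (Y j) := fun j => Function.iterate_succ_apply' _ _ _
  have hYP : ∀ j, Y j ∈ P := fun j => by
    induction j with
    | zero => exact hy
    | succ j ih => rw [hYs]; exact sub_mem ih (hfy _ ih)
  have hYn : ∀ j, ‖Y j‖ ≤ ‖y‖ * (1 / 2) ^ j := fun j => by
    induction j with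
    | zero => simp [hY0]
    | succ j ih =>
      rw [hYs, pow_succ]
      have := h3 _ (hYP j)
      linarith
  set d : ℕ → H →L[ℂ] H := fun j => fb (Y j) - fy (Y j) with hd
  have hdn : ∀ j, ‖d j‖ ≤ α * ‖y‖ * (1 / 2) ^ j := fun j => by
    rw [mul_assoc]
    exact (h1 _ (hYP j)).trans (mul_le_mul_of_nonneg_left (hYn j) hα)
  have hgeo : ∀ c : ℝ, HasSum (fun j : ℕ => c * (1 / 2 : ℝ) ^ j) (c * 2) := fun c =>
    hasSum_geometric_two.mul_left c
  have hsum : Summable d := Summable.of_norm_bounded (hgeo _).summable hdn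
  have hpart : ∀ n, ∑ j ∈ Finset.range n, fb (Y j) = ∑ j ∈ Finset.range n, d j + (y - Y n) :=
    fun n => by
      induction n with
      | zero => simp [hY0]
      | succ n ih =>
        rw [Finset.sum_range_succ, Finset.sum_range_succ, ih, hYs]
        simp only [hd]
        abel
  have hY' : Filter.Tendsto Y Filter.atTop (nhds 0) := by
    refine squeeze_zero_norm hYn ?_
    simpa using (tendsto_pow_atTop_nhds_zero_of_lt_one (r := (1 / 2 : ℝ)) (by norm_num)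
      (by norm_num)).const_mul ‖y‖
  have hlim : Filter.Tendsto (fun n => ∑ j ∈ Finset.range n, fb (Y j)) Filter.atTop
      (nhds (∑' j, d j + y)) := by
    simp only [hpart]
    have := hsum.hasSum.tendsto_sum_nat.add (hY'.const_sub y)
    rwa [sub_zero] at this
  refine ⟨∑' j, d j + y, ?_, ?_, ?_⟩
  · exact hB.mem_of_tendsto hlim (Filter.Eventually.of_forall fun n =>
      B.sum_mem fun j _ => hfb _ (hYP j))
  · rw [add_sub_cancel_right]
    have := tsum_of_norm_bounded (hgeo (α * ‖y‖)) hdn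
    linarith
  · rw [add_sub_cancel_right]
    intro x hx
    have hs := (ContinuousLinearMap.apply ℂ H (x ξ)).hasSum hsum.hasSum
    simp only [ContinuousLinearMap.apply_apply] at hs
    have hb : ∀ j, ‖d j (x ξ)‖ ≤ β * ‖y‖ * ‖x‖ * (1 / 2) ^ j := fun j => by
      refine (h2 _ (hYP j) x hx).trans ?_
      have := mul_le_mul_of_nonneg_right (mul_le_mul_of_nonneg_left (hYn j) hβ) (norm_nonneg x)
      linarith
    have := tsum_of_norm_bounded (hgeo (β * ‖y‖ * ‖x‖)) hb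
    rw [hs.tsum_eq] at this
    linarith

omit [CompleteSpace H] in
theorem sel_split (S x : H →L[ℂ] H) (ξ : H) : S (x ξ) = cm S x ξ + x (S ξ) := by
  simp only [cm, sub_apply, mul_apply_eq_comp]
  abel

omit [CompleteSpace H] in
theorem sel_cm_neg (S x : H →L[ℂ] H) (ξ : H) : ‖cm S x ξ‖ = ‖cm x S ξ‖ := by
  simp only [cm, sub_apply]
  exact norm_sub_rev _ _

omit [CompleteSpace H] in
theorem sel_cm_sub {S y x : H →L[ℂ] H} (h : y * x = x * y) : cm (S - y) x = cm S x := by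
  simp only [cm, sub_mul, mul_sub, h]
  abel

omit [CompleteSpace H] in
theorem sel_norm_le {x y : H →L[ℂ] H} {c : ℝ} (h : ‖x - y‖ ≤ c * ‖x‖) : ‖y‖ ≤ (1 + c) * ‖x‖ := by
  have : y = x - (x - y) := by abel
  calc ‖y‖ = ‖x - (x - y)‖ := by rw [← this]
    _ ≤ ‖x‖ + ‖x - y‖ := norm_sub_le _ _
    _ ≤ _ := by linarith

theorem sel_zero {t : ℝ} (ht : 0 ≤ t) : Xi M ξ 0 t := fun x _ => by
  simp only [zero_apply, norm_zero]
  positivity

variable {A B : Set (H →L[ℂ] H)} {E κ : ℝ}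

theorem sel_b0 (h : Std M ξ) (hD : Duo M A B E) (hK : K0 M ξ B κ) (hκ : 0 < κ) :
    ∀ b ∈ B, ∃ y ∈ M.commutant, ‖b - y‖ ≤ 3 * E * ‖b‖ ∧ Xi M ξ (b - y) (6 * κ * ‖b‖) := by
  intro b hb
  by_cases hb0 : b = 0
  · subst hb0
    refine ⟨0, zero_mem _, by simp, ?_⟩
    rw [sub_zero]
    exact sel_zero (by simp)
  have hbp : 0 < ‖b‖ := norm_pos_iff.2 hb0
  obtain ⟨y0, hy0, hn⟩ := hD.n4 b hb
  have hcm : ∀ {y : H →L[ℂ] H}, y ∈ M.commutant → ∀ x ∈ M,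
      ‖cm (b - y) x ξ‖ ≤ κ * ‖b‖ * ‖x‖ := fun hy x hx => by
    rw [sel_cm_sub (comm_of_mem hy hx), sel_cm_neg]
    have := hK x hx b hb
    linarith
  obtain ⟨m, hm, hm1, hm2⟩ := trunc h.comm hn (mul_pos hκ hbp) fun x hx =>
    hcm hy0 x (by rwa [M.commutant_commutant] at hx)
  have e : b - (y0 + m) = b - y0 - m := by abel
  refine ⟨y0 + m, add_mem hy0 hm, ?_, fun x hx => ?_⟩
  · rw [e]
    have := norm_sub_le (b - y0) m
    linarith
  · rw [sel_split]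
    refine (norm_add_le _ _).trans ?_
    have h1 := hcm (add_mem hy0 hm) x hx
    have h2 := x.le_opNorm ((b - (y0 + m)) ξ)
    rw [← e] at hm2
    have h3 := mul_le_mul_of_nonneg_left hm2 (norm_nonneg x)
    linarith

theorem sel_b (h : Std M ξ) (hD : Duo M A B E) (hE : E ≤ 1 / 100) (hK : K0 M ξ B κ)
    (hκ : 0 < κ) :
    ∀ y ∈ M.commutant, ∃ b ∈ B, ‖b - y‖ ≤ 7 * E * ‖y‖ ∧ Xi M ξ (b - y) (14 * κ * ‖y‖) := by
  obtain ⟨V, rfl⟩ := hD.subB
  have hE0 := hD.pos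
  intro y hy
  obtain ⟨b, hb, h1, h2⟩ := succ_approx (M := M) (ξ := ξ) M.commutant V hD.clB
    (α := 7 / 2 * E) (β := 7 * κ) (by positivity) (by positivity) (fun y hy => by
      obtain ⟨b0, hb0, hn⟩ := hD.n3 y hy
      obtain ⟨y', hy', k1, k2⟩ := sel_b0 h hD hK hκ b0 hb0
      have hb := sel_norm_le hn
      have hy0 := norm_nonneg y
      have hb' : ‖b0‖ ≤ 101 / 100 * ‖y‖ := hb.trans (by nlinarith)
      have k3 : ‖b0 - y'‖ ≤ 7 / 2 * E * ‖y‖ := k1.trans (by nlinarith [mul_nonneg hE0 hy0])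
      refine ⟨b0, hb0, y', hy', k3, k2.mono (by nlinarith [mul_nonneg hκ.le hy0]), ?_⟩
      have := norm_sub_le_norm_sub_add_norm_sub y b0 y'
      nlinarith) y hy
  exact ⟨b, hb, h1.trans (le_of_eq (by ring)), h2.mono (le_of_eq (by ring))⟩

theorem sel_a_cm (h : Std M ξ) (hD : Duo M A B E) (hE : E ≤ 1 / 100) (hK : K0 M ξ B κ)
    (hκ : 0 < κ) {t : ℝ} (ht : 0 ≤ t) {n x : H →L[ℂ] H} (hn : n ∈ A) (hx : x ∈ M)
    (h1 : ‖n - x‖ ≤ 3 * E * ‖n‖) (h2 : ‖(n - x) ξ‖ ≤ t * ‖n‖) :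
    ∀ y ∈ M.commutant, ‖cm n y ξ‖ ≤ (29 * κ + 7 / 100 * t) * ‖n‖ * ‖y‖ := by
  intro y hy
  obtain ⟨b, hb, k1, k2⟩ := sel_b h hD hE hK hκ y hy
  have hE0 := hD.pos
  have hn0 := norm_nonneg n
  have hy0 := norm_nonneg y
  have e : cm n y ξ = (b - y) (x ξ) + (b - y) ((n - x) ξ) - n ((b - y) ξ) := by
    have := congrArg (fun S : H →L[ℂ] H => S ξ) (hD.comm n hn b hb)
    simp only [mul_apply_eq_comp] at this
    simp only [cm, sub_apply, mul_apply_eq_comp, map_sub, this]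
    abel
  have hxn : ‖x‖ ≤ 103 / 100 * ‖n‖ := (sel_norm_le h1).trans (by nlinarith)
  have a1 : ‖(b - y) (x ξ)‖ ≤ 14 * κ * ‖y‖ * (103 / 100 * ‖n‖) :=
    (k2 x hx).trans (mul_le_mul_of_nonneg_left hxn (by positivity))
  have a2 : ‖(b - y) ((n - x) ξ)‖ ≤ (7 / 100 * ‖y‖) * (t * ‖n‖) :=
    ((b - y).le_opNorm _).trans (mul_le_mul (k1.trans (by nlinarith)) h2 (norm_nonneg _)
      (by positivity))
  have a3 : ‖n ((b - y) ξ)‖ ≤ ‖n‖ * (14 * κ * ‖y‖) :=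
    (n.le_opNorm _).trans (mul_le_mul_of_nonneg_left (k2.apply_le (by positivity)) hn0)
  rw [e]
  refine (norm_sub_le _ _).trans ((add_le_add (norm_add_le _ _) le_rfl).trans ?_)
  have : 0 ≤ κ * ‖n‖ * ‖y‖ := by positivity
  nlinarith

theorem sel_a_step (h : Std M ξ) (hD : Duo M A B E) (hE : E ≤ 1 / 100) (hK : K0 M ξ B κ)
    (hκ : 0 < κ) {t : ℝ} (ht : 0 ≤ t)
    (hP : ∀ n ∈ A, ∃ x ∈ M, ‖n - x‖ ≤ 3 * E * ‖n‖ ∧ ‖(n - x) ξ‖ ≤ t * ‖n‖) :
    ∀ n ∈ A, ∃ x ∈ M, ‖n - x‖ ≤ 3 * E * ‖n‖ ∧ ‖(n - x) ξ‖ ≤ (161 * κ + t / 2) * ‖n‖ := by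
  intro n hn
  by_cases hn0 : n = 0
  · subst hn0
    exact ⟨0, zero_mem _, by simp, by simp⟩
  have hnp : 0 < ‖n‖ := norm_pos_iff.2 hn0
  obtain ⟨x, hx, h1, h2⟩ := hP n hn
  obtain ⟨x0, hx0, hn'⟩ := hD.n2 n hn
  obtain ⟨m, hm, hm1, hm2⟩ := trunc h hn' (b := (29 * κ + 7 / 100 * t) * ‖n‖) (by positivity)
    fun y hy => by
      rw [sel_cm_sub (comm_of_mem hy hx0).symm]
      exact sel_a_cm h hD hE hK hκ ht hn hx h1 h2 y hy
  have e : n - (x0 + m) = n - x0 - m := by abel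
  refine ⟨x0 + m, add_mem hx0 hm, ?_, ?_⟩
  · rw [e]
    have := norm_sub_le (n - x0) m
    linarith
  · rw [e]
    refine hm2.trans ?_
    nlinarith [mul_nonneg hκ.le hnp.le, mul_nonneg ht hnp.le]

theorem sel_a0 (h : Std M ξ) (hD : Duo M A B E) (hE : E ≤ 1 / 100) (hK : K0 M ξ B κ)
    (hκ : 0 < κ) :
    ∀ n ∈ A, ∃ x ∈ M, ‖n - x‖ ≤ 3 * E * ‖n‖ ∧ Xi M ξ (n - x) (400 * κ * ‖n‖) := by
  have hE0 := hD.pos
  have hP : ∀ k : ℕ, ∀ n ∈ A, ∃ x ∈ M, ‖n - x‖ ≤ 3 * E * ‖n‖ ∧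
      ‖(n - x) ξ‖ ≤ (322 * κ + 3 * E * (1 / 2) ^ k) * ‖n‖ := fun k => by
    induction k with
    | zero =>
      intro n hn
      obtain ⟨x, hx, h1⟩ := hD.n2 n hn
      have h0 := norm_nonneg n
      have h2 := (n - x).le_opNorm ξ
      have h3 := mul_le_mul_of_nonneg_left h.nrm (norm_nonneg (n - x))
      have h4 := mul_nonneg hE0 h0
      have h5 := mul_nonneg hκ.le h0
      refine ⟨x, hx, by nlinarith, ?_⟩
      rw [pow_zero]
      nlinarith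
    | succ k ih =>
      have := sel_a_step h hD hE hK hκ (by positivity) ih
      have e : 161 * κ + (322 * κ + 3 * E * (1 / 2) ^ k) / 2 =
          322 * κ + 3 * E * (1 / 2) ^ (k + 1) := by ring
      rwa [e] at this
  obtain ⟨k, hk⟩ := exists_pow_lt_of_lt_one hκ (show (1 / 2 : ℝ) < 1 by norm_num)
  intro n hn
  obtain ⟨x, hx, h1, h2⟩ := hP k n hn
  have h0 := norm_nonneg n
  have hk0 : (0 : ℝ) ≤ (1 / 2) ^ k := by positivity
  have h3 : ‖(n - x) ξ‖ ≤ 323 * κ * ‖n‖ :=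
    h2.trans (mul_le_mul_of_nonneg_right (by nlinarith) h0)
  refine ⟨x, hx, h1, Xi.of_comm h (by positivity) fun y hy => ?_⟩
  rw [sel_split, sel_cm_sub (comm_of_mem hy hx).symm]
  refine (norm_add_le _ _).trans ?_
  have h4 := sel_a_cm h hD hE hK hκ (by positivity) hn hx h1 h3 y hy
  have h5 := (y.le_opNorm _).trans (mul_le_mul_of_nonneg_left h3 (norm_nonneg y))
  have : 0 ≤ κ * ‖n‖ * ‖y‖ := by positivity
  nlinarith

theorem sel_a (h : Std M ξ) (hD : Duo M A B E) (hE : E ≤ 1 / 100) (hK : K0 M ξ B κ)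
    (hκ : 0 < κ) :
    ∀ x ∈ M, ∃ n ∈ A, ‖n - x‖ ≤ 7 * E * ‖x‖ ∧ Xi M ξ (n - x) (1000 * κ * ‖x‖) := by
  obtain ⟨V, rfl⟩ := hD.subA
  have hE0 := hD.pos
  intro y hy
  obtain ⟨b, hb, h1, h2⟩ := succ_approx (M := M) (ξ := ξ) M V hD.clA
    (α := 7 / 2 * E) (β := 500 * κ) (by positivity) (by positivity) (fun y hy => by
      obtain ⟨b0, hb0, hn⟩ := hD.n1 y hy
      obtain ⟨y', hy', k1, k2⟩ := sel_a0 h hD hE hK hκ b0 hb0
      have hb := sel_norm_le hn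
      have hy0 := norm_nonneg y
      have hb' : ‖b0‖ ≤ 101 / 100 * ‖y‖ := hb.trans (by nlinarith)
      have k3 : ‖b0 - y'‖ ≤ 7 / 2 * E * ‖y‖ := k1.trans (by nlinarith [mul_nonneg hE0 hy0])
      refine ⟨b0, hb0, y', hy', k3, k2.mono (by nlinarith [mul_nonneg hκ.le hy0]), ?_⟩
      have := norm_sub_le_norm_sub_add_norm_sub y b0 y'
      nlinarith) y hy
  exact ⟨b, hb, h1.trans (le_of_eq (by ring)), h2.mono (le_of_eq (by ring))⟩

end Vale.Agent.KK
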