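import Vale.Agent.KK.Red
import Vale.Agent.KK.Mirror
import Vale.Agent.P096.B

/-!
Algebras with a cyclic trace vector: the finite target theorem gives a linear lifting.
-/

namespace Vale.Agent.KK

open Vale.Agent.P104
open scoped InnerProductSpace

universe u

section

variable {H : Type*} [NormedAddCommGroup H] [InnerProductSpace ℂ H] [CompleteSpace H]
  {M : VonNeumannAlgebra H} {ξ : H} {x y : H →L[ℂ] H}

theorem Std.scale (h : Std M ξ) (h0 : ξ ≠ 0) : Std M ((‖ξ‖⁻¹ : ℂ) • ξ) := by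
  have hn : (‖ξ‖ : ℂ) ≠ 0 := by exact_mod_cast norm_ne_zero_iff.2 h0
  refine ⟨fun η ε hε => ?_, fun x hx => ?_, ?_⟩
  · obtain ⟨x, hx, h1⟩ := h.cyc η ε hε
    refine ⟨(‖ξ‖ : ℂ) • x, SMulMemClass.smul_mem _ hx, ?_⟩
    rwa [_root_.smul_apply, map_smul, smul_inv_smul₀ hn]
  · rw [map_smul, map_smul, norm_smul, norm_smul, h.tr x hx]
  · rw [norm_smul, norm_inv, Complex.norm_real, norm_norm, inv_mul_cancel₀ (norm_ne_zero_iff.2 h0)]

theorem Std.dense_orb (h : Std M ξ) : Dense (P132.orb M ξ) := by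
  refine Metric.dense_iff.2 fun η r hr => ?_
  obtain ⟨x, hx, h1⟩ := h.cyc η (r / 2) (by positivity)
  refine ⟨x ξ, ?_, x, hx, rfl⟩
  rw [Metric.mem_ball, dist_comm, dist_eq_norm]
  linarith

theorem mir_sub (h : Std M ξ) (hx : x ∈ M) (hy : y ∈ M) :
    mir M ξ (x - y) = mir M ξ x - mir M ξ y :=
  mir_eq h (sub_mem hx hy) (sub_mem (mir_mem h hx) (mir_mem h hy))
    (by rw [_root_.sub_apply, mir_xi h hx, mir_xi h hy, star_sub, _root_.sub_apply])

end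

theorem kk_std' : KKp StdC.{u} := by
  intro c hc
  obtain ⟨t, ht0, ht1, ht2⟩ : ∃ t : ℝ, 0 < t ∧ t ≤ 1 / 10 ^ 6 ∧ 10 ^ 6 * t ≤ c :=
    ⟨min (1 / 10 ^ 6) (c / 10 ^ 6), by positivity, min_le_left _ _,
      by linarith [min_le_right (1 / 10 ^ 6 : ℝ) (c / 10 ^ 6)]⟩
  obtain ⟨δ, hδ, hF⟩ := P096.partB.{u} t ht0
  obtain ⟨d, hd0, hd1, hd2⟩ : ∃ d : ℝ, 0 < d ∧ d ≤ 1 / 4 ∧ 4 * d ≤ δ :=
    ⟨min (1 / 4) (δ / 4), by positivity, min_le_left _ _,
      by linarith [min_le_right (1 / 4 : ℝ) (δ / 4)]⟩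
  refine ⟨d, hd0, fun H _ _ _ M N ⟨ξ, hξ⟩ h1 h2 => ?_⟩
  by_cases h0 : ξ = 0
  · have e : ∀ x : H →L[ℂ] H, x = 0 := fun x => hξ.ext fun a _ => by simp [h0]
    refine ⟨1, one_mem _, by simpa using hc.le, fun x => ?_⟩
    rw [e x]
    simp
  have hΩ := hξ.scale h0
  have hΩ1 : ‖(‖ξ‖⁻¹ : ℂ) • ξ‖ = 1 := by
    rw [norm_smul, norm_inv, Complex.norm_real, norm_norm, inv_mul_cancel₀ (norm_ne_zero_iff.2 h0)]
  set Ω := (‖ξ‖⁻¹ : ℂ) • ξ
  have := vn_isClosed N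
  have hu : ∀ v : unitary N.toStarSubalgebra, ‖((v : N.toStarSubalgebra) : H →L[ℂ] H)‖ ≤ 1 :=
    fun v => uni_norm_le ⟨congrArg Subtype.val v.2.1, congrArg Subtype.val v.2.2⟩
  choose y hy hy' using fun v : unitary N.toStarSubalgebra => h2 _ (v : N.toStarSubalgebra).2
  have k1 : ∀ v : unitary N.toStarSubalgebra,
      ‖((v : N.toStarSubalgebra) : H →L[ℂ] H) - y v‖ ≤ d := fun v =>
    (hy' v).trans (by nlinarith [hu v])
  have k2 : ∀ v, ‖y v‖ ≤ 1 + d := fun v => by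
    have := norm_sub_norm_le (y v) ((v : N.toStarSubalgebra) : H →L[ℂ] H)
    rw [norm_sub_rev] at this
    linarith [k1 v, hu v]
  have k3 : ‖y 1 - 1‖ ≤ δ := by
    have := k1 1
    rw [norm_sub_rev] at this
    exact le_trans this (by linarith)
  have k4 : ∀ v w, ‖y (v * w) - y v * y w‖ ≤ δ := fun v w => by
    set a : H →L[ℂ] H := ((v : N.toStarSubalgebra) : H →L[ℂ] H)
    set b : H →L[ℂ] H := ((w : N.toStarSubalgebra) : H →L[ℂ] H)
    have e : y (v * w) - y v * y w = a * (b - y w) + (a - y v) * y w - (a * b - y (v * w)) := by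
      noncomm_ring
    have a1 : ‖a * b - y (v * w)‖ ≤ d := k1 (v * w)
    have a2 : ‖a * (b - y w)‖ ≤ 1 * d := (norm_mul_le _ _).trans
      (mul_le_mul (hu v) (k1 w) (norm_nonneg _) zero_le_one)
    have a3 : ‖(a - y v) * y w‖ ≤ d * (1 + d) := (norm_mul_le _ _).trans
      (mul_le_mul (k1 v) (k2 w) (norm_nonneg _) hd0.le)
    rw [e]
    nlinarith [norm_sub_le (a * (b - y w) + (a - y v) * y w) (a * b - y (v * w)),
      norm_add_le (a * (b - y w)) ((a - y v) * y w)]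
  obtain ⟨Φ, hΦ⟩ := hF H N.toStarSubalgebra M Ω N.toStarSubalgebra.subtype.toLinearMap y
    (fun v => mir M Ω (star (y v))) hΩ1 hΩ.dense_orb hΩ.comm.dense_orb (fun x => le_rfl)
    (fun v => ⟨hy v, mir_mem hΩ (star_mem (hy v)), by rw [mir_xi hΩ (star_mem (hy v)), star_star]⟩)
    (fun v => (k1 v).trans (by linarith))
    (fun v => (mir_norm hΩ (star_mem (hy v))).trans (by rw [norm_star]; linarith [k2 v])) k3
    (by
      rw [← mir_one hΩ, ← mir_sub hΩ (star_mem (hy 1)) (one_mem M)]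
      refine (mir_norm hΩ (sub_mem (star_mem (hy 1)) (one_mem M))).trans ?_
      rwa [← norm_star, star_sub, star_star, star_one])
    k4 (fun v w => by
      have m1 := mul_mem (star_mem (hy w)) (star_mem (hy v))
      rw [← mir_mul hΩ (star_mem (hy w)) (star_mem (hy v)), ← mir_sub hΩ (star_mem (hy _)) m1]
      refine (mir_norm hΩ (sub_mem (star_mem (hy _)) m1)).trans ?_
      rw [← star_mul, ← star_sub, norm_star]
      exact k4 v w)
  have hL : LinN N M 1 t :=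
    ⟨{ toFun := fun x => Φ ⟨x.1, x.2⟩
       map_add' := fun x x' => Φ.map_add ⟨x.1, x.2⟩ ⟨x'.1, x'.2⟩
       map_smul' := fun a x => Φ.map_smul a ⟨x.1, x.2⟩ }, fun x => (hΦ _).1,
      fun x => by rw [mul_one]; exact (hΦ ⟨x.1, x.2⟩).2⟩
  exact (lin_conj ht0 ht1 hL (Near.mono h1 hd1)).symm.mono ht2

end Vale.Agent.KK
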