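import Vale.Agent.KK.Model
import Vale.Agent.KK.Bi2

/-!
Existence of towers. sc y = lop A (y.map (algebraMap C B)), a star homomorphism; L j a = sc (p j a), Rr j a = lop (sw A) ((p j a)^T.map algebraMap),
D j = span {sc y (emb eta) : y in D j}. Rr j a (sc y (emb eta)) = sc (y * p j a) (emb eta) (lop_comm, lop_emb_sw);
emb* (sc y (emb eta)) = ntr y eta (emb_adj_lop); so <sc y emb eta, sc y' emb eta'> = ntr (y* y') <eta, eta'>. key by Submodule.span_induction in both variables.
-/

namespace Vale.Agent.KK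

open Vale.Agent.P104
open scoped InnerProductSpace

universe u

section Sc

variable {H K : Type*} [NormedAddCommGroup H] [InnerProductSpace ℂ H] [CompleteSpace H]
  [NormedAddCommGroup K] [InnerProductSpace ℂ K] [CompleteSpace K]
  {ι : Type*} [Fintype ι] [DecidableEq ι] (A : Amp H K (ι × ι))

open Matrix
open scoped ComplexConjugate

/-- Scalar matrices acting on the left index. -/
noncomputable def TWexSc (y : Matrix ι ι ℂ) : K →L[ℂ] K :=
  lop A (y.map (algebraMap ℂ (H →L[ℂ] H)))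

theorem TWex_mul (x y : Matrix ι ι ℂ) : TWexSc A (x * y) = TWexSc A x * TWexSc A y := by
  unfold TWexSc
  rw [Matrix.map_mul, lop_mul]

theorem TWex_star (x : Matrix ι ι ℂ) : TWexSc A (star x) = star (TWexSc A x) := by
  unfold TWexSc
  rw [← lop_star]
  congr 1
  ext1 s t
  simp only [Matrix.map_apply, Matrix.star_apply, algebraMap_star_comm]

theorem TWex_one : TWexSc A 1 = 1 := by
  unfold TWexSc
  rw [Matrix.map_one _ (map_zero _) (map_one _), lop_one]

theorem TWex_zero : TWexSc A 0 = 0 := by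
  unfold TWexSc
  rw [Matrix.map_zero _ (map_zero _), lop_zero]

theorem TWex_sum {I : Type*} (s : Finset I) (x : I → Matrix ι ι ℂ) :
    TWexSc A (∑ i ∈ s, x i) = ∑ i ∈ s, TWexSc A (x i) := by
  unfold TWexSc
  rw [← lop_sum]
  congr 1
  ext1 a b
  simp only [Matrix.map_apply, Matrix.sum_apply, map_sum]

theorem TWex_cells {Λ : Type} [Fintype Λ] [DecidableEq Λ] {p : Λ → Matrix ι ι ℂ} (hp : Cells p) :
    Cells fun a => TWexSc A (p a) where
  star_eq a := by rw [← TWex_star, hp.star_eq]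
  mul a b := by
    rw [← TWex_mul, hp.mul]
    split_ifs
    · rfl
    · exact TWex_zero A
  sum := by rw [← TWex_sum, hp.sum, TWex_one]

theorem TWex_cells_tr {Λ : Type} [Fintype Λ] [DecidableEq Λ] {p : Λ → Matrix ι ι ℂ}
    (hp : Cells p) : Cells fun a => (p a)ᵀ where
  star_eq a := by
    ext s t
    have h := congrFun (congrFun (hp.star_eq a) t) s
    simpa only [Matrix.star_apply, Matrix.transpose_apply] using h
  mul a b := by
    rw [← Matrix.transpose_mul, hp.mul]
    by_cases h : a = b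
    · subst h
      simp
    · rw [if_neg h, if_neg (Ne.symm h), Matrix.transpose_zero]
  sum := by rw [← Matrix.transpose_sum, hp.sum, Matrix.transpose_one]

theorem TWex_mem [Nonempty ι] (y : Matrix ι ι ℂ) (M : VonNeumannAlgebra H) :
    TWexSc A y ∈ lf A M := by
  unfold TWexSc
  rw [lop_mem_iff]
  intro s t
  rw [Matrix.map_apply, Algebra.algebraMap_eq_smul_one]
  exact SMulMemClass.smul_mem _ (one_mem _)

theorem TWex_amp (y : Matrix ι ι ℂ) (z : H →L[ℂ] H) :
    TWexSc A y * A.amp z = A.amp z * TWexSc A y := by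
  unfold TWexSc
  rw [lop_mul_amp, amp_mul_lop]
  congr 1
  ext1 s t
  simp only [Matrix.of_apply, Matrix.map_apply]
  exact Algebra.commutes _ _

theorem TWex_comm (x y : Matrix ι ι ℂ) :
    TWexSc A x * TWexSc (sw A) y = TWexSc (sw A) y * TWexSc A x :=
  lop_comm A fun s s' _ _ => Algebra.commutes (x s s') _

theorem TWex_emb (y : Matrix ι ι ℂ) (η : H) :
    TWexSc (sw A) yᵀ (emb A η) = TWexSc A y (emb A η) := by
  unfold TWexSc
  rw [lop_emb_sw]
  rfl

theorem TWex_right (x y : Matrix ι ι ℂ) (η : H) :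
    TWexSc (sw A) xᵀ (TWexSc A y (emb A η)) = TWexSc A (y * x) (emb A η) := by
  rw [← mul_apply_eq_comp, ← TWex_comm, mul_apply_eq_comp, TWex_emb, TWex_mul, mul_apply_eq_comp]

theorem TWex_left (x y : Matrix ι ι ℂ) (ζ : K) :
    TWexSc A x (TWexSc A y ζ) = TWexSc A (x * y) ζ := by
  rw [TWex_mul, mul_apply_eq_comp]

theorem TWex_adj (y : Matrix ι ι ℂ) (η : H) :
    (emb A).adjoint (TWexSc A y (emb A η)) = ntr y • η := by
  unfold TWexSc ntr
  rw [emb_adj_lop, mul_smul, Matrix.trace, Finset.sum_smul]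
  refine congrArg _ (Finset.sum_congr rfl fun s _ => ?_)
  rw [Matrix.map_apply, Algebra.algebraMap_eq_smul_one]
  rfl

theorem TWex_inner (x y : Matrix ι ι ℂ) (η η' : H) :
    ⟪TWexSc A x (emb A η), TWexSc A y (emb A η')⟫_ℂ = ntr (star x * y) * ⟪η, η'⟫_ℂ := by
  rw [← inner_star_right, ← TWex_star, TWex_left, ← ContinuousLinearMap.adjoint_inner_right,
    TWex_adj, inner_smul_right]

/-- A sesquilinear identity passes to spans. -/
theorem TWex_span {W : Set K} (T : K →L[ℂ] K) (c c' : ℂ)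
    (h : ∀ ζ ∈ W, ∀ ζ' ∈ W, ⟪ζ, T ζ'⟫_ℂ =
      c * (⟪ζ, ζ'⟫_ℂ - ⟪(emb A).adjoint ζ, (emb A).adjoint ζ'⟫_ℂ) +
        c' * ⟪(emb A).adjoint ζ, (emb A).adjoint ζ'⟫_ℂ) :
    ∀ ζ ∈ Submodule.span ℂ W, ∀ ζ' ∈ Submodule.span ℂ W, ⟪ζ, T ζ'⟫_ℂ =
      c * (⟪ζ, ζ'⟫_ℂ - ⟪(emb A).adjoint ζ, (emb A).adjoint ζ'⟫_ℂ) +
        c' * ⟪(emb A).adjoint ζ, (emb A).adjoint ζ'⟫_ℂ := by
  intro ζ hζ ζ' hζ'
  induction hζ using Submodule.span_induction with
  | mem x hx =>
    induction hζ' using Submodule.span_induction with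
    | mem y hy => exact h x hx y hy
    | zero => simp
    | add y z _ _ hy hz =>
      simp only [map_add, inner_add_right]
      linear_combination hy + hz
    | smul a y _ hy =>
      simp only [map_smul, inner_smul_right]
      linear_combination a * hy
  | zero => simp
  | add x y _ _ hx hy =>
    simp only [map_add, inner_add_left]
    linear_combination hx + hy
  | smul a x _ hx =>
    simp only [map_smul, inner_smul_left]
    linear_combination (starRingEnd ℂ a) * hx

/-- An operator preserving generators preserves the span. -/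
theorem TWex_stable {W : Set K} (T : K →L[ℂ] K) (h : ∀ ζ ∈ W, T ζ ∈ W) :
    ∀ ζ ∈ Submodule.span ℂ W, T ζ ∈ Submodule.span ℂ W := by
  intro ζ hζ
  induction hζ using Submodule.span_induction with
  | mem x hx => exact Submodule.subset_span (h x hx)
  | zero => simp
  | add x y _ _ hx hy =>
    rw [map_add]
    exact add_mem hx hy
  | smul a x _ hx =>
    rw [map_smul]
    exact Submodule.smul_mem _ _ hx

end Sc

theorem exists_tw (n : ℕ) (Λ : Type) [Fintype Λ] [DecidableEq Λ] [Nonempty Λ] :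
    ∃ (R : Type) (_ : Fintype R) (_ : DecidableEq R) (_ : Nonempty R),
      ∀ (H K : Type u) [NormedAddCommGroup H] [InnerProductSpace ℂ H] [CompleteSpace H]
        [NormedAddCommGroup K] [InnerProductSpace ℂ K] [CompleteSpace K] (A : Amp H K (R × R)),
        ∃ (L Rr : ℕ → Λ → K →L[ℂ] K) (D : ℕ → Submodule ℂ K), TW A n L Rr D := by
  obtain ⟨R, i1, i2, i3, p, D, hp, hD, hk⟩ := model_tower n Λ
  refine ⟨R, i1, i2, i3, fun H K _ _ _ _ _ _ A => ?_⟩
  refine ⟨fun j a => TWexSc A (p j a), fun j a => TWexSc (sw A) (p j a).transpose,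
    fun j => Submodule.span ℂ {ζ | ∃ y ∈ D j, ∃ η, ζ = TWexSc A y (emb A η)}, ?_⟩
  refine
    { cl := fun j => TWex_cells A (hp j)
      cr := fun j => TWex_cells (sw A) (TWex_cells_tr (hp j))
      lmem := fun j a M => TWex_mem A _ M
      rmem := fun j a M => ?_
      lamp := fun j a y => TWex_amp A _ y
      ramp := fun j a y => ?_
      lr := fun i j a b => TWex_comm A _ _
      lemb := fun j a η => (TWex_emb A _ η).symm
      demb := fun j η => Submodule.subset_span ⟨1, one_mem _, η, by rw [TWex_one]; rfl⟩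
      damp := fun j y => TWex_stable _ ?_
      dl := fun i j a hij => TWex_stable _ ?_
      dr := fun i j a hij => TWex_stable _ ?_
      key := fun j hj ζ hζ ζ' hζ' a b => ?_ }
  · rw [lf_comm]
    exact TWex_mem (sw A) _ _
  · rw [← sw_amp]
    exact TWex_amp (sw A) _ y
  · rintro _ ⟨x, hx, η, rfl⟩
    refine ⟨x, hx, y η, ?_⟩
    rw [← mul_apply_eq_comp, ← TWex_amp, mul_apply_eq_comp, amp_emb]
  · rintro _ ⟨x, hx, η, rfl⟩
    exact ⟨p i a * x, mul_mem (hD i j a hij) hx, η, TWex_left A _ _ _⟩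
  · rintro _ ⟨x, hx, η, rfl⟩
    exact ⟨x * p i a, mul_mem hx (hD i j a hij), η, TWex_right A _ _ _⟩
  · refine TWex_span A (TWexSc A (p j a) * TWexSc (sw A) (p j b).transpose) _ _ ?_ ζ hζ ζ' hζ'
    rintro _ ⟨x, hx, η, rfl⟩ _ ⟨y, hy, η', rfl⟩
    rw [mul_apply_eq_comp, TWex_right, TWex_left, TWex_inner, TWex_inner, TWex_adj, TWex_adj,
      inner_smul_left, inner_smul_right, ← mul_assoc, ← mul_assoc, hk j hj x hx y hy a b]
    ring

end Vale.Agent.KK
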