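import Vale.Agent.KK.Ext

/-!
An exact trace vector from a quasi trace vector.
e = projOn (M xi) in M'. For a unitary u of M, |y u xi| <= 2 |y xi| and |y xi| <= 2 |y u xi|; R u from ext_op (R u xi = u xi, |R u| <= 2, R u = R u e,
e R u = R u), R (u v) = R v R u, R u* R u = e. KK = {t in M' : 0 <= t, t e = t, (1/4)|y xi|^2 <= qf t (y u xi) <= 4 |y xi|^2 for all u, y}:
contains e, convex, norm <= 4, closed under weak limits, invariant under t -> (R u)* t (R u).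
N t = sup_u |(R u)* t (R u) xi|^2, and (R u)* t (R u) xi = pi u (t xi), pi u = u (R u)*, |pi u z| >= |z|/2 on e H, pi u pi v = pi (u v).
Parallelogram: N((t + t')/2) <= (N t + N t')/2 - |(t - t') xi|^2/16. A minimizing sequence has t_k xi Cauchy, its weak ultralimit t is a minimizer
(N depends continuously on t xi), and N((R u)* t R u) = N t gives pi u (t xi) = t xi. So tau y = <t xi, y xi> has tau (u y u*) = tau y
(as R u* u y u* xi ... : <t xi, u y u* xi> = <t xi, u (R u*) y xi> = <pi(u*) t xi, y xi>), so tau (a b) = tau (b a) by four'.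
The vector is sqrt t xi, |x sqrt t xi|^2 = tau (x* x), and tau 1 >= |xi|^2 / 4 > 0.
-/

namespace Vale.Agent.KK

open Vale.Agent.P104
open scoped InnerProductSpace

universe u

variable {H : Type*} [NormedAddCommGroup H] [InnerProductSpace ℂ H] [CompleteSpace H]

/-- A fixed point theorem for uniformly bounded families with uniformly bounded inverses. -/
theorem trace_fix {G : Type*} [Nonempty G] (π : G → H →L[ℂ] H) {K : Set H} (hK : IsClosed K)
    (hne : K.Nonempty) (hmid : ∀ a ∈ K, ∀ b ∈ K, (2 : ℂ)⁻¹ • (a + b) ∈ K)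
    (hinv : ∀ g, ∀ a ∈ K, π g a ∈ K) (hmul : ∀ g h, ∃ k, ∀ a ∈ K, π g (π h a) = π k a)
    (hb : ∀ g, ‖π g‖ ≤ 2) (hlow : ∀ g, ∀ a ∈ K, ∀ b ∈ K, ‖a - b‖ ≤ 2 * ‖π g (a - b)‖) :
    ∃ a ∈ K, ∀ g, π g a = a := by
  set S : Set ℝ := {r | ∃ a ∈ K, ∀ g, ‖π g a‖ ^ 2 ≤ r} with hS
  have hSne : S.Nonempty := by
    obtain ⟨a, ha⟩ := hne
    exact ⟨(2 * ‖a‖) ^ 2, a, ha, fun g => pow_le_pow_left₀ (norm_nonneg _)
      (((π g).le_opNorm a).trans (mul_le_mul_of_nonneg_right (hb g) (norm_nonneg _))) 2⟩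
  have hSb : BddBelow S := ⟨0, by
    rintro r ⟨a, -, h⟩
    exact (sq_nonneg _).trans (h (Classical.arbitrary G))⟩
  have key : ∀ a ∈ K, ∀ b ∈ K, ∀ r r' : ℝ, (∀ g, ‖π g a‖ ^ 2 ≤ r) → (∀ g, ‖π g b‖ ^ 2 ≤ r') →
      ‖a - b‖ ^ 2 ≤ 8 * (r + r' - 2 * sInf S) := by
    intro a ha b hb' r r' h1 h2
    have h3 : (r + r') / 2 - ‖a - b‖ ^ 2 / 16 ∈ S := by
      refine ⟨_, hmid a ha b hb', fun g => ?_⟩
      have e1 := parallelogram_law_with_norm ℂ (π g a) (π g b)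
      have e2 := pow_le_pow_left₀ (norm_nonneg _) (hlow g a ha b hb') 2
      rw [map_sub] at e2
      rw [map_smul, map_add, norm_smul, norm_inv, Complex.norm_ofNat]
      nlinarith [h1 g, h2 g]
    linarith [csInf_le hSb h3]
  have hex : ∀ k : ℕ, ∃ a ∈ K, ∀ g, ‖π g a‖ ^ 2 ≤ sInf S + 1 / ((k : ℝ) + 1) := fun k => by
    obtain ⟨r, ⟨a, ha, h⟩, hr⟩ := exists_lt_of_csInf_lt hSne
      (lt_add_of_pos_right (sInf S) (Nat.one_div_pos_of_nat (α := ℝ) (n := k)))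
    exact ⟨a, ha, fun g => (h g).trans hr.le⟩
  choose a ha1 ha2 using hex
  have h0 : Filter.Tendsto (fun k : ℕ => 1 / ((k : ℝ) + 1)) Filter.atTop (nhds 0) :=
    tendsto_one_div_add_atTop_nhds_zero_nat
  have hc : CauchySeq a := by
    refine cauchySeq_of_le_tendsto_0' (fun k => √(16 * (1 / ((k : ℝ) + 1)))) (fun k l hkl => ?_) ?_
    · rw [dist_eq_norm]
      refine Real.le_sqrt_of_sq_le ((key _ (ha1 k) _ (ha1 l) _ _ (ha2 k) (ha2 l)).trans ?_)
      have := Nat.one_div_le_one_div (α := ℝ) hkl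
      linarith
    · simpa using (h0.const_mul 16).sqrt
  obtain ⟨b, hb'⟩ := cauchySeq_tendsto_of_complete hc
  have hbK : b ∈ K := hK.mem_of_tendsto hb' (Filter.Eventually.of_forall ha1)
  have hbm : ∀ g, ‖π g b‖ ^ 2 ≤ sInf S := fun g => by
    have e1 := (((π g).continuous.tendsto b).comp hb').norm.pow 2
    have e2 := h0.const_add (sInf S)
    rw [add_zero] at e2
    exact le_of_tendsto_of_tendsto' e1 e2 fun k => ha2 k g
  refine ⟨b, hbK, fun h => ?_⟩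
  have e := key _ (hinv h b hbK) _ hbK _ _ (fun g => by
    obtain ⟨k, hk⟩ := hmul g h
    rw [hk b hbK]
    exact hbm k) hbm
  exact sub_eq_zero.1 (norm_eq_zero.1 (pow_eq_zero_iff two_ne_zero |>.1
    (le_antisymm (by linarith) (sq_nonneg _))))

/-- The projection onto the closure of `M ξ`. -/
noncomputable def tracePr (M : VonNeumannAlgebra H) (ξ : H) : H →L[ℂ] H :=
  projOn {η : H | ∃ x ∈ M, η = x ξ}

section

variable {M : VonNeumannAlgebra H} {ξ : H}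

theorem trace_proj : IsStarProjection (tracePr M ξ) := projOn_proj _

theorem trace_mem : tracePr M ξ ∈ M.commutant := projOn_comm (by
  rintro s hs _ ⟨x, hx, rfl⟩
  exact ⟨s * x, mul_mem hs hx, rfl⟩)

theorem trace_app {x : H →L[ℂ] H} (hx : x ∈ M) : tracePr M ξ (x ξ) = x ξ :=
  projOn_apply_of_mem ⟨x, hx, rfl⟩

theorem trace_dense {S : Set H} (hS : IsClosed S) (h : ∀ x ∈ M, x ξ ∈ S) (η : H) :
    tracePr M ξ η ∈ S := by
  have key : ∀ v ∈ Submodule.span ℂ {η : H | ∃ x ∈ M, η = x ξ}, ∃ x ∈ M, v = x ξ := by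
    intro v hv
    induction hv using Submodule.span_induction with
    | mem v hv => exact hv
    | zero => exact ⟨0, zero_mem _, rfl⟩
    | add v v' _ _ h1 h2 =>
      obtain ⟨x, hx, rfl⟩ := h1
      obtain ⟨y, hy, rfl⟩ := h2
      exact ⟨x + y, add_mem hx hy, rfl⟩
    | smul c v _ h1 =>
      obtain ⟨x, hx, rfl⟩ := h1
      exact ⟨c • x, SMulMemClass.smul_mem c hx, rfl⟩
  refine closure_minimal (fun v hv => ?_) hS (projOn_mem_closure _ η)
  obtain ⟨x, hx, rfl⟩ := key v hv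
  exact h x hx

theorem trace_norm {ζ : H} (hζ : tracePr M ξ ζ = ζ) {c : ℝ} (hc : 0 ≤ c)
    (h : ∀ x ∈ M, ‖⟪ζ, x ξ⟫_ℂ‖ ≤ c * ‖x ξ‖) : ‖ζ‖ ≤ c := by
  have e := trace_dense (S := {η | ‖⟪ζ, η⟫_ℂ‖ ≤ c * ‖η‖})
    (isClosed_le (by fun_prop) (by fun_prop)) h ζ
  rw [hζ, Set.mem_ofPred_eq, inner_self_eq_norm_sq_to_K, norm_pow, RCLike.norm_ofReal,
    abs_norm] at e
  exact QT.le_of_sq_le_mul hc e

theorem trace_eq {ζ ζ' : H} (hζ : tracePr M ξ ζ = ζ) (hζ' : tracePr M ξ ζ' = ζ')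
    (h : ∀ x ∈ M, ⟪ζ, x ξ⟫_ℂ = ⟪ζ', x ξ⟫_ℂ) : ζ = ζ' :=
  sub_eq_zero.1 (norm_le_zero_iff.1 (trace_norm (M := M) (ξ := ξ) (by rw [map_sub, hζ, hζ'])
    le_rfl fun x hx => by rw [inner_sub_left, h x hx, sub_self, norm_zero, zero_mul]))

theorem trace_ext (η : H) {c : ℝ} (hc : 0 ≤ c) (h : ∀ x ∈ M, ‖x η‖ ≤ c * ‖x ξ‖) :
    ∃ s ∈ M.commutant, ‖s‖ ≤ c ∧ (∀ x ∈ M, s (x ξ) = x η) ∧ s * tracePr M ξ = s := by
  obtain ⟨s, hs, h1, h2, h3⟩ := ext_op M ξ η hc h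
  refine ⟨s, hs, h1, fun x hx => ?_, ?_⟩
  · rw [← h2]
    exact DFunLike.congr_fun (comm_of_mem hs hx) ξ
  · ext ζ
    have e := h3 (ζ - tracePr M ξ ζ) fun x hx => by
      rw [inner_sub_right, ← inner_star_left (tracePr M ξ), trace_proj.isSelfAdjoint.star_eq,
        trace_app hx, sub_self]
    rw [map_sub, sub_eq_zero] at e
    exact e.symm

theorem trace_fixed (h : ∀ x ∈ M, ‖star x ξ‖ ^ 2 ≤ 2 * ‖x ξ‖ ^ 2) :
    ∃ ζ, tracePr M ξ ζ = ζ ∧ (∀ x ∈ M, ⟪ζ, star x ξ⟫_ℂ = ⟪x ξ, ζ⟫_ℂ) ∧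
      (∀ y ∈ M, 0 ≤ (⟪ζ, (star y * y) ξ⟫_ℂ).re) ∧
      (∀ x ∈ M, ∀ y ∈ M, ‖⟪ζ, (star x * y) ξ⟫_ℂ‖ ≤ 4 * ‖x ξ‖ * ‖y ξ‖) ∧
      ⟪ζ, ξ⟫_ℂ = ⟪ξ, ξ⟫_ℂ ∧
      ∀ u ∈ UM M, ∀ x ∈ M, ⟪ζ, (star u * x * u) ξ⟫_ℂ = ⟪ζ, x ξ⟫_ℂ := by
  have hR : ∀ u : UM M, ∀ y ∈ M, ‖y (u.1 ξ)‖ ≤ 2 * ‖y ξ‖ := by
    rintro ⟨u, hu, hu'⟩ y hy
    have e1 := h _ (star_mem (mul_mem hy hu))
    have e2 := h y hy
    have e3 : ‖star (y * u) ξ‖ = ‖star y ξ‖ := by
      rw [star_mul]
      exact uni_apply (Unitary.star_mem hu') _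
    rw [star_star, e3] at e1
    refine (sq_le_sq₀ (norm_nonneg _) (by positivity)).1 ?_
    change ‖(y * u) ξ‖ ^ 2 ≤ _
    linarith
  choose R hR1 hR2 hR3 hR4 using fun u : UM M => trace_ext (u.1 ξ) zero_le_two (hR u)
  have hid : ∀ (u : UM M) (ζ : H), ∀ x ∈ M,
      ⟪(u.1 * star (R u)) ζ, x ξ⟫_ℂ = ⟪ζ, (star u.1 * x * u.1) ξ⟫_ℂ := fun u ζ x hx => by
    change ⟪u.1 (star (R u) ζ), x ξ⟫_ℂ = ⟪ζ, (star u.1 * x) (u.1 ξ)⟫_ℂ
    rw [← inner_star_right, inner_star_left, ← hR3 u _ (mul_mem (star_mem u.2.1) hx)]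
    rfl
  have hP : ∀ (u : UM M) (ζ : H), tracePr M ξ ((u.1 * star (R u)) ζ) = (u.1 * star (R u)) ζ :=
    fun u ζ => by
      have e : tracePr M ξ * (u.1 * star (R u)) = u.1 * star (R u) := by
        rw [← mul_assoc, comm_of_mem trace_mem u.2.1, mul_assoc,
          compare_star_right trace_proj (hR4 u)]
      exact DFunLike.congr_fun e ζ
  have hb : ∀ u : UM M, ‖u.1 * star (R u)‖ ≤ 2 := fun u => (norm_mul_le _ _).trans (by
    rw [norm_star]
    nlinarith [uni_norm_le u.2.2, hR2 u, norm_nonneg u.1, norm_nonneg (R u)])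
  have hM : ∀ u : UM M, ∀ x ∈ M, star u.1 * x * u.1 ∈ M := fun u x hx =>
    mul_mem (mul_mem (star_mem u.2.1) hx) u.2.1
  obtain ⟨ζ, ⟨a1, a2, a3, a4, a5⟩, a6⟩ := trace_fix (fun u : UM M => u.1 * star (R u))
    (K := {ζ | tracePr M ξ ζ = ζ ∧ (∀ x ∈ M, ⟪ζ, star x ξ⟫_ℂ = ⟪x ξ, ζ⟫_ℂ) ∧
      (∀ y ∈ M, 0 ≤ (⟪ζ, (star y * y) ξ⟫_ℂ).re) ∧
      (∀ u : UM M, ∀ x ∈ M, ∀ y ∈ M,
        ‖⟪ζ, (star u.1 * (star x * y) * u.1) ξ⟫_ℂ‖ ≤ 4 * ‖x ξ‖ * ‖y ξ‖) ∧
      ⟪ζ, ξ⟫_ℂ = ⟪ξ, ξ⟫_ℂ})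
    (by
      simp only [Set.ofPred_and, Set.ofPred_forall]
      exact (isClosed_eq (by fun_prop) (by fun_prop)).inter
        ((isClosed_iInter fun _ => isClosed_iInter fun _ =>
          isClosed_eq (by fun_prop) (by fun_prop)).inter
        ((isClosed_iInter fun _ => isClosed_iInter fun _ =>
          isClosed_le (by fun_prop) (by fun_prop)).inter
        ((isClosed_iInter fun _ => isClosed_iInter fun _ => isClosed_iInter fun _ =>
          isClosed_iInter fun _ => isClosed_iInter fun _ =>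
          isClosed_le (by fun_prop) (by fun_prop)).inter
        (isClosed_eq (by fun_prop) (by fun_prop))))))
    ⟨ξ, trace_app (one_mem M), fun x _ => inner_star_right x ξ ξ,
      fun y _ => (sq_nonneg _).trans (qf_star_mul_self y ξ).ge, fun u x hx y hy => by
        change ‖⟪ξ, star u.1 (star x (y (u.1 ξ)))⟫_ℂ‖ ≤ _
        rw [inner_star_right, inner_star_right]
        refine (norm_inner_le_norm _ _).trans ?_
        have := mul_le_mul (hR u x hx) (hR u y hy) (norm_nonneg _) (by positivity)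
        linarith, rfl⟩
    (by
      rintro a ⟨a1, a2, a3, a4, a5⟩ b ⟨b1, b2, b3, b4, b5⟩
      have e : ∀ η, ⟪(2 : ℂ)⁻¹ • (a + b), η⟫_ℂ = (2 : ℂ)⁻¹ * (⟪a, η⟫_ℂ + ⟪b, η⟫_ℂ) := fun η => by
        rw [inner_smul_left, inner_add_left, map_inv₀, map_ofNat]
      refine ⟨by rw [map_smul, map_add, a1, b1], fun x hx => ?_, fun y hy => ?_,
        fun u x hx y hy => ?_, ?_⟩
      · rw [e, a2 x hx, b2 x hx, inner_smul_right, inner_add_right]
      · rw [e]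
        simpa using add_nonneg (a3 y hy) (b3 y hy)
      · rw [e, norm_mul, norm_inv, Complex.norm_ofNat]
        linarith [norm_add_le ⟪a, (star u.1 * (star x * y) * u.1) ξ⟫_ℂ
          ⟪b, (star u.1 * (star x * y) * u.1) ξ⟫_ℂ, a4 u x hx y hy, b4 u x hx y hy]
      · rw [e, a5, b5]
        ring)
    (by
      rintro u a ⟨-, a2, a3, a4, a5⟩
      refine ⟨hP u a, fun x hx => ?_, fun y hy => ?_, fun v x hx y hy => ?_, ?_⟩
      · rw [hid u a _ (star_mem hx), ← inner_conj_symm (x ξ), hid u a x hx, inner_conj_symm,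
          ← a2 _ (hM u x hx), star_mul, star_mul, star_star, mul_assoc]
      · have e := a3 _ (mul_mem hy u.2.1)
        rw [hid u a _ (mul_mem (star_mem hy) hy)]
        rwa [star_mul, mul_assoc, ← mul_assoc (star y), ← mul_assoc] at e
      · have e := a4 (v * u) x hx y hy
        rw [hid u a _ (hM v _ (mul_mem (star_mem hx) hy))]
        simpa only [Submonoid.coe_mul, star_mul, mul_assoc] using e
      · have e := hid u a 1 (one_mem M)
        rw [mul_one, Unitary.star_mul_self_of_mem u.2.2] at e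
        exact e.trans a5)
    (fun u v => ⟨u * v, fun a _ => trace_eq (hP u _) (hP (u * v) a) fun x hx => by
      rw [hid u _ x hx, hid v _ _ (hM u x hx), hid _ _ x hx]
      simp only [Submonoid.coe_mul, star_mul, mul_assoc]⟩)
    hb
    (by
      rintro u a ⟨a1, -⟩ b ⟨b1, -⟩
      let v : UM M := ⟨star u.1, mem_UM.2 ⟨star_mem (mem_UM.1 u.2).1, Unitary.star_mem u.2.2⟩⟩
      have e : (v.1 * star (R v)) ((u.1 * star (R u)) (a - b)) = a - b :=
        trace_eq (hP v _) (by rw [map_sub, a1, b1]) fun x hx => by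
          rw [hid v _ x hx, hid u _ _ (hM v x hx)]
          have e1 : star u.1 * (star (star u.1) * x * star u.1) * u.1 = x := by
            rw [star_star, ← mul_assoc, ← mul_assoc, Unitary.star_mul_self_of_mem u.2.2, one_mul,
              mul_assoc, Unitary.star_mul_self_of_mem u.2.2, mul_one]
          rw [e1]
      conv_lhs => rw [← e]
      exact ((v.1 * star (R v)).le_opNorm _).trans
        (mul_le_mul_of_nonneg_right (hb v) (norm_nonneg _)))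
  refine ⟨ζ, a1, a2, a3, fun x hx y hy => by simpa using a4 1 x hx y hy, a5, fun u hu x hx => ?_⟩
  rw [← hid ⟨u, hu⟩ ζ x hx, a6]

end

theorem trace_vec (M : VonNeumannAlgebra H) {ξ : H} (h0 : ξ ≠ 0)
    (h : ∀ x ∈ M, ‖star x ξ‖ ^ 2 ≤ 2 * ‖x ξ‖ ^ 2) :
    ∃ t ∈ M.commutant, t ξ ≠ 0 ∧ ∀ x ∈ M, ‖star x (t ξ)‖ = ‖x (t ξ)‖ := by
  obtain ⟨ζ, a1, a2, a3, a4, a5, a6⟩ := trace_fixed h
  have hx : ∀ x ∈ M, tracePr M ξ (x ζ) = x ζ := fun x hx => by
    conv_rhs => rw [← a1]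
    exact DFunLike.congr_fun (comm_of_mem trace_mem hx) ζ
  obtain ⟨s, hs, -, b1, b2⟩ := trace_ext (M := M) (ξ := ξ) ζ (c := 4) (by norm_num) fun x hxM =>
    trace_norm (hx x hxM) (by positivity) fun y hy => by
      rw [← inner_star_right]
      exact a4 x hxM y hy
  have b3 : tracePr M ξ * s = s := by
    have e : ((1 - tracePr M ξ) * s) * tracePr M ξ = 0 := mul_projOn_eq_zero (by
      rintro _ ⟨x, hxM, rfl⟩
      change s (x ξ) - tracePr M ξ (s (x ξ)) = 0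
      rw [b1 x hxM, hx x hxM, sub_self])
    rw [mul_assoc, b2, sub_mul, one_mul, sub_eq_zero] at e
    exact e.symm
  have b4 : IsSelfAdjoint s := by
    have e : (star s - s) * tracePr M ξ = 0 := mul_projOn_eq_zero (by
      rintro _ ⟨x, hxM, rfl⟩
      change star s (x ξ) - s (x ξ) = 0
      rw [sub_eq_zero]
      refine trace_eq (DFunLike.congr_fun (compare_star_right trace_proj b2) _)
        (DFunLike.congr_fun b3 _) fun y hy => ?_
      have e1 := a2 _ (mul_mem (star_mem hy) hxM)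
      rw [star_mul, star_star] at e1
      rw [inner_star_left, b1 x hxM, b1 y hy]
      exact (inner_star_left y (x ξ) ζ).symm.trans (e1.symm.trans (inner_star_right x ζ (y ξ))))
    rwa [sub_mul, b2, compare_star_left trace_proj b3, sub_eq_zero] at e
  have b5 : 0 ≤ s := by
    refine nonneg_iff_qf.2 ⟨b4, fun η => ?_⟩
    have e := trace_dense (M := M) (ξ := ξ) (S := {η | 0 ≤ qf s η})
      (isClosed_le continuous_const (continuous_qf s)) (fun y hy => by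
        have e1 := (a3 y hy).trans_eq (inner_re_symm (𝕜 := ℂ) ζ ((star y * y) ξ))
        change 0 ≤ (⟪y ξ, s (y ξ)⟫_ℂ).re
        rw [b1 y hy, ← inner_star_left]
        exact e1) η
    rwa [Set.mem_ofPred_eq, ← qf_conj, trace_proj.isSelfAdjoint.star_eq, b3, b2] at e
  have c1 : cfc Real.sqrt s * cfc Real.sqrt s = s := by
    rw [polar_cfc_mul s Real.continuous_sqrt Real.continuous_sqrt]
    conv_rhs => rw [← cfc_id' ℝ s]
    exact cfc_congr fun r hr => Real.mul_self_sqrt (spectrum_nonneg_of_nonneg b5 hr)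
  have c2 : star (cfc Real.sqrt s) = cfc Real.sqrt s := IsSelfAdjoint.cfc.star_eq
  have c3 : cfc Real.sqrt s ∈ M.commutant := vn_cfc_mem _ hs
  have c4 : ∀ x ∈ M, ‖x (cfc Real.sqrt s ξ)‖ ^ 2 = (⟪ζ, (star x * x) ξ⟫_ℂ).re := fun x hxM => by
    have e : s ξ = ζ := b1 1 (one_mem M)
    rw [← qf_star_mul_self, ← qf_conj, c2, mul_assoc,
      ← comm_of_mem c3 (mul_mem (star_mem hxM) hxM), ← mul_assoc, c1, ← e, ← inner_star_right,
      b4.star_eq]
    rfl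
  have c5 : ∀ x ∈ M, ∀ y ∈ M, ⟪ζ, (x * y) ξ⟫_ℂ = ⟪ζ, (y * x) ξ⟫_ℂ := fun x hxM y hy => by
    obtain ⟨v, c, hv, rfl, -⟩ := four' hy
    simp only [Finset.mul_sum, Finset.sum_mul, mul_smul_comm, smul_mul_assoc, sum_apply,
      inner_sum, smul_apply, inner_smul_right]
    refine Finset.sum_congr rfl fun i _ => ?_
    rw [← a6 (v i) (hv i) _ (mul_mem (hv i).1 hxM), ← mul_assoc,
      Unitary.star_mul_self_of_mem (hv i).2, one_mul]
  refine ⟨_, c3, fun h1 => h0 ?_, fun x hxM => ?_⟩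
  · have e := c4 1 (one_mem M)
    rw [h1, map_zero, norm_zero, star_one, mul_one] at e
    have e1 : (⟪ζ, ξ⟫_ℂ).re = ‖ξ‖ ^ 2 := by
      rw [a5]
      exact qf_one ξ
    have e2 : ‖ξ‖ ^ 2 = 0 := by
      rw [← e1]
      simpa using e.symm
    simpa using e2
  · rw [← sq_eq_sq₀ (norm_nonneg _) (norm_nonneg _), c4 x hxM, c4 _ (star_mem hxM), star_star,
      c5 x hxM _ (star_mem hxM)]

end Vale.Agent.KK
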