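import Vale.Agent.KK.Lower

/-!
The upper bound along the tower. Mh = lf A M, Xi = emb xi (Std.lf), V j = cs Rr r, bh j = cs Rr bb, eh j = cs Rr e, B = twX bh in cj (cj_mul, cj_one), Y = twX V unitary in Mh',
That j = bh - V + [h1, bh] + [h2, V] + eh - V y2 (h1 means amp h1). |bh - V| <= 7E (cs_norm); |(bh - V) Xi| <= 14 kappa (cells_pyth, amp_emb and
|Rr j a emb eta|^2 = |eta|^2 / card from TW.key, TW.lemb); Xi (bh - V) (16 kappa) since (bh - V) X Xi = X (bh - V) Xi - [X, bh] Xi.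
Invariants for j <= n: |B j - Y j| <= 14 j E (so |B j| <= 2), Xi (B j - Y j) (32 j kappa), and with G j = B - Y + [h1, B] + [h2, Y]:
G j - D j = y_j + R_j, y_j in Mh', Xi R_j (4 10^5 n j E kappa), by
G (j+1) - D (j+1) = V (G - D) + (bh - V)(B - Y + [h1, B]) + [h1, bh](B - Y) - eh Y + V y2 Y.
xi_amp: Xi (amp h1) (3000 kappa), Xi (amp h2) (42 kappa); gn_amp for eh; Xi.mul_comm, Xi.mul_left. Xi [h1, B] (9000 kappa + 7 E t), as h1 B = h1 Y + h1 (B - Y).
End: [X, D] = [X, B] + [X, [h1, B]] + [X, [h2, Y]] - [X, R], Xi.cm_le.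
-/

namespace Vale.Agent.KK

open Vale.Agent.P104
open scoped InnerProductSpace

universe u

variable {H K : Type*} [NormedAddCommGroup H] [InnerProductSpace ℂ H] [CompleteSpace H]
  [NormedAddCommGroup K] [InnerProductSpace ℂ K] [CompleteSpace K]
  {ι : Type*} [Fintype ι] [DecidableEq ι]
  {n : ℕ} {Λ : Type} [Fintype Λ] [DecidableEq Λ] [Nonempty Λ]

theorem upper_abs {P : VonNeumannAlgebra K} {Ξ : K} (hs : Std P Ξ) {Bs : Set (K →L[ℂ] K)}
    (b1 : 1 ∈ Bs) (bm : ∀ x ∈ Bs, ∀ y ∈ Bs, x * y ∈ Bs) {E κ : ℝ} (hE : 0 ≤ E) (hκ : 0 ≤ κ)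
    (hn : 14 * n * E ≤ 1) (hK : K0 P Ξ Bs κ) {V b e T : ℕ → K →L[ℂ] K} {h₁ h₂ y₂ X : K →L[ℂ] K}
    (hV : ∀ j, V j ∈ P.commutant) (nV : ∀ j, ‖V j‖ ≤ 1) (hb : ∀ j, b j ∈ Bs)
    (nb : ∀ j, ‖b j - V j‖ ≤ 7 * E) (xb : ∀ j < n, ‖(b j - V j) Ξ‖ ≤ 14 * κ) (n1 : ‖h₁‖ ≤ 7 * E)
    (x1 : Xi P Ξ h₁ (3000 * κ)) (x2 : Xi P Ξ h₂ (42 * κ)) (hy : y₂ ∈ P.commutant)
    (xe : ∀ j, Xi P Ξ (e j) (2 * (10 ^ 5 * E * κ)))
    (hT : ∀ j, T j = b j - V j + cm h₁ (b j) + cm h₂ (V j) + e j - V j * y₂) (hX : X ∈ P)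
    (nX : ‖X‖ ≤ 1) : ‖cm X (twD T V n) Ξ‖ ≤ (2 * 10 ^ 4 + 10 ^ 6 * n ^ 2 * E) * κ := by
  have hY : ∀ j, twX V j ∈ P.commutant ∧ ‖twX V j‖ ≤ 1 := fun j => by
    induction j with
    | zero => exact ⟨one_mem _, uni_norm_le (one_mem _)⟩
    | succ j ih => exact ⟨mul_mem (hV j) ih.1, (norm_mul_le _ _).trans
        (mul_le_one₀ (nV j) (norm_nonneg _) ih.2)⟩
  have hB : ∀ j, twX b j ∈ Bs := fun j => by
    induction j with
    | zero => exact b1
    | succ j ih => exact bm _ (hb j) _ ih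
  have hj : ∀ j ≤ n, 14 * (j * E) ≤ 1 := fun j hj => by
    have : (j : ℝ) ≤ n := by exact_mod_cast hj
    nlinarith
  have two : ∀ {x y : K →L[ℂ] K}, ‖x - y‖ ≤ 1 → ‖y‖ ≤ 1 → ‖x‖ ≤ 2 := fun {x y} h h' => by
    linarith [norm_sub_norm_le x y]
  have nb2 : ∀ j < n, ‖b j‖ ≤ 2 := fun j h => two ((nb j).trans (by
    have := hj 1 (by omega)
    push_cast at this
    linarith)) (nV j)
  have xb' : ∀ j < n, Xi P Ξ (b j - V j) (16 * κ) := fun j h x hx => by
    have e : (b j - V j) (x Ξ) = x ((b j - V j) Ξ) - cm x (b j) Ξ := by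
      change ((b j - V j) * x) Ξ = (x * (b j - V j) - cm x (b j)) Ξ
      rw [sub_mul, comm_of_mem (hV j) hx]
      congr 1
      noncomm_ring
    have h3 := (hK x hx _ (hb j)).trans (mul_le_mul_of_nonneg_left (nb2 j h) (by positivity))
    have h4 := (x.le_opNorm _).trans (mul_le_mul_of_nonneg_left (xb j h) (norm_nonneg _))
    rw [e]
    linarith [norm_sub_le (x ((b j - V j) Ξ)) (cm x (b j) Ξ)]
  have i1 : ∀ j ≤ n, ‖twX b j - twX V j‖ ≤ 14 * (j * E) := fun j => by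
    induction j with
    | zero => simp [twX]
    | succ j ih =>
      intro h
      have h3 := ih (by omega)
      have h4 := two (h3.trans (hj j (by omega))) (hY j).2
      have h5 := (norm_mul_le _ _).trans (mul_le_mul (nb j) h4 (norm_nonneg _) (by positivity))
      have h6 := (norm_mul_le _ _).trans (mul_le_mul (nV j) h3 (norm_nonneg _) zero_le_one)
      rw [show twX b (j + 1) - twX V (j + 1) = (b j - V j) * twX b j + V j * (twX b j - twX V j) by
        simp only [twX]; noncomm_ring]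
      push_cast
      linarith [norm_add_le ((b j - V j) * twX b j) (V j * (twX b j - twX V j))]
  have nB : ∀ j ≤ n, ‖twX b j‖ ≤ 2 := fun j h => two ((i1 j h).trans (hj j h)) (hY j).2
  have i2 : ∀ j ≤ n, Xi P Ξ (twX b j - twX V j) (32 * j * κ) := fun j => by
    induction j with
    | zero => exact fun _ x _ => by simp [twX]
    | succ j ih =>
      intro h
      have h3 := ih (by omega)
      rw [show twX b (j + 1) - twX V (j + 1) = (b j - V j) * (twX b j - twX V j) +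
        (b j - V j) * twX V j + V j * (twX b j - twX V j) by simp only [twX]; noncomm_ring]
      refine (((h3.mul_left (nb j)).add ((xb' j h).mul_comm hs (by positivity) (hY j).1
        (hY j).2)).add (h3.mul_left (nV j))).mono ?_
      push_cast
      nlinarith [mul_le_mul_of_nonneg_right (hj j (by omega)) hκ]
  have i3 : ∀ j ≤ n, Xi P Ξ (cm h₁ (twX b j)) (9016 * κ) := fun j h => by
    rw [show cm h₁ (twX b j) = h₁ * twX V j + h₁ * (twX b j - twX V j) - twX b j * h₁ by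
      simp only [cm]; noncomm_ring]
    refine (((x1.mul_comm hs (by positivity) (hY j).1 (hY j).2).add ((i2 j h).mul_left n1)).sub
      (x1.mul_left (nB j h))).mono ?_
    nlinarith [mul_le_mul_of_nonneg_right (hj j h) hκ]
  have i4 : ∀ j ≤ n, ∃ y ∈ P.commutant, Xi P Ξ (twX b j - twX V j + cm h₁ (twX b j) +
      cm h₂ (twX V j) - twD T V j - y) (4 * 10 ^ 5 * n * j * (E * κ)) := fun j => by
    induction j with
    | zero => exact fun _ => ⟨0, zero_mem _, fun x _ => by simp [twX, twD]⟩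
    | succ j ih =>
      intro h
      obtain ⟨y, h3, h4⟩ := ih (by omega)
      refine ⟨V j * y + V j * y₂ * twX V j,
        add_mem (mul_mem (hV j) h3) (mul_mem (mul_mem (hV j) hy) (hY j).1), ?_⟩
      have h5 : ‖cm h₁ (b j)‖ ≤ 28 * E := (norm_cm_le _ _).trans (by
        nlinarith [mul_le_mul n1 (nb2 j h) (norm_nonneg _) (by positivity)])
      have h' := Nat.le_of_succ_le h
      have h6 := (((h4.mul_left (nV j)).add (((i2 j h').add (i3 j h')).mul_left (nb j))).add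
        ((i2 j h').mul_left h5)).sub ((xe j).mul_comm hs (by positivity) (hY j).1 (hY j).2)
      convert h6.mono (t' := 4 * 10 ^ 5 * n * (j + 1 : ℕ) * (E * κ)) ?_ using 1
      · simp only [twX, twD, hT, cm]
        noncomm_ring
      · have h7 : (j : ℝ) + 1 ≤ n := by exact_mod_cast h
        have h8 := mul_nonneg hE hκ
        push_cast
        nlinarith [mul_le_mul_of_nonneg_right h7 h8, mul_nonneg (Nat.cast_nonneg (α := ℝ) j) h8]
  obtain ⟨y, h3, h4⟩ := i4 n le_rfl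
  have h5 : Xi P Ξ (cm h₂ (twX V n)) (84 * κ) :=
    ((x2.mul_comm hs (by positivity) (hY n).1 (hY n).2).sub (x2.mul_left (hY n).2)).mono
      (by linarith)
  have h6 := (((i3 n le_rfl).add h5).sub h4).cm_le (by positivity) hX
  have h7 := (hK X hX _ (hB n)).trans (mul_le_mul (mul_le_of_le_one_right hκ nX) (nB n le_rfl)
    (norm_nonneg _) hκ)
  have e : cm X (twD T V n) = cm X (twX b n) + cm X (cm h₁ (twX b n) + cm h₂ (twX V n) -
      (twX b n - twX V n + cm h₁ (twX b n) + cm h₂ (twX V n) - twD T V n - y)) +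
        ((y * X - X * y) + (twX V n * X - X * twX V n)) := by
    simp only [cm]
    noncomm_ring
  rw [e, comm_of_mem h3 hX, comm_of_mem (hY n).1 hX, sub_self, sub_self, add_zero, add_zero]
  refine (norm_add_le _ _).trans ((add_le_add h7 (h6.trans
    (mul_le_of_le_one_right (by positivity) nX))).trans ?_)
  nlinarith [mul_nonneg (sq_nonneg (n : ℝ)) (mul_nonneg hE hκ)]

theorem upper {ι : Type} [Fintype ι] [DecidableEq ι] [Nonempty ι] {A : Amp H K (ι × ι)}
    {L Rr : ℕ → Λ → K →L[ℂ] K} {D : ℕ → Submodule ℂ K} (h : TW A n L Rr D)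
    {M N : VonNeumannAlgebra H} {ξ : H} (hstd : Std M ξ) {S S' : H →L[ℂ] H} (h1 : S * S' = 1)
    (h2 : S' * S = 1) {E κ : ℝ} (hE : 0 ≤ E) (hκ : 0 ≤ κ) (hn : 14 * n * E ≤ 1)
    (hK : K0 (lf A M) (emb A ξ) (cj (A.amp S) (A.amp S') (lf A N).commutant) κ)
    {a bb T e : Λ → H →L[ℂ] H} (ha : Lett M a) {h₁ h₂ y₂ : H →L[ℂ] H}
    (hb : ∀ l, bb l ∈ cj S S' N.commutant) (hb1 : ∀ l, ‖bb l - mir M ξ (a l)‖ ≤ 7 * E)
    (hb2 : ∀ l, Xi M ξ (bb l - mir M ξ (a l)) (14 * κ)) (n1 : ‖h₁‖ ≤ 7 * E)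
    (x1 : Xi M ξ h₁ (1000 * κ)) (x2 : Xi M ξ h₂ (14 * κ)) (hy : y₂ ∈ M.commutant)
    (he : GN M ξ e (10 ^ 5 * E * κ))
    (hT : ∀ l, T l = bb l - mir M ξ (a l) + cm h₁ (bb l) + cm h₂ (mir M ξ (a l)) + e l -
      mir M ξ (a l) * y₂) :
    ‖cm (twX (fun j => cs A (L j) a) n)
        (twD (fun j => cs A (Rr j) T) (fun j => cs A (Rr j) fun l => mir M ξ (a l)) n)
        (emb A ξ)‖ ≤ (2 * 10 ^ 4 + 10 ^ 6 * n ^ 2 * E) * κ := by
  have hU : ∀ j, twX (fun j => cs A (L j) a) j ∈ lf A M ∧ ‖twX (fun j => cs A (L j) a) j‖ ≤ 1 :=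
    fun j => by
      induction j with
      | zero => exact ⟨one_mem _, uni_norm_le (one_mem _)⟩
      | succ j ih =>
        exact ⟨mul_mem (sum_mem fun l _ => mul_mem (amp_mem_lf A (ha.mem l)) (h.lmem j l M)) ih.1,
          (norm_mul_le _ _).trans (mul_le_one₀ (uni_norm_le (cs_unitary A (h.cl j) (h.lamp j)
            ha.uni)) (norm_nonneg _) ih.2)⟩
  have cl : ∀ j y (f : Λ → H →L[ℂ] H),
      cs A (Rr j) (fun l => y * f l) = A.amp y * cs A (Rr j) f := fun j y f => by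
    rw [← cs_const A (h.cr j), cs_mul A (h.cr j) (h.ramp j)]
  have cr : ∀ j y (f : Λ → H →L[ℂ] H),
      cs A (Rr j) (fun l => f l * y) = cs A (Rr j) f * A.amp y := fun j y f => by
    rw [← cs_const A (h.cr j), cs_mul A (h.cr j) (h.ramp j)]
  refine upper_abs (b := fun j => cs A (Rr j) bb) (e := fun j => cs A (Rr j) e)
    (V := fun j => cs A (Rr j) fun l => mir M ξ (a l))
    (h₁ := A.amp h₁) (h₂ := A.amp h₂) (y₂ := A.amp y₂) (hstd.lf A)
    (cj_one (by rw [← A.amp_mul, h2, A.amp_one]))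
    (fun x hx y hy => cj_mul (by rw [← A.amp_mul, h1, A.amp_one]) hx hy) hE hκ hn hK
    (fun j => sum_mem fun l _ => mul_mem (amp_mem_lf_comm A (mir_mem hstd (ha.mem l)))
      (h.rmem j l M))
    (fun j => cs_norm A (h.cr j) (h.ramp j) zero_le_one fun l =>
      (mir_norm hstd (ha.mem l)).trans (uni_norm_le (ha.uni l))) (fun j => ?_)
    (fun j => by rw [← cs_sub]; exact cs_norm A (h.cr j) (h.ramp j) (by positivity) hb1)
    (fun j hj => ?_)
    ((A.norm_amp_le _).trans n1) ((xi_amp A x1 (by positivity)).mono (by linarith))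
    ((xi_amp A x2 (by positivity)).mono (by linarith)) (amp_mem_lf_comm A hy)
    (fun j => gn_amp A he (by positivity) (h.cl j) (h.cr j) (fun l => h.lmem j l M)
      (fun l => h.rmem j l M) (h.ramp j) fun l => h.lemb j l ξ) (fun j => ?_) (hU n).1 (hU n).2
  · change _ ∈ (lf A N).commutant
    rw [← cl, ← cr]
    exact sum_mem fun l _ => mul_mem (amp_mem_lf_comm A (hb l)) (h.rmem j l N)
  · have h3 := (low_key h hj (fun _ l => emb A ((bb l - mir M ξ (a l)) ξ))
      fun _ _ => h.demb j _).2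
    have h4 : ∑ l, ∑ l', L j l (Rr j l' (emb A ((bb l' - mir M ξ (a l')) ξ))) =
        (cs A (Rr j) bb - cs A (Rr j) fun l => mir M ξ (a l)) (emb A ξ) := by
      simp only [← map_sum]
      rw [← sum_apply, (h.cl j).sum, one_apply_eq_self, ← cs_sub, cs, sum_apply]
      exact Finset.sum_congr rfl fun l _ => by rw [← h.ramp, mul_apply_eq_comp, amp_emb]
    simp only [h4, emb_adj_emb, norm_emb, sub_self, Finset.sum_const_zero, mul_zero,
      zero_add] at h3
    refine abs_le_of_sq_le_sq' ?_ (by positivity) |>.2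
    rw [h3, inv_mul_le_iff₀ (by exact_mod_cast Fintype.card_pos), ← nsmul_eq_mul]
    exact Finset.sum_le_card_nsmul _ _ _ fun l _ =>
      pow_le_pow_left₀ (norm_nonneg _) ((hb2 l).apply_le (by positivity)) 2
  · simp only [funext hT, cm, cs_sub, cs_add, cl, cr]

end Vale.Agent.KK
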